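import Vale.Agent.Lib.P252.Defs

/-!
# P252: shared definitions for the proof modules (not part of the statement)
-/

open scoped ContDiff Topology
open Matrix

namespace P252

/-! ### The kernel operator -/

/-- `B j φ ρ = ∫₀¹ w^j φ(ρ w²) dw`. -/
noncomputable def B (j : ℕ) (φ : ℝ → ℝ) (ρ : ℝ) : ℝ :=
  ∫ w in (0 : ℝ)..1, w ^ j * φ (ρ * w ^ 2)

/-! ### The reduced ODE -/

/-- The source term `h(β,b,z)`. -/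
noncomputable def hS (k : ℕ) (β b z : ℝ) : ℝ :=
  β * ((2 * (k : ℝ) + 3) + 2 * b + (3 - 2 * b) * z) / (2 * ((k : ℝ) + 2 * b))

/-- The closed box on which the clamped system coincides with the true one. -/
def Box (β b z Y : ℝ) : Prop :=
  -1 ≤ β ∧ β ≤ 3 ∧ -1 ≤ b ∧ b ≤ 5 ∧ -1 ≤ z ∧ z ≤ 3 / 4 ∧ -1 ≤ Y ∧ Y ≤ 2

/-- The data of a radial profile: the interface between the ODE part and the PDE part.
Here `f = R` as a function of `ρ = |x'|²`, `g = 2 f'`, `G = 2 g'`, `W₁ = W'`, `W₂ = W''`. -/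
structure Prof (k : ℕ) where
  δ : ℝ
  hδ : 0 < δ
  f : ℝ → ℝ
  g : ℝ → ℝ
  G : ℝ → ℝ
  W : ℝ → ℝ
  W₁ : ℝ → ℝ
  W₂ : ℝ → ℝ
  f_smooth : ContDiff ℝ ∞ f
  f_pos : ∀ ρ, 0 < f ρ
  f_deriv : ∀ ρ, HasDerivAt f (g ρ / 2) ρ
  g_deriv : ∀ ρ, -δ < ρ → HasDerivAt g (G ρ / 2) ρ
  g_pos : ∀ ρ, -δ < ρ → 0 < g ρ
  a_pos : ∀ ρ, -δ < ρ → 0 < g ρ + ρ * G ρ
  G_nonneg : ∀ ρ, 0 ≤ ρ → 0 ≤ G ρ
  W_eq : ∀ ρ, -δ < ρ →
    W ρ = (f ρ / (g ρ ^ (k - 1) * (g ρ + ρ * G ρ))) ^ (((k : ℝ) + 2) / ((k : ℝ) + 3))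
  W_deriv : ∀ ρ, -δ < ρ → HasDerivAt W (W₁ ρ) ρ
  W₁_deriv : ∀ ρ, -δ < ρ → HasDerivAt W₁ (W₂ ρ) ρ
  pde : ∀ ρ, 0 ≤ ρ →
    (2 * W₁ ρ + 4 * ρ * W₂ ρ) / (g ρ + ρ * G ρ) + 2 * ((k : ℝ) - 1) * W₁ ρ / g ρ
      + ((k : ℝ) + 2) * W ρ / f ρ = 0

/-! ### Matrices of the radial family -/

/-- The matrix `p E + q x̃x̃ᵀ + r (x̃eᵀ + e x̃ᵀ) + t eeᵀ`, where `E = 1 - eeᵀ`. -/
def Mm {ι : Type*} [DecidableEq ι] (xt e : ι → ℝ) (p q r t : ℝ) : Matrix ι ι ℝ :=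
  Matrix.of fun i j =>
    p * ((if i = j then 1 else 0) - e i * e j) + q * (xt i * xt j)
      + r * (xt i * e j + e i * xt j) + t * (e i * e j)

/-! ### Coordinates on `ℝ^{k+1}` -/

/-- The last basis vector. -/
def eL (k : ℕ) : Fin (k + 1) → ℝ := Pi.single (Fin.last k) 1

/-- The vector `(x', 0)`. -/
def xtF (k : ℕ) (x : Fin (k + 1) → ℝ) : Fin (k + 1) → ℝ :=
  fun i => if i = Fin.last k then 0 else x i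

/-- `ρ = |x'|²`. -/
noncomputable def rhoF (k : ℕ) (x : Fin (k + 1) → ℝ) : ℝ := xtF k x ⬝ᵥ xtF k x

/-- `s =` the last coordinate. -/
def sF (k : ℕ) (x : Fin (k + 1) → ℝ) : ℝ := x (Fin.last k)

end P252
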