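import Mathlib

/-!
# P252: the affine maximal equation (statement definitions only)
-/

open scoped ContDiff
open Matrix

namespace P252

/-- The Hessian matrix of `u` at `x`: the entry `(i,j)` is `∂_i ∂_j u (x)`. -/
noncomputable def hessMat {n : ℕ} (u : (Fin n → ℝ) → ℝ) (x : Fin n → ℝ) :
    Matrix (Fin n) (Fin n) ℝ :=
  Matrix.of fun i j => fderiv ℝ (fun y => fderiv ℝ u y (Pi.single j 1)) x (Pi.single i 1)

/-- `w = (det D²u)^(-(n+1)/(n+2))`. -/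
noncomputable def affW {n : ℕ} (u : (Fin n → ℝ) → ℝ) (x : Fin n → ℝ) : ℝ :=
  (hessMat u x).det ^ (-(((n : ℝ) + 1) / ((n : ℝ) + 2)))

/-- The affine maximal equation at `x`: `∑ U^{ij} ∂_ij w = 0` with `U = det(D²u) (D²u)⁻¹`. -/
def AffineMaximalAt {n : ℕ} (u : (Fin n → ℝ) → ℝ) (x : Fin n → ℝ) : Prop :=
  ∑ i, ∑ j, ((hessMat u x).det • (hessMat u x)⁻¹) i j * hessMat (affW u) x i j = 0

/-- `u` is a polynomial of degree at most two. -/
def IsQuadratic {n : ℕ} (u : (Fin n → ℝ) → ℝ) : Prop :=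
  ∃ (A : Matrix (Fin n) (Fin n) ℝ) (b : Fin n → ℝ) (c : ℝ),
    ∀ x, u x = (1 / 2) * (x ⬝ᵥ A *ᵥ x) + b ⬝ᵥ x + c

end P252
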