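import Vale.Agent.Lib.P252.Defs

/-!
# P252: completeness of the Berwald-Blaschke metric (statement definitions only)
-/

open scoped Topology
open Matrix

namespace P252

/-- The Berwald-Blaschke quadratic form at `x`: `g^aff(ξ,ξ) = (det D²u)^(-1/(n+2)) ξᵀ (D²u) ξ`. -/
noncomputable def affMetric {n : ℕ} (u : (Fin n → ℝ) → ℝ) (x ξ : Fin n → ℝ) : ℝ :=
  (hessMat u x).det ^ (-(1 / ((n : ℝ) + 2))) * (ξ ⬝ᵥ hessMat u x *ᵥ ξ)

/-- Completeness of the Berwald-Blaschke metric: every `C¹` curve `[0,1) → ℝⁿ` that goes to infinity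
has infinite length for the metric. -/
def AffineComplete {n : ℕ} (u : (Fin n → ℝ) → ℝ) : Prop :=
  ∀ γ γ' : ℝ → Fin n → ℝ,
    (∀ t ∈ Set.Ico (0 : ℝ) 1, HasDerivAt γ (γ' t) t) →
    ContinuousOn γ' (Set.Ico (0 : ℝ) 1) →
    Filter.Tendsto (fun t => ‖γ t‖) (𝓝[<] 1) Filter.atTop →
    ∀ L : ℝ, ∃ T ∈ Set.Ico (0 : ℝ) 1, L < ∫ t in (0 : ℝ)..T, Real.sqrt (affMetric u (γ t) (γ' t))

end P252
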