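import Vale.Agent.Lib.P252.Core

/-!
# P252 module M1
kernel operator
-/

open scoped ContDiff Topology
open Matrix

namespace P252

private theorem m1_integrand_cont (j : ℕ) {ψ : ℝ → ℝ} (hψ : Continuous ψ) :
    Continuous (fun p : ℝ × ℝ => p.2 ^ j * ψ (p.1 * p.2 ^ 2)) := by
  fun_prop

theorem B_hasDerivAt (j : ℕ) {φ : ℝ → ℝ} (hφ : ContDiff ℝ 1 φ) (ρ : ℝ) :
    HasDerivAt (B j φ) (B (j + 2) (deriv φ) ρ) ρ := by
  have hφ' : Continuous (deriv φ) := hφ.continuous_deriv le_rfl
  have hφc : Continuous φ := hφ.continuous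
  have hφd : Differentiable ℝ φ := hφ.differentiable (by norm_num)
  -- a uniform bound on the compact set
  have hcomp : IsCompact (Set.Icc (ρ - 1) (ρ + 1) ×ˢ Set.Icc (0 : ℝ) 1) :=
    isCompact_Icc.prod isCompact_Icc
  have hcont' : Continuous (fun p : ℝ × ℝ => p.2 ^ (j + 2) * deriv φ (p.1 * p.2 ^ 2)) :=
    m1_integrand_cont (j + 2) hφ'
  obtain ⟨C, hC⟩ := hcomp.exists_bound_of_continuousOn hcont'.continuousOn
  have key := intervalIntegral.hasDerivAt_integral_of_dominated_loc_of_deriv_le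
    (μ := MeasureTheory.volume) (a := (0 : ℝ)) (b := 1)
    (F := fun (r w : ℝ) => w ^ j * φ (r * w ^ 2))
    (F' := fun (r w : ℝ) => w ^ (j + 2) * deriv φ (r * w ^ 2))
    (x₀ := ρ) (s := Set.Ioo (ρ - 1) (ρ + 1)) (bound := fun _ => C)
    (Ioo_mem_nhds (by linarith) (by linarith))
    (Filter.Eventually.of_forall fun r =>
      ((m1_integrand_cont j hφc).comp (Continuous.prodMk_right r)).aestronglyMeasurable)
    (((m1_integrand_cont j hφc).comp (Continuous.prodMk_right ρ)).intervalIntegrable _ _)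
    (((m1_integrand_cont (j + 2) hφ').comp (Continuous.prodMk_right ρ)).aestronglyMeasurable)
    ?_ intervalIntegrable_const ?_
  · exact key.2
  · refine Filter.Eventually.of_forall fun w hw r hr => ?_
    rw [Set.uIoc_of_le zero_le_one] at hw
    have := hC (r, w) ⟨⟨hr.1.le, hr.2.le⟩, ⟨hw.1.le, hw.2⟩⟩
    simpa using this
  · refine Filter.Eventually.of_forall fun w _ r _ => ?_
    have h1 : HasDerivAt (fun r : ℝ => r * w ^ 2) (w ^ 2) r := by
      simpa using (hasDerivAt_id r).mul_const (w ^ 2)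
    have h2 : HasDerivAt (fun r : ℝ => φ (r * w ^ 2)) (deriv φ (r * w ^ 2) * w ^ 2) r :=
      (hφd (r * w ^ 2)).hasDerivAt.comp r h1
    have h3 := h2.const_mul (w ^ j)
    have e : w ^ (j + 2) * deriv φ (r * w ^ 2) = w ^ j * (deriv φ (r * w ^ 2) * w ^ 2) := by ring
    rw [e]
    exact h3

theorem B_contDiff (j m : ℕ) {φ : ℝ → ℝ} (hφ : ContDiff ℝ m φ) : ContDiff ℝ m (B j φ) := by
  induction m generalizing j φ with
  | zero =>
    have hc : Continuous φ := by simpa using hφ.continuous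
    have : Continuous (B j φ) := by
      unfold B
      exact intervalIntegral.continuous_parametric_intervalIntegral_of_continuous'
        (m1_integrand_cont j hc) _ _
    have h0 : ContDiff ℝ 0 (B j φ) := contDiff_zero.2 this
    simpa using h0
  | succ m ih =>
    have hφ1 : ContDiff ℝ 1 φ := hφ.of_le (by exact_mod_cast Nat.le_add_left 1 m)
    have hder : ∀ ρ, HasDerivAt (B j φ) (B (j + 2) (deriv φ) ρ) ρ := fun ρ => B_hasDerivAt j hφ1 ρ
    have hdd : deriv (B j φ) = B (j + 2) (deriv φ) := funext fun ρ => (hder ρ).deriv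
    have hφs : ContDiff ℝ (((m : ℕ) : WithTop ℕ∞) + 1) φ := by exact_mod_cast hφ
    have hφ' : ContDiff ℝ m (deriv φ) := (contDiff_succ_iff_deriv.1 hφs).2.2
    have hB := ih (j + 2) hφ'
    rw [← hdd] at hB
    have hdiff : Differentiable ℝ (B j φ) := fun ρ => (hder ρ).differentiableAt
    have hfin : ContDiff ℝ (((m : ℕ) : WithTop ℕ∞) + 1) (B j φ) :=
      contDiff_succ_iff_deriv.2 ⟨hdiff, by simp, hB⟩
    exact_mod_cast hfin

theorem B_euler (j : ℕ) {φ : ℝ → ℝ} (hφ : ContDiff ℝ 1 φ) (ρ : ℝ) :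
    φ ρ = ((j : ℝ) + 1) * B j φ ρ + 2 * ρ * B (j + 2) (deriv φ) ρ := by
  have hφ' : Continuous (deriv φ) := hφ.continuous_deriv le_rfl
  have hφc : Continuous φ := hφ.continuous
  have hφd : Differentiable ℝ φ := hφ.differentiable (by norm_num)
  have hderiv : ∀ w ∈ Set.uIcc (0 : ℝ) 1,
      HasDerivAt (fun w : ℝ => w ^ (j + 1) * φ (ρ * w ^ 2))
        (((j : ℝ) + 1) * (w ^ j * φ (ρ * w ^ 2))
          + 2 * ρ * (w ^ (j + 2) * deriv φ (ρ * w ^ 2))) w := by
    intro w _
    have h1 : HasDerivAt (fun w : ℝ => ρ * w ^ 2) (ρ * (2 * w)) w := by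
      have := ((hasDerivAt_id w).pow 2).const_mul ρ
      simpa using this
    have h2 : HasDerivAt (fun w : ℝ => φ (ρ * w ^ 2)) (deriv φ (ρ * w ^ 2) * (ρ * (2 * w))) w :=
      (hφd (ρ * w ^ 2)).hasDerivAt.comp w h1
    have h3 : HasDerivAt (fun w : ℝ => w ^ (j + 1)) (((j : ℝ) + 1) * w ^ j) w := by
      simpa using hasDerivAt_pow (j + 1) w
    have h4 := h3.mul h2
    have e : ((j : ℝ) + 1) * (w ^ j * φ (ρ * w ^ 2))
          + 2 * ρ * (w ^ (j + 2) * deriv φ (ρ * w ^ 2))
        = ((j : ℝ) + 1) * w ^ j * φ (ρ * w ^ 2)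
          + w ^ (j + 1) * (deriv φ (ρ * w ^ 2) * (ρ * (2 * w))) := by ring
    rw [e]
    exact h4
  have hint1 : IntervalIntegrable (fun w : ℝ => ((j : ℝ) + 1) * (w ^ j * φ (ρ * w ^ 2)))
      MeasureTheory.volume 0 1 :=
    (Continuous.intervalIntegrable (by fun_prop) _ _)
  have hint2 : IntervalIntegrable (fun w : ℝ => 2 * ρ * (w ^ (j + 2) * deriv φ (ρ * w ^ 2)))
      MeasureTheory.volume 0 1 :=
    (Continuous.intervalIntegrable (by fun_prop) _ _)
  have hftc := intervalIntegral.integral_eq_sub_of_hasDerivAt hderiv (hint1.add hint2)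
  rw [intervalIntegral.integral_add hint1 hint2, intervalIntegral.integral_const_mul,
    intervalIntegral.integral_const_mul] at hftc
  simp only [B]
  simp at hftc
  linarith

theorem B_zero (j : ℕ) (φ : ℝ → ℝ) : B j φ 0 = φ 0 / ((j : ℝ) + 1) := by
  unfold B
  simp only [zero_mul]
  rw [intervalIntegral.integral_mul_const, integral_pow]
  simp
  ring

end P252
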