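import Vale.Agent.Lib.P252.M8

/-!
# P252 module M9
the function w: formula and Hessian
-/

open scoped ContDiff Topology
open Matrix

namespace P252

/-- Two-variable derivative with explicit first derivatives. -/
def M9D2 (F : ℝ × ℝ → ℝ) (A B : ℝ) (z : ℝ × ℝ) : Prop :=
  HasFDerivAt F (A • ContinuousLinearMap.fst ℝ ℝ ℝ + B • ContinuousLinearMap.snd ℝ ℝ ℝ) z

namespace M9D2

variable {F H : ℝ × ℝ → ℝ} {A B C D : ℝ} {z : ℝ × ℝ}

theorem congr (h : M9D2 F A B z) (hA : A = C) (hB : B = D) : M9D2 F C D z := by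
  subst hA hB; exact h

theorem fun_congr (h : M9D2 F A B z) (hFH : ∀ y, F y = H y) : M9D2 H A B z := by
  have : F = H := funext hFH
  subst this; exact h

theorem comp_fst {h : ℝ → ℝ} {h' : ℝ} (H : HasDerivAt h h' z.1) :
    M9D2 (fun y => h y.1) h' 0 z := by
  have h1 := H.comp_hasFDerivAt z (hasFDerivAt_fst (𝕜 := ℝ) (p := z))
  unfold M9D2
  refine h1.congr_fderiv ?_
  ext <;> simp

theorem snd_ : M9D2 (fun y => y.2) 0 1 z := by
  have h1 := hasFDerivAt_snd (𝕜 := ℝ) (p := z)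
  unfold M9D2
  refine h1.congr_fderiv ?_
  ext <;> simp

theorem const_ (c : ℝ) : M9D2 (fun _ => c) 0 0 z := by
  have h1 := hasFDerivAt_const (𝕜 := ℝ) (x := z) c
  unfold M9D2
  refine h1.congr_fderiv ?_
  ext <;> simp

theorem add (hF : M9D2 F A B z) (hH : M9D2 H C D z) :
    M9D2 (fun y => F y + H y) (A + C) (B + D) z := by
  have h1 := HasFDerivAt.fun_add hF hH
  unfold M9D2
  refine h1.congr_fderiv ?_
  ext <;> simp

theorem sub (hF : M9D2 F A B z) (hH : M9D2 H C D z) :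
    M9D2 (fun y => F y - H y) (A - C) (B - D) z := by
  have h1 := HasFDerivAt.fun_sub hF hH
  unfold M9D2
  refine h1.congr_fderiv ?_
  ext <;> simp

theorem mul (hF : M9D2 F A B z) (hH : M9D2 H C D z) :
    M9D2 (fun y => F y * H y) (F z * C + H z * A) (F z * D + H z * B) z := by
  have h1 := HasFDerivAt.fun_mul hF hH
  unfold M9D2
  refine h1.congr_fderiv ?_
  ext <;> simp

theorem pow (hF : M9D2 F A B z) (n : ℕ) :
    M9D2 (fun y => F y ^ n) (n * F z ^ (n - 1) * A) (n * F z ^ (n - 1) * B) z := by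
  have h1 := HasFDerivAt.pow hF n
  unfold M9D2
  refine h1.congr_fderiv ?_
  ext <;> simp

theorem inv (hF : M9D2 F A B z) (h0 : F z ≠ 0) :
    M9D2 (fun y => (F y)⁻¹) (-(A / F z ^ 2)) (-(B / F z ^ 2)) z := by
  have h1 := (hasDerivAt_inv h0).comp_hasFDerivAt z hF
  unfold M9D2
  refine h1.congr_fderiv ?_
  ext <;> simp <;> field_simp

theorem div (hF : M9D2 F A B z) (hH : M9D2 H C D z) (h0 : H z ≠ 0) :
    M9D2 (fun y => F y / H y) (A / H z - F z * C / H z ^ 2) (B / H z - F z * D / H z ^ 2) z := by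
  have h1 := mul hF (inv hH h0)
  refine (h1.fun_congr (fun y => by rw [div_eq_mul_inv])).congr ?_ ?_
  · field_simp; ring
  · field_simp; ring

theorem sqrt_ (hF : M9D2 F A B z) (h0 : 0 < F z) :
    M9D2 (fun y => Real.sqrt (F y)) (A / (2 * Real.sqrt (F z))) (B / (2 * Real.sqrt (F z))) z := by
  have h1 := (Real.hasDerivAt_sqrt h0.ne').comp_hasFDerivAt z hF
  unfold M9D2
  refine h1.congr_fderiv ?_
  ext <;> simp <;> ring

end M9D2

/-- The rational heart of M9: the trace identity, with `u` eliminated. -/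
theorem M9_trace_rat (K f g G W W1 W2 ρ s Z : ℝ) (hf : f ≠ 0) (hg : g ≠ 0)
    (ha : g + ρ * G ≠ 0) (hU : f ^ 2 + s ^ 2 ≠ 0) :
    let n1 := K + 2
    let U := f ^ 2 + s ^ 2
    let lam := s ^ 2 / U
    let Zρ := -n1 * Z * (g / f) * lam / 2
    let Zs := n1 * Z * s / U
    let lamρ := -s ^ 2 * f * g / U ^ 2
    let lams := 2 * s * f ^ 2 / U ^ 2
    let gfρ := G / (2 * f) - g ^ 2 / (2 * f ^ 2)
    let T0 := W1 - n1 * W * (g / f) * lam / 2
    let Tρ := W2 - n1 * (W1 * (g / f) * lam + W * gfρ * lam + W * (g / f) * lamρ) / 2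
    let Ts := -n1 * W * (g / f) * lams / 2
    let P1 := Zρ * T0 + Z * Tρ
    let P2 := Zs * T0 + Z * Ts
    let S2 := W * n1 * (Zs * s / U + Z / U - 2 * Z * s ^ 2 / U ^ 2)
    let pI0 := 1 / (f * g)
    let qI0 := -G / (f * g * (g + ρ * G))
    let rI0 := s * g / (f ^ 2 * (g + ρ * G))
    let tI0 := (f * g * U + (f * G * U + (s * g) ^ 2) * ρ) / (f ^ 3 * (g + ρ * G))
    pI0 * (2 * (Z * T0)) * K + (pI0 * (4 * P1) + qI0 * (2 * (Z * T0))) * ρ
        + qI0 * (4 * P1) * ρ ^ 2 + 2 * rI0 * (2 * P2) * ρ + tI0 * S2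
      = (1 / f) * Z * ((2 * W1 + 4 * ρ * W2) / (g + ρ * G) + 2 * (K - 1) * W1 / g + (K + 2) * W / f) := by
  intro n1 U lam Zρ Zs lamρ lams gfρ T0 Tρ Ts P1 P2 S2 pI0 qI0 rI0 tI0
  simp only [n1, U, lam, Zρ, Zs, lamρ, lams, gfρ, T0, Tρ, Ts, P1, P2, S2, pI0, qI0, rI0, tI0]
  have ha2 : g + G * ρ ≠ 0 := by rwa [mul_comm G ρ]
  field_simp
  ring

/-! ### The functions on `(ρ, s)` -/

section
variable {k : ℕ} (P : Prof k)

noncomputable def M9Z (y : ℝ × ℝ) : ℝ := (uΨ P y / P.f y.1) ^ (k + 2)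

noncomputable def M9lam (y : ℝ × ℝ) : ℝ := y.2 ^ 2 / (P.f y.1 ^ 2 + y.2 ^ 2)

noncomputable def M9T (y : ℝ × ℝ) : ℝ :=
  P.W₁ y.1 - ((k : ℝ) + 2) * P.W y.1 * (P.g y.1 / P.f y.1) * M9lam P y / 2

noncomputable def M9PP (y : ℝ × ℝ) : ℝ := M9Z P y * M9T P y

noncomputable def M9SS (y : ℝ × ℝ) : ℝ :=
  P.W y.1 * ((k : ℝ) + 2) * M9Z P y * y.2 / (P.f y.1 ^ 2 + y.2 ^ 2)

/-- `Z_ρ`. -/
noncomputable def M9Zr (z : ℝ × ℝ) : ℝ :=
  -((k : ℝ) + 2) * M9Z P z * (P.g z.1 / P.f z.1) * M9lam P z / 2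

/-- `Z_s`. -/
noncomputable def M9Zs (z : ℝ × ℝ) : ℝ :=
  ((k : ℝ) + 2) * M9Z P z * z.2 / (P.f z.1 ^ 2 + z.2 ^ 2)

noncomputable def M9lamr (z : ℝ × ℝ) : ℝ :=
  -z.2 ^ 2 * P.f z.1 * P.g z.1 / (P.f z.1 ^ 2 + z.2 ^ 2) ^ 2

noncomputable def M9lams (z : ℝ × ℝ) : ℝ :=
  2 * z.2 * P.f z.1 ^ 2 / (P.f z.1 ^ 2 + z.2 ^ 2) ^ 2

noncomputable def M9gfr (z : ℝ × ℝ) : ℝ :=
  P.G z.1 / (2 * P.f z.1) - P.g z.1 ^ 2 / (2 * P.f z.1 ^ 2)

noncomputable def M9Tr (z : ℝ × ℝ) : ℝ :=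
  P.W₂ z.1 - ((k : ℝ) + 2) * (P.W₁ z.1 * (P.g z.1 / P.f z.1) * M9lam P z
      + P.W z.1 * M9gfr P z * M9lam P z + P.W z.1 * (P.g z.1 / P.f z.1) * M9lamr P z) / 2

noncomputable def M9Ts (z : ℝ × ℝ) : ℝ :=
  -((k : ℝ) + 2) * P.W z.1 * (P.g z.1 / P.f z.1) * M9lams P z / 2

noncomputable def M9P1 (z : ℝ × ℝ) : ℝ := M9Zr P z * M9T P z + M9Z P z * M9Tr P z

noncomputable def M9P2 (z : ℝ × ℝ) : ℝ := M9Zs P z * M9T P z + M9Z P z * M9Ts P z

noncomputable def M9S2 (z : ℝ × ℝ) : ℝ :=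
  P.W z.1 * ((k : ℝ) + 2) * (M9Zs P z * z.2 / (P.f z.1 ^ 2 + z.2 ^ 2)
    + M9Z P z / (P.f z.1 ^ 2 + z.2 ^ 2)
    - 2 * M9Z P z * z.2 ^ 2 / (P.f z.1 ^ 2 + z.2 ^ 2) ^ 2)

theorem M9_U_pos (z : ℝ × ℝ) : 0 < P.f z.1 ^ 2 + z.2 ^ 2 := by
  have := P.f_pos z.1
  positivity

theorem M9_u_sq (z : ℝ × ℝ) : uΨ P z ^ 2 = P.f z.1 ^ 2 + z.2 ^ 2 :=
  Real.sq_sqrt (M9_U_pos P z).le

theorem M9_u_pos (z : ℝ × ℝ) : 0 < uΨ P z := Real.sqrt_pos.2 (M9_U_pos P z)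

theorem M9_d_f (z : ℝ × ℝ) : M9D2 (fun y => P.f y.1) (P.g z.1 / 2) 0 z :=
  M9D2.comp_fst (P.f_deriv z.1)

variable {P} {z : ℝ × ℝ}

theorem M9_d_g (hz : -P.δ < z.1) : M9D2 (fun y => P.g y.1) (P.G z.1 / 2) 0 z :=
  M9D2.comp_fst (P.g_deriv z.1 hz)

theorem M9_d_W (hz : -P.δ < z.1) : M9D2 (fun y => P.W y.1) (P.W₁ z.1) 0 z :=
  M9D2.comp_fst (P.W_deriv z.1 hz)

theorem M9_d_W₁ (hz : -P.δ < z.1) : M9D2 (fun y => P.W₁ y.1) (P.W₂ z.1) 0 z :=
  M9D2.comp_fst (P.W₁_deriv z.1 hz)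

variable (P z)

theorem M9_d_U : M9D2 (fun y => P.f y.1 ^ 2 + y.2 ^ 2) (P.f z.1 * P.g z.1) (2 * z.2) z := by
  refine (((M9_d_f P z).pow 2).add ((M9D2.snd_ (z := z)).pow 2)).congr ?_ ?_
  · simp; ring
  · simp

theorem M9_d_u : M9D2 (uΨ P) (P.f z.1 * P.g z.1 / (2 * uΨ P z)) (z.2 / uΨ P z) z := by
  have hu := M9_u_pos P z
  refine ((M9_d_U P z).sqrt_ (M9_U_pos P z)).congr ?_ ?_
  · rfl
  · change 2 * z.2 / (2 * uΨ P z) = z.2 / uΨ P z
    field_simp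

theorem M9_d_q : M9D2 (fun y => uΨ P y / P.f y.1)
    (-(uΨ P z / P.f z.1) * (P.g z.1 / P.f z.1) * M9lam P z / 2)
    ((uΨ P z / P.f z.1) * z.2 / (P.f z.1 ^ 2 + z.2 ^ 2)) z := by
  have hu := M9_u_pos P z
  have hf := P.f_pos z.1
  have hsq := M9_u_sq P z
  have hs : z.2 ^ 2 = uΨ P z ^ 2 - P.f z.1 ^ 2 := by rw [hsq]; ring
  refine ((M9_d_u P z).div (M9_d_f P z) hf.ne').congr ?_ ?_
  · unfold M9lam
    rw [← hsq, hs]
    field_simp
    ring
  · rw [← hsq]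
    field_simp
    ring

theorem M9_d_Z : M9D2 (M9Z P) (M9Zr P z) (M9Zs P z) z := by
  refine ((M9_d_q P z).pow (k + 2)).congr ?_ ?_
  · unfold M9Zr M9Z
    have : k + 2 - 1 = k + 1 := rfl
    rw [this]
    push_cast
    ring
  · unfold M9Zs M9Z
    have : k + 2 - 1 = k + 1 := rfl
    rw [this]
    push_cast
    ring

theorem M9_d_lam : M9D2 (M9lam P) (M9lamr P z) (M9lams P z) z := by
  have hU := M9_U_pos P z
  refine (((M9D2.snd_ (z := z)).pow 2).div (M9_d_U P z) hU.ne').congr ?_ ?_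
  · unfold M9lamr
    simp
    field_simp
  · unfold M9lams
    simp
    field_simp
    ring

variable {P z}

theorem M9_d_gf (hz : -P.δ < z.1) :
    M9D2 (fun y => P.g y.1 / P.f y.1) (M9gfr P z) 0 z := by
  have hf := P.f_pos z.1
  refine ((M9_d_g hz).div (M9_d_f P z) hf.ne').congr ?_ ?_
  · unfold M9gfr
    field_simp
  · simp

theorem M9_d_T (hz : -P.δ < z.1) : M9D2 (M9T P) (M9Tr P z) (M9Ts P z) z := by
  have h1 : M9D2 (fun y => ((k : ℝ) + 2) * P.W y.1 * (P.g y.1 / P.f y.1) * M9lam P y / 2)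
      (((k : ℝ) + 2) * (P.W₁ z.1 * (P.g z.1 / P.f z.1) * M9lam P z
        + P.W z.1 * M9gfr P z * M9lam P z + P.W z.1 * (P.g z.1 / P.f z.1) * M9lamr P z) / 2)
      (((k : ℝ) + 2) * P.W z.1 * (P.g z.1 / P.f z.1) * M9lams P z / 2) z := by
    refine (((((M9D2.const_ ((k : ℝ) + 2)).mul (M9_d_W hz)).mul (M9_d_gf hz)).mul
      (M9_d_lam P z)).div (M9D2.const_ 2) (by norm_num)).congr ?_ ?_
    · simp only [sub_eq_add_neg]
      field_simp
      ring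
    · simp only [sub_eq_add_neg]
      field_simp
      ring
  refine ((M9_d_W₁ hz).sub h1).congr ?_ ?_
  · rfl
  · unfold M9Ts
    ring

theorem M9_d_PP (hz : -P.δ < z.1) : M9D2 (M9PP P) (M9P1 P z) (M9P2 P z) z := by
  refine ((M9_d_Z P z).mul (M9_d_T hz)).congr ?_ ?_
  · unfold M9P1; ring
  · unfold M9P2; ring

theorem M9_d_SS (hz : -P.δ < z.1) : M9D2 (M9SS P) (M9P2 P z) (M9S2 P z) z := by
  have hU := M9_U_pos P z
  have hf := P.f_pos z.1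
  refine ((((((M9_d_W hz).mul (M9D2.const_ ((k : ℝ) + 2))).mul (M9_d_Z P z)).mul
    (M9D2.snd_ (z := z))).div (M9_d_U P z) hU.ne')).congr ?_ ?_
  · unfold M9P2 M9Zs M9Zr M9T M9Ts M9lams M9lam
    simp only [sub_eq_add_neg]
    field_simp
    ring
  · unfold M9S2 M9Zs
    field_simp
    ring

theorem M9_d_w (hz : -P.δ < z.1) : M9D2 (wΨ P) (M9PP P z) (M9SS P z) z := by
  refine ((M9_d_W hz).mul (M9_d_Z P z)).congr ?_ ?_
  · unfold M9PP M9T M9Zr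
    ring
  · unfold M9SS M9Zs
    ring

end

/-- `w = W(ρ) (u/f)^(k+2)`. -/
theorem affW_eq {k : ℕ} (hk : 1 ≤ k) (P : Prof k) :
    affW (uFun P) = fun x => wΨ P (rhoF k x, sF k x) := by
  funext x
  have hρ : -P.δ < rhoF k x := by
    have := rhoF_nonneg k x
    have := P.hδ
    linarith
  have hf := P.f_pos (rhoF k x)
  have hg := P.g_pos _ hρ
  have ha := P.a_pos _ hρ
  have hu := M9_u_pos P (rhoF k x, sF k x)
  unfold affW wΨ
  rw [uFun_det hk P x, P.W_eq _ hρ]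
  dsimp only
  set f := P.f (rhoF k x)
  set g := P.g (rhoF k x)
  set G := P.G (rhoF k x)
  set u := uΨ P (rhoF k x, sF k x)
  set ρ := rhoF k x
  have hX : 0 < g ^ (k - 1) * (g + ρ * G) := by positivity
  set X := g ^ (k - 1) * (g + ρ * G) with hXdef
  have hKpos : (0 : ℝ) < (k : ℝ) + 3 := by positivity
  set γ : ℝ := ((k : ℝ) + 2) / ((k : ℝ) + 3) with hγ
  have hexp : -((((k + 1 : ℕ) : ℝ) + 1) / (((k + 1 : ℕ) : ℝ) + 2)) = -γ := by
    rw [hγ]; push_cast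
    congr 1
    field_simp
    ring
  rw [hexp]
  have hD : f ^ (k + 2) * g ^ (k - 1) * (g + ρ * G) / u ^ (k + 3)
      = (u ^ (k + 3) / (f ^ (k + 2) * X))⁻¹ := by
    rw [inv_div, hXdef]; ring
  rw [hD, Real.rpow_neg (by positivity), Real.inv_rpow (by positivity), inv_inv]
  have hq : (u / f) ^ (k + 2) = ((u / f) ^ (k + 3)) ^ γ := by
    rw [← Real.rpow_natCast, ← Real.rpow_natCast, ← Real.rpow_mul (by positivity)]
    congr 1
    rw [hγ]; push_cast; field_simp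
  rw [hq, ← Real.mul_rpow (by positivity) (by positivity)]
  congr 1
  have e : (u / f) ^ (k + 3) = u ^ (k + 3) / f ^ (k + 3) := div_pow _ _ _
  rw [e]
  field_simp
  ring

/-- The Hessian of `w`. Here `n₁ = k + 2`, and `Z = (u/f)^(k+2)`. -/
theorem wFun_hess {k : ℕ} (P : Prof k) (x : Fin (k + 1) → ℝ) :
    ∃ p' q' r' t' : ℝ,
      hessMat (fun y => wΨ P (rhoF k y, sF k y)) x = Mm (xtF k x) (eL k) p' q' r' t' ∧
      (∀ pI qI rI tI : ℝ,
        pI = uΨ P (rhoF k x, sF k x) / (P.f (rhoF k x) * P.g (rhoF k x)) →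
        qI = - P.G (rhoF k x) * uΨ P (rhoF k x, sF k x) /
          (P.f (rhoF k x) * P.g (rhoF k x) * (P.g (rhoF k x) + rhoF k x * P.G (rhoF k x))) →
        rI = uΨ P (rhoF k x, sF k x) * sF k x * P.g (rhoF k x) /
          (P.f (rhoF k x) ^ 2 * (P.g (rhoF k x) + rhoF k x * P.G (rhoF k x))) →
        tI = (P.f (rhoF k x) * P.g (rhoF k x) / uΨ P (rhoF k x, sF k x)
              + (P.f (rhoF k x) * P.G (rhoF k x) / uΨ P (rhoF k x, sF k x)
                  + 1 / uΨ P (rhoF k x, sF k x) ^ 3 * (sF k x * P.g (rhoF k x)) ^ 2) * rhoF k x)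
            / (P.f (rhoF k x) ^ 3 * (P.g (rhoF k x) + rhoF k x * P.G (rhoF k x))
                / uΨ P (rhoF k x, sF k x) ^ 4) →
        pI * p' * k + (pI * q' + qI * p') * rhoF k x + qI * q' * rhoF k x ^ 2
            + 2 * rI * r' * rhoF k x + tI * t'
          = (uΨ P (rhoF k x, sF k x) / P.f (rhoF k x))
              * (uΨ P (rhoF k x, sF k x) / P.f (rhoF k x)) ^ (k + 2)
              * ((2 * P.W₁ (rhoF k x) + 4 * rhoF k x * P.W₂ (rhoF k x))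
                    / (P.g (rhoF k x) + rhoF k x * P.G (rhoF k x))
                  + 2 * ((k : ℝ) - 1) * P.W₁ (rhoF k x) / P.g (rhoF k x)
                  + ((k : ℝ) + 2) * P.W (rhoF k x) / P.f (rhoF k x))) := by
  have hρ : -P.δ < rhoF k x := by
    have := rhoF_nonneg k x
    have := P.hδ
    linarith
  refine ⟨2 * M9PP P (rhoF k x, sF k x), 4 * M9P1 P (rhoF k x, sF k x),
    2 * M9P2 P (rhoF k x, sF k x), M9S2 P (rhoF k x, sF k x),
    hess_comp k (wΨ P) (M9PP P) (M9SS P) _ _ _ x ?_ (M9_d_PP hρ) (M9_d_SS hρ), ?_⟩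
  · have hopen : IsOpen {z : ℝ × ℝ | -P.δ < z.1} := isOpen_lt continuous_const continuous_fst
    filter_upwards [hopen.mem_nhds hρ] with z hz
    exact M9_d_w hz
  · intro pI qI rI tI hp hq hr ht
    have hf := P.f_pos (rhoF k x)
    have hg := P.g_pos _ hρ
    have ha := P.a_pos _ hρ
    have hu := M9_u_pos P (rhoF k x, sF k x)
    have hsq := M9_u_sq P (rhoF k x, sF k x)
    dsimp only at hsq
    have hmain := M9_trace_rat (k : ℝ) (P.f (rhoF k x)) (P.g (rhoF k x)) (P.G (rhoF k x))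
      (P.W (rhoF k x)) (P.W₁ (rhoF k x)) (P.W₂ (rhoF k x)) (rhoF k x) (sF k x)
      (M9Z P (rhoF k x, sF k x)) hf.ne' hg.ne' ha.ne' (M9_U_pos P (rhoF k x, sF k x)).ne'
    dsimp only at hmain
    have hZ : (uΨ P (rhoF k x, sF k x) / P.f (rhoF k x)) ^ (k + 2)
        = M9Z P (rhoF k x, sF k x) := rfl
    rw [hZ]
    simp only [M9PP, M9P1, M9P2, M9S2, M9T, M9Tr, M9Ts, M9Zr, M9Zs, M9lam, M9lamr, M9lams, M9gfr]
    set f := P.f (rhoF k x)
    set g := P.g (rhoF k x)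
    set G := P.G (rhoF k x)
    set W := P.W (rhoF k x)
    set W1 := P.W₁ (rhoF k x)
    set W2 := P.W₂ (rhoF k x)
    set u := uΨ P (rhoF k x, sF k x)
    set ρ := rhoF k x
    set s := sF k x
    set Z := M9Z P (ρ, s)
    have htI : tI = u * ((f * g * (f ^ 2 + s ^ 2) + (f * G * (f ^ 2 + s ^ 2) + (s * g) ^ 2) * ρ)
        / (f ^ 3 * (g + ρ * G))) := by
      rw [ht, ← hsq]
      have ha2 : g + G * ρ ≠ 0 := by rw [mul_comm G ρ]; exact ha.ne'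
      field_simp
    have hpI : pI = u * (1 / (f * g)) := by rw [hp]; ring
    have hqI : qI = u * (-G / (f * g * (g + ρ * G))) := by rw [hq]; ring
    have hrI : rI = u * (s * g / (f ^ 2 * (g + ρ * G))) := by rw [hr]; ring
    rw [htI, hpI, hqI, hrI]
    linear_combination u * hmain

end P252
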