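import Vale.Agent.Lib.P252.M5
import Vale.Agent.Lib.P252.M9

/-!
# P252 module M10
the equation, and the final theorem
-/

open scoped ContDiff Topology
open Matrix

namespace P252

theorem uFun_am {k : ℕ} (hk : 1 ≤ k) (P : Prof k) (x : Fin (k + 1) → ℝ) :
    AffineMaximalAt (uFun P) x := by
  have hρ0 : 0 ≤ rhoF k x := rhoF_nonneg k x
  have hρδ : -P.δ < rhoF k x := by have := P.hδ; linarith
  obtain ⟨p', q', r', t', hW, hTr⟩ := wFun_hess P x
  have hHess := uFun_hess P x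
  have hpde := P.pde _ hρ0
  set ρ := rhoF k x with hρ
  set s := sF k x with hs
  set f := P.f ρ with hf
  set g := P.g ρ with hg
  set G := P.G ρ with hG
  set u := uΨ P (ρ, s) with hu
  have hfpos : 0 < f := P.f_pos ρ
  have hgpos : 0 < g := P.g_pos ρ hρδ
  have hapos : 0 < g + ρ * G := P.a_pos ρ hρδ
  have hupos : 0 < u := by
    rw [hu]; unfold uΨ
    apply Real.sqrt_pos.mpr
    have : 0 < f ^ 2 := by positivity
    have h2 : 0 ≤ s ^ 2 := sq_nonneg s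
    simpa using by linarith
  have hxx : xtF k x ⬝ᵥ xtF k x = ρ := rfl
  have he := eL_dot k
  have hxe := xtF_dot_eL k x
  have hcard : Fintype.card (Fin (k + 1)) = k + 1 := by simp
  unfold AffineMaximalAt
  rw [affW_eq hk P]
  rw [hW, hHess]
  set p := f * g / u with hp
  set q := f * G / u + 1 / u ^ 3 * (s * g) ^ 2 with hq
  set r := 1 / u ^ 3 * (s * g) * (-f) with hr
  set t := 1 / u ^ 3 * (-f) ^ 2 with ht
  have hppos : p ≠ 0 := by rw [hp]; positivity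
  have hΔ : (p + q * ρ) * t - r ^ 2 * ρ = f ^ 3 * (g + ρ * G) / u ^ 4 := by
    rw [hp, hq, hr, ht]; field_simp; ring
  have hΔne : (p + q * ρ) * t - r ^ 2 * ρ ≠ 0 := by rw [hΔ]; positivity
  have hinv := Mm_inv (xtF k x) (eL k) he hxe p q r t hppos (by rw [hxx]; exact hΔne)
  rw [hxx] at hinv
  rw [hinv]
  set D := (Mm (xtF k x) (eL k) p q r t).det with hD
  have hsmul : ∀ i j, (D • Mm (xtF k x) (eL k) (1 / p) ((r ^ 2 - q * t) / (p * ((p + q * ρ) * t - r ^ 2 * ρ)))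
      (-r / ((p + q * ρ) * t - r ^ 2 * ρ)) ((p + q * ρ) / ((p + q * ρ) * t - r ^ 2 * ρ))) i j
      = D * Mm (xtF k x) (eL k) (1 / p) ((r ^ 2 - q * t) / (p * ((p + q * ρ) * t - r ^ 2 * ρ)))
      (-r / ((p + q * ρ) * t - r ^ 2 * ρ)) ((p + q * ρ) / ((p + q * ρ) * t - r ^ 2 * ρ)) i j := by
    intro i j; rfl
  simp only [hsmul, mul_assoc]
  simp only [← Finset.mul_sum]
  rw [Mm_frob (xtF k x) (eL k) k hcard he hxe, hxx]
  have hTr' := hTr (1 / p) ((r ^ 2 - q * t) / (p * ((p + q * ρ) * t - r ^ 2 * ρ)))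
      (-r / ((p + q * ρ) * t - r ^ 2 * ρ)) ((p + q * ρ) / ((p + q * ρ) * t - r ^ 2 * ρ))
      (by rw [hp]; field_simp)
      (by rw [hΔ, hq, hr, ht, hp]; field_simp; ring)
      (by rw [hΔ, hr]; field_simp)
      (by rw [hΔ])
  have : 1 / p * p' * k + (1 / p * q' + (r ^ 2 - q * t) / (p * ((p + q * ρ) * t - r ^ 2 * ρ)) * p') * ρ
      + (r ^ 2 - q * t) / (p * ((p + q * ρ) * t - r ^ 2 * ρ)) * q' * ρ ^ 2
      + 2 * (-r / ((p + q * ρ) * t - r ^ 2 * ρ)) * r' * ρ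
      + (p + q * ρ) / ((p + q * ρ) * t - r ^ 2 * ρ) * t' = 0 := by
    rw [hTr', hpde, mul_zero]
  rw [this, mul_zero]




theorem main_counterexample (n : ℕ) (hn : 10 ≤ n) :
    ∃ u : (Fin n → ℝ) → ℝ, ContDiff ℝ ∞ u ∧ (∀ x, (hessMat u x).PosDef) ∧
      (∀ x, AffineMaximalAt u x) ∧ ¬ IsQuadratic u := by
  obtain ⟨k, rfl⟩ : ∃ k, n = k + 1 := ⟨n - 1, by omega⟩
  have hk : 9 ≤ k := by omega
  obtain ⟨P⟩ := exists_prof k hk
  exact ⟨uFun P, uFun_contDiff P, uFun_posDef P, uFun_am (by omega) P, uFun_not_quadratic P⟩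

end P252
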