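import Vale.Agent.Lib.P252.M5

/-!
# P252 module M5b
the profile of M5 with explicit bounds, for the completeness of the affine metric
-/

open scoped ContDiff Topology
open Matrix

namespace P252

open M5 in
/-- The output of M3 + M4, in terms of `β` and `Y` only. -/
theorem prof_of_solution_spec (k : ℕ) (hk : 9 ≤ k) (δ : ℝ) (hδ : 0 < δ) (β Y : ℝ → ℝ)
    (hβ : ContDiff ℝ ∞ β) (hY : ContDiff ℝ ∞ Y)
    (hpos : ∀ ρ, -δ < ρ → 0 < β ρ)
    (hb : ∀ ρ, -δ < ρ → -1 ≤ ρ * β ρ)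
    (hz : ∀ ρ, -δ < ρ → ρ * Y ρ ≤ 3 / 4)
    (hYn : ∀ ρ, 0 ≤ ρ → 0 ≤ Y ρ)
    (hβd : ∀ ρ, -δ < ρ → HasDerivAt β (β ρ * (Y ρ / (1 - ρ * Y ρ) - β ρ) / 2) ρ)
    (hYd : ∀ ρ, -δ < ρ → ρ * deriv Y ρ + (((k : ℝ) + 2) / 2) * Y ρ
        = hS k (β ρ) (ρ * β ρ) (ρ * Y ρ)) :
    ∃ P : Prof k, P.f = fF β ∧ P.g = gF β ∧ P.G = GF β Y ∧ P.δ = δ := by
  have hK : (9 : ℝ) ≤ k := by exact_mod_cast hk
  have hβc : Continuous β := hβ.continuous
  have hβd' : ∀ ρ, -δ < ρ → HasDerivAt β (βp β Y ρ) ρ := hβd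
  have hzd : ∀ ρ, -δ < ρ → HasDerivAt (fun x => x * Y x) (zp k β Y ρ) ρ := by
    intro ρ hρ
    have hYda : HasDerivAt Y (deriv Y ρ) ρ :=
      (hY.differentiable (by simp) ρ).hasDerivAt
    have := (hasDerivAt_id' ρ).mul hYda
    refine this.congr_deriv ?_
    have h := hYd ρ hρ
    unfold zp
    linarith
  have h1pos : ∀ ρ, -δ < ρ → 0 < 1 - ρ * Y ρ := fun ρ h => by linarith [hz ρ h]
  have hfpos : ∀ ρ, 0 < fF β ρ := fun ρ => Real.exp_pos _
  have hfd : ∀ ρ, HasDerivAt (fF β) (gF β ρ / 2) ρ := by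
    intro ρ
    have := (prim_hasDeriv hβc ρ).exp
    refine HasDerivAt.congr_deriv (f := fF β) this ?_
    unfold gF fF
    ring
  refine ⟨{
    δ := δ
    hδ := hδ
    f := fF β
    g := gF β
    G := GF β Y
    W := WF k β Y
    W₁ := fun ρ => - chat k β Y ρ * WF k β Y ρ
    W₂ := fun ρ => (chat k β Y ρ ^ 2 - C1 k β Y ρ) * WF k β Y ρ
    f_smooth := (prim_smooth hβ).exp
    f_pos := hfpos
    f_deriv := hfd
    g_deriv := ?_
    g_pos := ?_
    a_pos := ?_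
    G_nonneg := ?_
    W_eq := ?_
    W_deriv := ?_
    W₁_deriv := ?_
    pde := ?_ }, rfl, rfl, rfl, rfl⟩
  · -- g_deriv
    intro ρ hρ
    have := (hfd ρ).mul (hβd' ρ hρ)
    refine HasDerivAt.congr_deriv (f := gF β) this ?_
    unfold GF gF βp
    ring
  · -- g_pos
    intro ρ hρ
    exact mul_pos (hfpos ρ) (hpos ρ hρ)
  · -- a_pos
    intro ρ hρ
    have hg := mul_pos (hfpos ρ) (hpos ρ hρ)
    have h1 := h1pos ρ hρ
    have : gF β ρ + ρ * GF β Y ρ = fF β ρ * β ρ / (1 - ρ * Y ρ) := by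
      unfold gF GF
      field_simp
      ring
    rw [this]
    positivity
  · -- G_nonneg
    intro ρ hρ
    have hρ' : -δ < ρ := by linarith
    have hg := mul_pos (hfpos ρ) (hpos ρ hρ')
    have h1 := h1pos ρ hρ'
    unfold GF
    exact mul_nonneg hg.le (div_nonneg (hYn ρ hρ) h1.le)
  · -- W_eq
    intro ρ hρ
    have hβp := hpos ρ hρ
    have hf := hfpos ρ
    have h1 := h1pos ρ hρ
    have hg : 0 < gF β ρ := mul_pos hf hβp
    obtain ⟨m, rfl⟩ : ∃ m, k = m + 1 := ⟨k - 1, by omega⟩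
    have hsum : gF β ρ + ρ * GF β Y ρ = gF β ρ / (1 - ρ * Y ρ) := by
      unfold gF GF
      field_simp
      ring
    have hX : fF β ρ / (gF β ρ ^ (m + 1 - 1) * (gF β ρ + ρ * GF β Y ρ))
        = fF β ρ * (1 - ρ * Y ρ) / gF β ρ ^ (m + 1) := by
      rw [hsum]
      simp only [Nat.add_sub_cancel]
      field_simp
      ring
    have hlog : Real.log (fF β ρ * (1 - ρ * Y ρ) / gF β ρ ^ (m + 1)) = LF (m + 1) β Y ρ := by
      rw [Real.log_div (by positivity) (by positivity), Real.log_mul hf.ne' h1.ne', Real.log_pow]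
      unfold gF LF
      rw [Real.log_mul hf.ne' hβp.ne']
      unfold fF
      rw [Real.log_exp]
    rw [hX, Real.rpow_def_of_pos (by positivity), hlog]
    unfold WF
    congr 1
    ring
  · -- W_deriv
    intro ρ hρ
    exact hasDeriv_WF hβc hk (hpos ρ hρ) (hb ρ hρ) (hz ρ hρ) (hβd' ρ hρ) (hzd ρ hρ)
  · -- W₁_deriv
    intro ρ hρ
    have hW := hasDeriv_WF hβc hk (hpos ρ hρ) (hb ρ hρ) (hz ρ hρ) (hβd' ρ hρ) (hzd ρ hρ)
    have hC := hasDeriv_chat hk (hb ρ hρ) (hz ρ hρ) (hβd' ρ hρ) (hzd ρ hρ)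
    have := hC.neg.mul hW
    refine HasDerivAt.congr_deriv (f := fun ρ => - chat k β Y ρ * WF k β Y ρ) this ?_
    simp only [Pi.neg_apply]
    ring
  · -- pde
    intro ρ hρ
    have hρ' : -δ < ρ := by linarith
    have hβp := hpos ρ hρ'
    have hf := hfpos ρ
    have h1 := h1pos ρ hρ'
    have key := identity_main hk hβp (hb ρ hρ') (hz ρ hρ')
    have hga : gF β ρ + ρ * GF β Y ρ = fF β ρ * β ρ * aF Y ρ := by
      unfold gF GF aF
      field_simp
      ring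
    have ha : 0 < aF Y ρ := by
      unfold aF
      positivity
    rw [hga]
    unfold gF
    generalize chat k β Y ρ = c at *
    generalize C1 k β Y ρ = c1 at *
    generalize WF k β Y ρ = W at *
    generalize aF Y ρ = a at *
    generalize fF β ρ = f at *
    generalize β ρ = b at *
    have hzero : -2 * c + 4 * ρ * (c ^ 2 - c1) - 2 * ((k : ℝ) - 1) * a * c + ((k : ℝ) + 2) * b * a = 0 := by
      linarith
    have : (2 * (-c * W) + 4 * ρ * ((c ^ 2 - c1) * W)) / (f * b * a)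
        + 2 * ((k : ℝ) - 1) * (-c * W) / (f * b) + ((k : ℝ) + 2) * W / f
        = W / (f * b * a) * (-2 * c + 4 * ρ * (c ^ 2 - c1) - 2 * ((k : ℝ) - 1) * a * c
            + ((k : ℝ) + 2) * b * a) := by
      field_simp
      ring
    rw [this, hzero, mul_zero]


open M5 in
/-- The profile, with bounds on `ρ ≥ 0` that come from the trapping region. -/
theorem exists_prof_bounds (k : ℕ) (hk : 9 ≤ k) :
    ∃ P : Prof k, (∀ ρ, 0 ≤ ρ → 1 ≤ P.f ρ) ∧ (∀ ρ, 0 ≤ ρ → P.g ρ ≤ 3 * P.f ρ) ∧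
      (∀ ρ, 0 ≤ ρ → P.g ρ + ρ * P.G ρ ≤ 4 * P.g ρ) ∧ (∀ ρ, 0 ≤ ρ → ρ * P.g ρ ≤ 5 * P.f ρ) := by
  obtain ⟨β, b, z, Y, hβ, hb, hz, hY, hβ0, hb0, hz0, hY0, ode⟩ := clamped_solution k hk
  obtain ⟨δ, hδ, H⟩ := trap k hk β b z Y hβ hb hz hY hβ0 hb0 hz0 hY0 ode
  obtain ⟨P, hf, hg, hG, hPδ⟩ := prof_of_solution_spec k hk δ hδ β Y hβ hY (fun ρ h => (H ρ h).1) (by
      intro ρ h
      obtain ⟨_, hB, hbe, _, _⟩ := H ρ h
      rw [← hbe]; exact hB.2.2.1) (by
      intro ρ h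
      obtain ⟨_, hB, _, hze, _⟩ := H ρ h
      rw [← hze]; exact hB.2.2.2.2.2.1) (by
      intro ρ h
      exact (H ρ (by linarith)).2.2.2.2 h) (by
      intro ρ h
      obtain ⟨_, hB, _, hze, _⟩ := H ρ h
      have := (ode ρ hB).1
      rwa [hze] at this) (by
      intro ρ h
      obtain ⟨_, hB, hbe, hze, _⟩ := H ρ h
      have := (ode ρ hB).2.2.2
      rwa [hbe, hze] at this)
  refine ⟨P, ?_, ?_, ?_, ?_⟩
  · intro ρ hρ
    rw [hf]
    unfold fF
    have h0 : 0 ≤ prim β ρ := by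
      unfold prim
      apply intervalIntegral.integral_nonneg hρ
      intro t ht
      have : -δ < t := by linarith [ht.1]
      have := (H t this).1
      positivity
    exact Real.one_le_exp h0
  · intro ρ hρ
    rw [hf, hg]
    unfold gF
    have h1 : -δ < ρ := by linarith
    have h2 := (H ρ h1).2.1.2.1
    have h3 : 0 < fF β ρ := Real.exp_pos _
    nlinarith
  · intro ρ hρ
    rw [hG, hg]
    have h1 : -δ < ρ := by linarith
    obtain ⟨hpos, hB, _, hze, _⟩ := H ρ h1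
    have hzle : ρ * Y ρ ≤ 3 / 4 := by
      rw [← hze]; exact hB.2.2.2.2.2.1
    have h3 : 0 < fF β ρ := Real.exp_pos _
    have h5 : 0 < 1 - ρ * Y ρ := by linarith
    have hsum : gF β ρ + ρ * GF β Y ρ = gF β ρ / (1 - ρ * Y ρ) := by
      unfold gF GF
      field_simp
      ring
    rw [hsum]
    have hg0 : 0 < gF β ρ := mul_pos h3 hpos
    rw [div_le_iff₀ h5]
    nlinarith
  · intro ρ hρ
    rw [hf, hg]
    unfold gF
    have h1 : -δ < ρ := by linarith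
    obtain ⟨_, hB, hbe, _, _⟩ := H ρ h1
    have h2 : ρ * β ρ ≤ 5 := by
      rw [← hbe]; exact hB.2.2.2.1
    have h3 : 0 < fF β ρ := Real.exp_pos _
    nlinarith

end P252
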