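import Vale.Agent.Lib.P252.DefsB
import Vale.Agent.Lib.P252.M5b
import Vale.Agent.Lib.P252.M10

/-!
# P252 module M11
the Berwald-Blaschke metric of `u` is complete
-/

open scoped ContDiff Topology
open Matrix Set

namespace P252

/-! ### The basic scalar inequality -/

theorem m11_scalar (f g G u s c η Λ ρ W₀ : ℝ) (hf : 0 < f) (hg : 0 < g) (hu : 0 < u)
    (hu2 : u ^ 2 = f ^ 2 + s ^ 2) (hG : 0 ≤ G) (hW : 0 ≤ W₀)
    (hc : c ^ 2 ≤ ρ * W₀) (hb : ρ * g ≤ 5 * f) (hΛ : 1 / 3 ≤ Λ * f ^ 2) :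
    ((f * g * c + s * η) / u ^ 2) ^ 2
      ≤ 30 * (Λ * (f * g * W₀ + f * G * c ^ 2 + (s * g * c - f * η) ^ 2 / u ^ 2)) := by
  set X := s * g * c - f * η with hX
  have hΛ0 : 0 < Λ := by
    by_contra h
    have h' : Λ ≤ 0 := not_lt.mp h
    have : Λ * f ^ 2 ≤ 0 := mul_nonpos_of_nonpos_of_nonneg h' (by positivity)
    linarith
  -- the decomposition
  have hid : (f * g * c + s * η) / u ^ 2 = g / f * c - s / u * (X / (f * u)) := by
    rw [hX]
    field_simp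
    rw [hu2]
    ring
  have hs : (s / u) ^ 2 ≤ 1 := by
    rw [div_pow, div_le_one (by positivity)]
    nlinarith [sq_nonneg f]
  have hA2 : (s / u * (X / (f * u))) ^ 2 ≤ X ^ 2 / (f ^ 2 * u ^ 2) := by
    rw [mul_pow]
    have h1 : (X / (f * u)) ^ 2 = X ^ 2 / (f ^ 2 * u ^ 2) := by
      rw [div_pow, mul_pow]
    rw [h1]
    have h2 : 0 ≤ X ^ 2 / (f ^ 2 * u ^ 2) := by positivity
    nlinarith
  have hA1 : (g / f * c) ^ 2 ≤ 5 * (g / f) * W₀ := by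
    rw [mul_pow]
    have h1 : (g / f) ^ 2 * c ^ 2 ≤ (g / f) ^ 2 * (ρ * W₀) :=
      mul_le_mul_of_nonneg_left hc (by positivity)
    have h2 : ρ * (g / f) ≤ 5 := by
      have : ρ * (g / f) = ρ * g / f := by ring
      rw [this, div_le_iff₀ hf]
      exact hb
    have h3 : (g / f) ^ 2 * (ρ * W₀) = (g / f) * (ρ * (g / f)) * W₀ := by ring
    have h4 : 0 ≤ g / f := by positivity
    have h5 : (g / f) * (ρ * (g / f)) * W₀ ≤ (g / f) * 5 * W₀ :=
      mul_le_mul_of_nonneg_right (mul_le_mul_of_nonneg_left h2 h4) hW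
    linarith
  -- lower bounds of the right side
  have hR1 : 10 * (g / f) * W₀ ≤ 30 * (Λ * (f * g * W₀)) := by
    have h1 : Λ * (f * g * W₀) = (Λ * f ^ 2) * ((g / f) * W₀) := by
      field_simp
    rw [h1]
    have h2 : 0 ≤ (g / f) * W₀ := by positivity
    nlinarith
  have hR2 : X ^ 2 / (f ^ 2 * u ^ 2) ≤ 3 * (Λ * (X ^ 2 / u ^ 2)) := by
    have h1 : Λ * (X ^ 2 / u ^ 2) = (Λ * f ^ 2) * (X ^ 2 / (f ^ 2 * u ^ 2)) := by
      field_simp
    rw [h1]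
    have h2 : 0 ≤ X ^ 2 / (f ^ 2 * u ^ 2) := by positivity
    nlinarith
  have hR3 : 0 ≤ Λ * (f * G * c ^ 2) := by positivity
  have hR4 : 0 ≤ Λ * (X ^ 2 / u ^ 2) := by positivity
  rw [hid]
  have hsq : (g / f * c - s / u * (X / (f * u))) ^ 2
      ≤ 2 * (g / f * c) ^ 2 + 2 * (s / u * (X / (f * u))) ^ 2 := by
    nlinarith [sq_nonneg (g / f * c + s / u * (X / (f * u)))]
  have hexp : 30 * (Λ * (f * g * W₀ + f * G * c ^ 2 + X ^ 2 / u ^ 2))
      = 30 * (Λ * (f * g * W₀)) + 30 * (Λ * (f * G * c ^ 2)) + 30 * (Λ * (X ^ 2 / u ^ 2)) := by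
    ring
  rw [hexp]
  nlinarith

/-! ### The quadratic form of `Mm` -/

theorem m11_Mm_form {ι : Type*} [Fintype ι] [DecidableEq ι] (xt e : ι → ℝ)
    (he : e ⬝ᵥ e = 1) (p q r t : ℝ) (ξ : ι → ℝ) :
    ξ ⬝ᵥ (Mm xt e p q r t *ᵥ ξ)
      = p * (ξ ⬝ᵥ ξ - (e ⬝ᵥ ξ) ^ 2) + q * (xt ⬝ᵥ ξ) ^ 2 + 2 * r * (xt ⬝ᵥ ξ) * (e ⬝ᵥ ξ)
        + t * (e ⬝ᵥ ξ) ^ 2 := by
  have h2 : (Mm xt e p q r t *ᵥ ξ)
      = p • ξ + ((t - p) * (e ⬝ᵥ ξ)) • e + (q * (xt ⬝ᵥ ξ)) • xt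
        + (r * (e ⬝ᵥ ξ)) • xt + (r * (xt ⬝ᵥ ξ)) • e := by
    rw [Mm_eq]
    ext i
    simp only [Matrix.add_mulVec, Matrix.smul_mulVec, Matrix.one_mulVec, Matrix.vecMulVec_mulVec,
      Pi.add_apply, Pi.smul_apply, smul_eq_mul, MulOpposite.smul_eq_mul_unop,
      MulOpposite.unop_op]
    ring
  rw [h2]
  simp only [dotProduct_add, dotProduct_smul, smul_eq_mul]
  rw [dotProduct_comm ξ e, dotProduct_comm ξ xt]
  ring

/-- Cauchy-Schwarz for the part of `ξ` orthogonal to `e`. -/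
theorem m11_cs {ι : Type*} [Fintype ι] (xt e ξ : ι → ℝ)
    (he : e ⬝ᵥ e = 1) (hx : xt ⬝ᵥ e = 0) :
    (xt ⬝ᵥ ξ) ^ 2 ≤ (xt ⬝ᵥ xt) * (ξ ⬝ᵥ ξ - (e ⬝ᵥ ξ) ^ 2) ∧ 0 ≤ ξ ⬝ᵥ ξ - (e ⬝ᵥ ξ) ^ 2 := by
  set η := e ⬝ᵥ ξ with hη
  have h1 : (ξ - η • e) ⬝ᵥ (ξ - η • e) = ξ ⬝ᵥ ξ - η ^ 2 := by
    simp only [sub_dotProduct, dotProduct_sub, smul_dotProduct, dotProduct_smul, he, smul_eq_mul]
    rw [dotProduct_comm ξ e, ← hη]
    ring
  have h2 : xt ⬝ᵥ (ξ - η • e) = xt ⬝ᵥ ξ := by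
    simp only [dotProduct_sub, dotProduct_smul, hx, smul_eq_mul]
    ring
  rw [← h1, ← h2]
  constructor
  · simp only [dotProduct]
    have := Finset.sum_mul_sq_le_sq_mul_sq Finset.univ xt (ξ - η • e)
    simpa [pow_two] using this
  · simpa [dotProduct] using Finset.sum_nonneg fun i (_ : i ∈ Finset.univ) =>
      mul_self_nonneg ((ξ - η • e) i)


/-! ### The metric inequality for `u` -/

/-- The lower bound for the conformal factor. -/
theorem m11_Λ (m : ℕ) (f g G ρ : ℝ) (hf : 1 ≤ f) (hg0 : 0 < g) (hg : g ≤ 3 * f)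
    (ha0 : 0 < g + ρ * G) (ha : g + ρ * G ≤ 4 * g) :
    1 / 3 ≤ (f ^ (m + 1 + 2) * g ^ (m + 1 - 1) * (g + ρ * G)) ^ (-(1 / (((m + 1 : ℕ) : ℝ) + 3)))
      * f ^ 2 := by
  have hf0 : 0 < f := by linarith
  simp only [Nat.add_sub_cancel]
  set D := f ^ (m + 1 + 2) * g ^ m * (g + ρ * G) with hD
  have hD0 : 0 < D := by positivity
  have hle : D ≤ (3 * f ^ 2) ^ (m + 4) := by
    have h1 : g ^ m ≤ (3 * f) ^ m := pow_le_pow_left₀ hg0.le hg m
    have h2 : g + ρ * G ≤ 12 * f := by linarith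
    have h3 : D ≤ f ^ (m + 1 + 2) * (3 * f) ^ m * (12 * f) := by
      rw [hD]
      apply mul_le_mul _ h2 ha0.le (by positivity)
      exact mul_le_mul_of_nonneg_left h1 (by positivity)
    refine h3.trans ?_
    have h4 : f ^ (m + 1 + 2) * (3 * f) ^ m * (12 * f) = 12 * 3 ^ m * f ^ (2 * m + 4) := by
      rw [mul_pow]
      ring
    have h5 : (3 * f ^ 2) ^ (m + 4) = 81 * 3 ^ m * f ^ (2 * m + 8) := by
      rw [mul_pow, ← pow_mul]
      ring
    rw [h4, h5]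
    have h6 : f ^ (2 * m + 4) ≤ f ^ (2 * m + 8) := pow_le_pow_right₀ hf (by omega)
    have h7 : (0 : ℝ) < 3 ^ m := by positivity
    have h8 : 0 < f ^ (2 * m + 4) := by positivity
    nlinarith
  have hN : (((m + 1 : ℕ) : ℝ) + 3) = ((m + 4 : ℕ) : ℝ) := by
    push_cast
    ring
  rw [hN]
  have hroot : D ^ (((m + 4 : ℕ) : ℝ)⁻¹) ≤ 3 * f ^ 2 := by
    have h1 := Real.rpow_le_rpow hD0.le hle (by positivity : (0 : ℝ) ≤ ((m + 4 : ℕ) : ℝ)⁻¹)
    have h2 : ((3 * f ^ 2) ^ (m + 4)) ^ (((m + 4 : ℕ) : ℝ)⁻¹) = 3 * f ^ 2 :=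
      Real.pow_rpow_inv_natCast (by positivity) (by omega)
    rwa [h2] at h1
  have hroot0 : 0 < D ^ (((m + 4 : ℕ) : ℝ)⁻¹) := Real.rpow_pos_of_pos hD0 _
  have hneg : D ^ (-(1 / ((m + 4 : ℕ) : ℝ))) = (D ^ (((m + 4 : ℕ) : ℝ)⁻¹))⁻¹ := by
    rw [one_div, Real.rpow_neg hD0.le]
  rw [hneg]
  rw [inv_mul_eq_div, div_le_div_iff₀ (by norm_num) hroot0]
  linarith

/-- The metric inequality. -/
theorem m11_metric {k : ℕ} (hk : 1 ≤ k) (P : Prof k)
    (hf1 : ∀ ρ, 0 ≤ ρ → 1 ≤ P.f ρ) (hg3 : ∀ ρ, 0 ≤ ρ → P.g ρ ≤ 3 * P.f ρ)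
    (ha4 : ∀ ρ, 0 ≤ ρ → P.g ρ + ρ * P.G ρ ≤ 4 * P.g ρ) (hb5 : ∀ ρ, 0 ≤ ρ → ρ * P.g ρ ≤ 5 * P.f ρ)
    (x ξ : Fin (k + 1) → ℝ) :
    ((P.f (rhoF k x) * P.g (rhoF k x) * (xtF k x ⬝ᵥ ξ) + sF k x * (eL k ⬝ᵥ ξ))
        / uΨ P (rhoF k x, sF k x) ^ 2) ^ 2
      ≤ 30 * affMetric (uFun P) x ξ := by
  have hρ := rhoF_nonneg k x
  have hδ := P.hδ
  have hρδ : -P.δ < rhoF k x := by linarith
  have hf0 := P.f_pos (rhoF k x)
  have hf := hf1 _ hρ
  have hg0 := P.g_pos _ hρδ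
  have hg := hg3 _ hρ
  have ha0 := P.a_pos _ hρδ
  have ha := ha4 _ hρ
  have hb := hb5 _ hρ
  have hG := P.G_nonneg _ hρ
  have hu0 : 0 < uΨ P (rhoF k x, sF k x) := Real.sqrt_pos.mpr (by
    have := P.f_pos (rhoF k x)
    simp only
    positivity)
  have hu2 : uΨ P (rhoF k x, sF k x) ^ 2 = P.f (rhoF k x) ^ 2 + sF k x ^ 2 :=
    Real.sq_sqrt (by
      have := P.f_pos (rhoF k x)
      simp only
      positivity)
  obtain ⟨hcs, hW⟩ := m11_cs (xtF k x) (eL k) ξ (eL_dot k) (xtF_dot_eL k x)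
  have hr : xtF k x ⬝ᵥ xtF k x = rhoF k x := rfl
  rw [hr] at hcs
  obtain ⟨m, rfl⟩ : ∃ m, k = m + 1 := ⟨k - 1, by omega⟩
  have hΛ := m11_Λ m _ _ _ _ hf hg0 hg ha0 ha
  have key := m11_scalar _ _ _ _ (sF (m + 1) x) (xtF (m + 1) x ⬝ᵥ ξ) (eL (m + 1) ⬝ᵥ ξ) _ _ _
    hf0 hg0 hu0 hu2 hG hW hcs hb hΛ
  refine key.trans (le_of_eq ?_)
  unfold affMetric
  rw [uFun_det hk P x, uFun_hess P x, m11_Mm_form _ _ (eL_dot (m + 1))]
  generalize uΨ P (rhoF (m + 1) x, sF (m + 1) x) = u at *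
  generalize P.f (rhoF (m + 1) x) = f at *
  generalize P.g (rhoF (m + 1) x) = g at *
  generalize P.G (rhoF (m + 1) x) = G at *
  generalize rhoF (m + 1) x = ρ at *
  generalize sF (m + 1) x = s at *
  generalize xtF (m + 1) x ⬝ᵥ ξ = c at *
  generalize eL (m + 1) ⬝ᵥ ξ = η at *
  generalize ξ ⬝ᵥ ξ = ξξ at *
  have hexp : (((m + 1 + 1 : ℕ) : ℝ) + 2) = ((m + 1 : ℕ) : ℝ) + 3 := by
    push_cast
    ring
  rw [hexp]
  set D := f ^ (m + 1 + 2) * g ^ (m + 1 - 1) * (g + ρ * G) with hD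
  have hD0 : 0 < D := by
    rw [hD]
    positivity
  set N : ℝ := ((m + 1 : ℕ) : ℝ) + 3 with hN
  have hN0 : 0 < N := by
    rw [hN]
    positivity
  have hpow : (D / u ^ (m + 1 + 3)) ^ (-(1 / N)) = D ^ (-(1 / N)) * u := by
    rw [Real.div_rpow hD0.le (by positivity)]
    have h1 : (u ^ (m + 1 + 3)) ^ (-(1 / N)) = u⁻¹ := by
      rw [← Real.rpow_natCast, ← Real.rpow_mul hu0.le]
      have h2 : ((m + 1 + 3 : ℕ) : ℝ) * (-(1 / N)) = -1 := by
        rw [hN]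
        push_cast
        field_simp
      rw [h2, Real.rpow_neg_one]
    rw [h1]
    field_simp
  rw [hpow]
  field_simp
  ring


/-! ### Derivatives along a curve -/

theorem m11_rho_deriv {k : ℕ} {γ : ℝ → Fin (k + 1) → ℝ} {v : Fin (k + 1) → ℝ} {t : ℝ}
    (h : HasDerivAt γ v t) :
    HasDerivAt (fun τ => rhoF k (γ τ)) (2 * (xtF k (γ t) ⬝ᵥ v)) t := by
  have hi : ∀ i, HasDerivAt (fun τ => xtF k (γ τ) i) (xtF k v i) t := by
    intro i
    by_cases hl : i = Fin.last k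
    · simp only [xtF, hl, if_true]
      exact hasDerivAt_const t 0
    · simp only [xtF, hl, if_false]
      exact (hasDerivAt_pi.1 h) i
  have hs : HasDerivAt (fun τ => rhoF k (γ τ))
      (∑ i, (xtF k v i * xtF k (γ t) i + xtF k (γ t) i * xtF k v i)) t := by
    have := HasDerivAt.fun_sum (u := Finset.univ) (fun i _ => (hi i).mul (hi i))
    refine this.congr_of_eventuallyEq (Filter.Eventually.of_forall fun τ => ?_)
    simp [rhoF, dotProduct]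
  refine hs.congr_deriv ?_
  rw [dotProduct, Finset.mul_sum]
  refine Finset.sum_congr rfl fun i _ => ?_
  by_cases hl : i = Fin.last k
  · simp [xtF, hl]
  · simp only [xtF, hl, if_false]
    ring

theorem m11_s_deriv {k : ℕ} {γ : ℝ → Fin (k + 1) → ℝ} {v : Fin (k + 1) → ℝ} {t : ℝ}
    (h : HasDerivAt γ v t) :
    HasDerivAt (fun τ => sF k (γ τ)) (eL k ⬝ᵥ v) t := by
  have h1 := (hasDerivAt_pi.1 h) (Fin.last k)
  have h2 : eL k ⬝ᵥ v = v (Fin.last k) := by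
    simp [eL]
  rw [h2]
  exact h1

/-- `log u` along a curve. -/
theorem m11_log_deriv {k : ℕ} (P : Prof k) {γ : ℝ → Fin (k + 1) → ℝ} {v : Fin (k + 1) → ℝ} {t : ℝ}
    (h : HasDerivAt γ v t) :
    HasDerivAt (fun τ => (1 / 2) * Real.log (P.f (rhoF k (γ τ)) ^ 2 + sF k (γ τ) ^ 2))
      ((P.f (rhoF k (γ t)) * P.g (rhoF k (γ t)) * (xtF k (γ t) ⬝ᵥ v) + sF k (γ t) * (eL k ⬝ᵥ v))
        / uΨ P (rhoF k (γ t), sF k (γ t)) ^ 2) t := by
  have hρ := m11_rho_deriv h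
  have hs := m11_s_deriv h
  have hf : HasDerivAt (fun τ => P.f (rhoF k (γ τ)))
      (P.g (rhoF k (γ t)) / 2 * (2 * (xtF k (γ t) ⬝ᵥ v))) t :=
    (P.f_deriv (rhoF k (γ t))).comp t hρ
  have hpos : 0 < P.f (rhoF k (γ t)) ^ 2 + sF k (γ t) ^ 2 := by
    have := P.f_pos (rhoF k (γ t))
    positivity
  have hF := (hf.fun_pow 2).fun_add (hs.fun_pow 2)
  have hlog := (hF.log hpos.ne').const_mul (1 / 2 : ℝ)
  refine hlog.congr_deriv ?_
  have hu2 : uΨ P (rhoF k (γ t), sF k (γ t)) ^ 2 = P.f (rhoF k (γ t)) ^ 2 + sF k (γ t) ^ 2 :=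
    Real.sq_sqrt hpos.le
  rw [hu2]
  simp only [Nat.cast_ofNat, Nat.add_one_sub_one, pow_one]
  field_simp

/-! ### Continuity of the metric -/

theorem m11_hess_cont {n : ℕ} {u : (Fin n → ℝ) → ℝ} (hu : ContDiff ℝ ∞ u) :
    Continuous (hessMat u) := by
  refine continuous_matrix fun i j => ?_
  have h1 : ContDiff ℝ ∞ (fun y => fderiv ℝ u y (Pi.single j 1)) := by
    have h2 : ContDiff ℝ ∞ (fderiv ℝ u) := hu.fderiv_right (by simp)
    exact h2.clm_apply contDiff_const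
  have h3 : Continuous (fderiv ℝ (fun y => fderiv ℝ u y (Pi.single j 1))) :=
    h1.continuous_fderiv (by simp)
  exact h3.clm_apply continuous_const

theorem m11_aff_cont {n : ℕ} {u : (Fin n → ℝ) → ℝ} (hu : ContDiff ℝ ∞ u)
    (hdet : ∀ x, 0 < (hessMat u x).det) :
    Continuous (fun p : (Fin n → ℝ) × (Fin n → ℝ) => affMetric u p.1 p.2) := by
  have hH := m11_hess_cont hu
  unfold affMetric
  refine Continuous.mul ?_ ?_
  · refine Continuous.rpow_const ((hH.comp continuous_fst).matrix_det) fun p => Or.inl (hdet p.1).ne'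
  · exact continuous_snd.dotProduct ((hH.comp continuous_fst).matrix_mulVec continuous_snd)

/-! ### Completeness -/

theorem uFun_affineComplete {k : ℕ} (hk : 1 ≤ k) (P : Prof k)
    (hf1 : ∀ ρ, 0 ≤ ρ → 1 ≤ P.f ρ) (hg3 : ∀ ρ, 0 ≤ ρ → P.g ρ ≤ 3 * P.f ρ)
    (ha4 : ∀ ρ, 0 ≤ ρ → P.g ρ + ρ * P.G ρ ≤ 4 * P.g ρ)
    (hb5 : ∀ ρ, 0 ≤ ρ → ρ * P.g ρ ≤ 5 * P.f ρ) :
    AffineComplete (uFun P) := by
  intro γ γ' hγ hγ' hlim L
  by_contra hcon
  push Not at hcon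
  have hδ := P.hδ
  -- `f` grows at least linearly
  have hg00 : 0 < P.g 0 := P.g_pos 0 (by linarith)
  have hgmono : MonotoneOn P.g (Ici 0) := by
    apply monotoneOn_of_deriv_nonneg (convex_Ici 0)
    · intro ρ hρ
      exact (P.g_deriv ρ (by linarith [mem_Ici.1 hρ])).continuousAt.continuousWithinAt
    · intro ρ hρ
      have hρ' := interior_subset hρ
      exact (P.g_deriv ρ (by linarith [mem_Ici.1 hρ'])).differentiableAt.differentiableWithinAt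
    · intro ρ hρ
      have hρ' : 0 ≤ ρ := interior_subset hρ
      rw [(P.g_deriv ρ (by linarith)).deriv]
      have := P.G_nonneg ρ hρ'
      linarith
  have hflin : ∀ ρ, 0 ≤ ρ → ρ * (P.g 0 / 2) ≤ P.f ρ := by
    have hmono : MonotoneOn (fun ρ => P.f ρ - ρ * (P.g 0 / 2)) (Ici 0) := by
      have hd : ∀ ρ, HasDerivAt (fun ρ => P.f ρ - ρ * (P.g 0 / 2)) (P.g ρ / 2 - P.g 0 / 2) ρ := by
        intro ρ
        have := (P.f_deriv ρ).sub ((hasDerivAt_id ρ).mul_const (P.g 0 / 2))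
        refine this.congr_deriv ?_
        simp
      apply monotoneOn_of_deriv_nonneg (convex_Ici 0)
      · exact fun ρ _ => (hd ρ).continuousAt.continuousWithinAt
      · exact fun ρ _ => (hd ρ).differentiableAt.differentiableWithinAt
      · intro ρ hρ
        have hρ' : (0 : ℝ) ≤ ρ := interior_subset hρ
        rw [(hd ρ).deriv]
        have := hgmono (mem_Ici.2 (le_refl (0 : ℝ))) (mem_Ici.2 hρ') hρ'
        linarith
    intro ρ hρ
    have h1 := hmono (mem_Ici.2 (le_refl (0 : ℝ))) (mem_Ici.2 hρ) hρ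
    have h2 := hf1 0 (le_refl _)
    simp only at h1
    linarith
  -- the integrand is continuous
  have hdet : ∀ x, 0 < (hessMat (uFun P) x).det := by
    intro x
    exact (uFun_posDef P x).det_pos
  have hcont := m11_aff_cont (uFun_contDiff P) hdet
  have hγc : ContinuousOn γ (Ico 0 1) := fun t ht => (hγ t ht).continuousAt.continuousWithinAt
  have hφ : ContinuousOn (fun t => Real.sqrt (affMetric (uFun P) (γ t) (γ' t))) (Ico 0 1) := by
    have h1 : ContinuousOn (fun t => (γ t, γ' t)) (Ico 0 1) := hγc.prodMk hγ'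
    have h2 := hcont.comp_continuousOn h1
    exact h2.sqrt
  set Θ : ℝ → ℝ := fun τ => (1 / 2) * Real.log (P.f (rhoF k (γ τ)) ^ 2 + sF k (γ τ) ^ 2) with hΘ
  -- the derivative inequality
  have hder : ∀ t ∈ Ico (0 : ℝ) 1, ∀ d, HasDerivAt Θ d t →
      d ≤ Real.sqrt 30 * Real.sqrt (affMetric (uFun P) (γ t) (γ' t)) := by
    intro t ht d hd
    have h1 := m11_log_deriv P (hγ t ht)
    have h2 : d = _ := hd.unique h1
    rw [h2, ← Real.sqrt_mul (by norm_num)]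
    exact Real.le_sqrt_of_sq_le (m11_metric hk P hf1 hg3 ha4 hb5 (γ t) (γ' t))
  have hΘle : ∀ T ∈ Ico (0 : ℝ) 1, Θ T ≤ Θ 0 + Real.sqrt 30 * L := by
    intro T hT
    have hsub : Icc 0 T ⊆ Ico (0 : ℝ) 1 := fun x hx => ⟨hx.1, lt_of_le_of_lt hx.2 hT.2⟩
    have hint : MeasureTheory.IntegrableOn
        (fun t => Real.sqrt 30 * Real.sqrt (affMetric (uFun P) (γ t) (γ' t))) (Icc 0 T) :=
      ((continuousOn_const.mul hφ).mono hsub).integrableOn_compact isCompact_Icc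
    have h1 := intervalIntegral.sub_le_integral_of_hasDeriv_right_of_le
      (g := Θ) (g' := fun t => (P.f (rhoF k (γ t)) * P.g (rhoF k (γ t)) * (xtF k (γ t) ⬝ᵥ γ' t)
        + sF k (γ t) * (eL k ⬝ᵥ γ' t)) / uΨ P (rhoF k (γ t), sF k (γ t)) ^ 2)
      (φ := fun t => Real.sqrt 30 * Real.sqrt (affMetric (uFun P) (γ t) (γ' t))) hT.1
      (fun t ht => (m11_log_deriv P (hγ t (hsub ht))).continuousAt.continuousWithinAt)
      (fun t ht => (m11_log_deriv P (hγ t (hsub (Ioo_subset_Icc_self ht)))).hasDerivWithinAt)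
      hint
      (fun t ht => hder t (hsub (Ioo_subset_Icc_self ht)) _
        (m11_log_deriv P (hγ t (hsub (Ioo_subset_Icc_self ht)))))
    rw [intervalIntegral.integral_const_mul] at h1
    have h2 := hcon T hT
    have h3 : Real.sqrt 30 * ∫ t in (0 : ℝ)..T, Real.sqrt (affMetric (uFun P) (γ t) (γ' t))
        ≤ Real.sqrt 30 * L := mul_le_mul_of_nonneg_left h2 (Real.sqrt_nonneg _)
    linarith
  -- hence `F` is bounded
  set M : ℝ := Real.exp (2 * (Θ 0 + Real.sqrt 30 * L)) with hM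
  have hM0 : 0 < M := Real.exp_pos _
  have hFle : ∀ T ∈ Ico (0 : ℝ) 1, P.f (rhoF k (γ T)) ^ 2 + sF k (γ T) ^ 2 ≤ M := by
    intro T hT
    have h1 := hΘle T hT
    have hpos : 0 < P.f (rhoF k (γ T)) ^ 2 + sF k (γ T) ^ 2 := by
      have := P.f_pos (rhoF k (γ T))
      positivity
    have h2 : Real.log (P.f (rhoF k (γ T)) ^ 2 + sF k (γ T) ^ 2) ≤ 2 * (Θ 0 + Real.sqrt 30 * L) := by
      simp only [hΘ] at h1 ⊢
      linarith
    exact (Real.log_le_iff_le_exp hpos).1 h2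
  -- hence `γ` is bounded
  set B : ℝ := (2 / P.g 0) * (M + 1) + 1 + (M + 1) with hB
  have hB0 : 0 ≤ B := by positivity
  have hnorm : ∀ T ∈ Ico (0 : ℝ) 1, ‖γ T‖ ≤ B := by
    intro T hT
    have hF := hFle T hT
    have hρ := rhoF_nonneg k (γ T)
    have hlin := hflin _ hρ
    have hf0 := P.f_pos (rhoF k (γ T))
    have hff : P.f (rhoF k (γ T)) ^ 2 ≤ M := by nlinarith [sq_nonneg (sF k (γ T))]
    have hss : sF k (γ T) ^ 2 ≤ M := by nlinarith [sq_nonneg (P.f (rhoF k (γ T)))]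
    have hf_le : P.f (rhoF k (γ T)) ≤ M + 1 := by nlinarith [sq_nonneg (P.f (rhoF k (γ T)) - 1)]
    have hρle : rhoF k (γ T) ≤ (2 / P.g 0) * (M + 1) := by
      have h1 : rhoF k (γ T) * (P.g 0 / 2) ≤ M + 1 := hlin.trans hf_le
      have h2 : (2 / P.g 0) * (M + 1) = (M + 1) / (P.g 0 / 2) := by
        field_simp
      rw [h2, le_div_iff₀ (by positivity)]
      exact h1
    rw [pi_norm_le_iff_of_nonneg hB0]
    intro i
    rw [Real.norm_eq_abs]
    by_cases hl : i = Fin.last k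
    · have hs : γ T i = sF k (γ T) := by
        rw [hl]
        rfl
      rw [hs]
      have h1 : |sF k (γ T)| ≤ M + 1 := by
        rw [abs_le]
        constructor <;> nlinarith [sq_nonneg (sF k (γ T) - 1), sq_nonneg (sF k (γ T) + 1)]
      have h2 : 0 ≤ (2 / P.g 0) * (M + 1) := by positivity
      linarith
    · have h1 : (γ T i) ^ 2 ≤ rhoF k (γ T) := by
        have h2 : xtF k (γ T) i = γ T i := by simp [xtF, hl]
        have h3 : (xtF k (γ T) i) * (xtF k (γ T) i) ≤ xtF k (γ T) ⬝ᵥ xtF k (γ T) := by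
          simp only [dotProduct]
          exact Finset.single_le_sum (f := fun j => xtF k (γ T) j * xtF k (γ T) j)
            (fun j _ => mul_self_nonneg _) (Finset.mem_univ i)
        rw [h2] at h3
        have h4 : rhoF k (γ T) = xtF k (γ T) ⬝ᵥ xtF k (γ T) := rfl
        rw [h4, pow_two]
        exact h3
      have h2 : |γ T i| ≤ (2 / P.g 0) * (M + 1) + 1 := by
        rw [abs_le]
        constructor <;> nlinarith [sq_nonneg (γ T i - 1), sq_nonneg (γ T i + 1)]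
      linarith
  -- contradiction with the divergence of the curve
  have hev := hlim.eventually (Filter.eventually_gt_atTop B)
  have hev2 : ∀ᶠ t in 𝓝[<] (1 : ℝ), t ∈ Ico (0 : ℝ) 1 := by
    filter_upwards [Ioo_mem_nhdsLT (show (0 : ℝ) < 1 by norm_num)] with t ht
    exact ⟨ht.1.le, ht.2⟩
  obtain ⟨t, ht1, ht2⟩ := (hev.and hev2).exists
  have := hnorm t ht2
  linarith

/-- The final theorem, with completeness of the affine metric. -/
theorem main_counterexample_complete (n : ℕ) (hn : 10 ≤ n) :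
    ∃ u : (Fin n → ℝ) → ℝ, ContDiff ℝ ∞ u ∧ (∀ x, (hessMat u x).PosDef) ∧
      (∀ x, AffineMaximalAt u x) ∧ ¬ IsQuadratic u ∧ AffineComplete u := by
  obtain ⟨k, rfl⟩ : ∃ k, n = k + 1 := ⟨n - 1, by omega⟩
  have hk : 9 ≤ k := by omega
  obtain ⟨P, h1, h2, h3, h4⟩ := exists_prof_bounds k hk
  exact ⟨uFun P, uFun_contDiff P, uFun_posDef P, uFun_am (by omega) P, uFun_not_quadratic P,
    uFun_affineComplete (by omega) P h1 h2 h3 h4⟩

end P252
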