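import Vale.Agent.Lib.P252.M1

/-!
# P252 module M2
the Volterra fixed point
-/

open scoped ContDiff Topology
open Matrix

namespace P252

section M2

variable {E : Type*} [NormedAddCommGroup E] [NormedSpace ℝ E]

/-- Continuity of the kernel operator (direct, by parametric integrals). -/
private theorem m2_B_continuous (j : ℕ) {φ : ℝ → ℝ} (hφ : Continuous φ) : Continuous (B j φ) := by
  unfold B
  refine intervalIntegral.continuous_parametric_intervalIntegral_of_continuous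
    (f := fun ρ w => w ^ j * φ (ρ * w ^ 2)) (a₀ := (0 : ℝ)) (s := fun _ => (1 : ℝ)) ?_
    continuous_const
  have : Function.uncurry (fun (ρ w : ℝ) => w ^ j * φ (ρ * w ^ 2))
      = fun p : ℝ × ℝ => p.2 ^ j * φ (p.1 * p.2 ^ 2) := rfl
  rw [this]
  fun_prop

/-- The exponential integral bound on the positive half-line. -/
private theorem m2_integral_exp_pos [CompleteSpace E] (g : ℝ → E) (hg : Continuous g) (A μ : ℝ)
    (hμ : 0 < μ) (hA : 0 ≤ A)
    (hb : ∀ τ, ‖g τ‖ ≤ A * Real.exp (μ * |τ|)) (ρ : ℝ) (hρ : 0 ≤ ρ) :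
    ‖∫ τ in (0 : ℝ)..ρ, g τ‖ ≤ A * Real.exp (μ * |ρ|) / μ := by
  have hderiv : ∀ τ ∈ Set.uIcc (0 : ℝ) ρ,
      HasDerivAt (fun τ => A * Real.exp (μ * τ) / μ) (A * Real.exp (μ * τ)) τ := by
    intro τ _
    have h1 : HasDerivAt (fun τ : ℝ => μ * τ) μ τ := by
      simpa using (hasDerivAt_id τ).const_mul μ
    have h2 := (h1.exp.const_mul A).div_const μ
    have h3 : A * Real.exp (μ * τ) = A * (Real.exp (μ * τ) * μ) / μ := by
      field_simp
    rw [h3]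
    exact h2
  have hint : IntervalIntegrable (fun τ => A * Real.exp (μ * τ)) MeasureTheory.volume 0 ρ :=
    (by fun_prop : Continuous fun τ : ℝ => A * Real.exp (μ * τ)).intervalIntegrable _ _
  have hle : ‖∫ τ in (0 : ℝ)..ρ, g τ‖ ≤ ∫ τ in (0 : ℝ)..ρ, A * Real.exp (μ * τ) := by
    refine intervalIntegral.norm_integral_le_of_norm_le hρ ?_ hint
    refine Filter.Eventually.of_forall ?_
    intro τ hτ
    have := hb τ
    rwa [abs_of_pos hτ.1] at this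
  have heq := intervalIntegral.integral_eq_sub_of_hasDerivAt hderiv hint
  rw [heq] at hle
  have hpos : 0 ≤ A * Real.exp (μ * 0) / μ := by positivity
  rw [abs_of_nonneg hρ]
  linarith

/-- The exponential integral bound, both directions. -/
private theorem m2_integral_exp [CompleteSpace E] (g : ℝ → E) (hg : Continuous g) (A μ : ℝ)
    (hμ : 0 < μ) (hA : 0 ≤ A)
    (hb : ∀ τ, ‖g τ‖ ≤ A * Real.exp (μ * |τ|)) (ρ : ℝ) :
    ‖∫ τ in (0 : ℝ)..ρ, g τ‖ ≤ A * Real.exp (μ * |ρ|) / μ := by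
  rcases le_total 0 ρ with hρ | hρ
  · exact m2_integral_exp_pos g hg A μ hμ hA hb ρ hρ
  · have h := m2_integral_exp_pos (fun τ => g (-τ)) (by fun_prop) A μ hμ hA
      (fun τ => by simpa [abs_neg] using hb (-τ)) (-ρ) (by linarith)
    have hsub : ∫ τ in (0 : ℝ)..(-ρ), g (-τ) = - ∫ τ in (0 : ℝ)..ρ, g τ := by
      rw [intervalIntegral.integral_comp_neg (f := g), neg_neg, neg_zero,
        intervalIntegral.integral_symm]
    rw [hsub, norm_neg, abs_neg] at h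
    exact h

/-- The weighted function attached to a bounded continuous function. -/
private noncomputable def m2_vOf (μ : ℝ) (u : BoundedContinuousFunction ℝ E) : ℝ → E :=
  fun ρ => Real.exp (μ * |ρ|) • u ρ

private theorem m2_vOf_continuous (μ : ℝ) (u : BoundedContinuousFunction ℝ E) :
    Continuous (m2_vOf μ u) := by
  unfold m2_vOf
  have := u.continuous
  fun_prop

/-- The integrand. -/
private noncomputable def m2_Gf (F : E × ℝ → E) (H : E → ℝ) (j : ℕ) (v : ℝ → E) : ℝ → E :=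
  fun τ => F (v τ, B j (H ∘ v) τ)

private theorem m2_Gf_continuous (F : E × ℝ → E) (H : E → ℝ) (j : ℕ) (v : ℝ → E)
    (hF : Continuous F) (hH : Continuous H) (hv : Continuous v) : Continuous (m2_Gf F H j v) := by
  unfold m2_Gf
  have h1 : Continuous (B j (H ∘ v)) := m2_B_continuous j (hH.comp hv)
  exact hF.comp (hv.prodMk h1)

private theorem m2_vOf_dist (μ : ℝ) (u₁ u₂ : BoundedContinuousFunction ℝ E) (τ : ℝ) :
    ‖m2_vOf μ u₁ τ - m2_vOf μ u₂ τ‖ ≤ dist u₁ u₂ * Real.exp (μ * |τ|) := by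
  unfold m2_vOf
  rw [← smul_sub, norm_smul, Real.norm_of_nonneg (Real.exp_pos _).le, mul_comm]
  have := BoundedContinuousFunction.dist_coe_le_dist (f := u₁) (g := u₂) τ
  rw [dist_eq_norm] at this
  exact mul_le_mul_of_nonneg_right this (Real.exp_pos _).le

private theorem m2_B_dist (μ : ℝ) (hμ : 0 < μ) (H : E → ℝ) (LH : NNReal) (hH : LipschitzWith LH H)
    (j : ℕ) (v₁ v₂ : ℝ → E) (hv₁ : Continuous v₁) (hv₂ : Continuous v₂) (d : ℝ) (hd : 0 ≤ d)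
    (hvv : ∀ τ, ‖v₁ τ - v₂ τ‖ ≤ d * Real.exp (μ * |τ|)) (τ : ℝ) :
    |B j (H ∘ v₁) τ - B j (H ∘ v₂) τ| ≤ LH * (d * Real.exp (μ * |τ|)) := by
  unfold B
  have hc₁ : Continuous fun w : ℝ => w ^ j * (H ∘ v₁) (τ * w ^ 2) :=
    (continuous_pow j).mul ((hH.continuous.comp hv₁).comp (by fun_prop))
  have hc₂ : Continuous fun w : ℝ => w ^ j * (H ∘ v₂) (τ * w ^ 2) :=
    (continuous_pow j).mul ((hH.continuous.comp hv₂).comp (by fun_prop))
  rw [← intervalIntegral.integral_sub (hc₁.intervalIntegrable _ _) (hc₂.intervalIntegrable _ _)]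
  have h := intervalIntegral.norm_integral_le_of_norm_le_const
    (a := (0 : ℝ)) (b := 1)
    (f := fun w : ℝ => w ^ j * (H ∘ v₁) (τ * w ^ 2) - w ^ j * (H ∘ v₂) (τ * w ^ 2))
    (C := LH * (d * Real.exp (μ * |τ|))) ?_
  · simpa [Real.norm_eq_abs] using h
  · intro w hw
    have hw' : w ∈ Set.Ioc (0 : ℝ) 1 := by simpa [Set.uIoc_of_le zero_le_one] using hw
    have hw0 : 0 ≤ w := hw'.1.le
    have hw1 : w ≤ 1 := hw'.2
    have hpow : |w ^ j| ≤ 1 := by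
      rw [abs_of_nonneg (pow_nonneg hw0 j)]
      exact pow_le_one₀ hw0 hw1
    have hLip : |H (v₁ (τ * w ^ 2)) - H (v₂ (τ * w ^ 2))|
        ≤ LH * ‖v₁ (τ * w ^ 2) - v₂ (τ * w ^ 2)‖ := by
      have := hH.dist_le_mul (v₁ (τ * w ^ 2)) (v₂ (τ * w ^ 2))
      rwa [Real.dist_eq, dist_eq_norm] at this
    have hexp : Real.exp (μ * |τ * w ^ 2|) ≤ Real.exp (μ * |τ|) := by
      apply Real.exp_le_exp.mpr
      apply mul_le_mul_of_nonneg_left _ hμ.le
      rw [abs_mul, abs_of_nonneg (pow_nonneg hw0 2)]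
      have : w ^ 2 ≤ 1 := pow_le_one₀ hw0 hw1
      nlinarith [abs_nonneg τ]
    have hfin : ‖v₁ (τ * w ^ 2) - v₂ (τ * w ^ 2)‖ ≤ d * Real.exp (μ * |τ|) :=
      (hvv _).trans (mul_le_mul_of_nonneg_left hexp hd)
    have hL0 : (0 : ℝ) ≤ LH := LH.2
    calc ‖w ^ j * (H ∘ v₁) (τ * w ^ 2) - w ^ j * (H ∘ v₂) (τ * w ^ 2)‖
        = |w ^ j| * |H (v₁ (τ * w ^ 2)) - H (v₂ (τ * w ^ 2))| := by
          rw [Real.norm_eq_abs, ← mul_sub, abs_mul]; rfl
      _ ≤ 1 * (LH * ‖v₁ (τ * w ^ 2) - v₂ (τ * w ^ 2)‖) :=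
          mul_le_mul hpow hLip (abs_nonneg _) zero_le_one
      _ ≤ LH * (d * Real.exp (μ * |τ|)) := by
          rw [one_mul]
          exact mul_le_mul_of_nonneg_left hfin hL0

private theorem m2_G_dist (μ : ℝ) (hμ : 0 < μ) (F : E × ℝ → E) (H : E → ℝ) (j : ℕ)
    (LF LH : NNReal) (hF : LipschitzWith LF F) (hH : LipschitzWith LH H)
    (v₁ v₂ : ℝ → E) (hv₁ : Continuous v₁) (hv₂ : Continuous v₂) (d : ℝ) (hd : 0 ≤ d)
    (hvv : ∀ τ, ‖v₁ τ - v₂ τ‖ ≤ d * Real.exp (μ * |τ|)) (τ : ℝ) :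
    ‖m2_Gf F H j v₁ τ - m2_Gf F H j v₂ τ‖
      ≤ ((LF : ℝ) * (1 + LH) * d) * Real.exp (μ * |τ|) := by
  unfold m2_Gf
  have h1 := hF.dist_le_mul (v₁ τ, B j (H ∘ v₁) τ) (v₂ τ, B j (H ∘ v₂) τ)
  rw [dist_eq_norm] at h1
  refine h1.trans ?_
  have hL0 : (0 : ℝ) ≤ LH := LH.2
  have hF0 : (0 : ℝ) ≤ LF := LF.2
  have hexp := Real.exp_pos (μ * |τ|)
  have hmax : dist (v₁ τ, B j (H ∘ v₁) τ) (v₂ τ, B j (H ∘ v₂) τ)
      ≤ (1 + LH) * (d * Real.exp (μ * |τ|)) := by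
    rw [Prod.dist_eq]
    apply max_le
    · rw [dist_eq_norm]
      refine (hvv τ).trans ?_
      have : 0 ≤ d * Real.exp (μ * |τ|) := by positivity
      nlinarith
    · rw [Real.dist_eq]
      refine (m2_B_dist μ hμ H LH hH j v₁ v₂ hv₁ hv₂ d hd hvv τ).trans ?_
      have : 0 ≤ d * Real.exp (μ * |τ|) := by positivity
      nlinarith
  calc (LF : ℝ) * dist (v₁ τ, B j (H ∘ v₁) τ) (v₂ τ, B j (H ∘ v₂) τ)
      ≤ LF * ((1 + LH) * (d * Real.exp (μ * |τ|))) := mul_le_mul_of_nonneg_left hmax hF0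
    _ = ((LF : ℝ) * (1 + LH) * d) * Real.exp (μ * |τ|) := by ring

end M2

theorem exists_volterra {E : Type*} [NormedAddCommGroup E] [NormedSpace ℝ E] [CompleteSpace E]
    (F : E × ℝ → E) (H : E → ℝ) (j : ℕ) (v₀ : E)
    (LF : NNReal) (hF : LipschitzWith LF F) (C : ℝ) (hFb : ∀ p, ‖F p‖ ≤ C)
    (LH : NNReal) (hH : LipschitzWith LH H) :
    ∃ v : ℝ → E, Continuous v ∧ v 0 = v₀ ∧
      ∀ ρ, HasDerivAt v (F (v ρ, B j (H ∘ v) ρ)) ρ := by
  have hL0 : (0 : ℝ) ≤ LH := LH.2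
  have hF0 : (0 : ℝ) ≤ LF := LF.2
  have hC : 0 ≤ C := (norm_nonneg _).trans (hFb 0)
  set μ : ℝ := 2 * ((LF : ℝ) * (1 + LH)) + 1 with hμdef
  have hμ : 0 < μ := by positivity
  -- the raw map
  let raw : BoundedContinuousFunction ℝ E → ℝ → E := fun u ρ =>
    Real.exp (-(μ * |ρ|)) • (v₀ + ∫ τ in (0 : ℝ)..ρ, m2_Gf F H j (m2_vOf μ u) τ)
  have hGc : ∀ u : BoundedContinuousFunction ℝ E, Continuous (m2_Gf F H j (m2_vOf μ u)) :=
    fun u => m2_Gf_continuous F H j _ hF.continuous hH.continuous (m2_vOf_continuous μ u)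
  have hrawc : ∀ u, Continuous (raw u) := by
    intro u
    have h2 : Continuous fun ρ : ℝ => ∫ τ in (0 : ℝ)..ρ, m2_Gf F H j (m2_vOf μ u) τ :=
      (intervalIntegral.continuous_primitive (fun _ _ => (hGc u).intervalIntegrable _ _) 0)
    show Continuous fun ρ : ℝ =>
      Real.exp (-(μ * |ρ|)) • (v₀ + ∫ τ in (0 : ℝ)..ρ, m2_Gf F H j (m2_vOf μ u) τ)
    fun_prop
  have hrawb : ∀ u ρ, ‖raw u ρ‖ ≤ ‖v₀‖ + C / μ := by
    intro u ρ
    have hI : ‖∫ τ in (0 : ℝ)..ρ, m2_Gf F H j (m2_vOf μ u) τ‖ ≤ C * |ρ - 0| :=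
      intervalIntegral.norm_integral_le_of_norm_le_const (fun x _ => hFb _)
    rw [sub_zero] at hI
    show ‖Real.exp (-(μ * |ρ|)) • (v₀ + ∫ τ in (0 : ℝ)..ρ, m2_Gf F H j (m2_vOf μ u) τ)‖ ≤ _
    rw [norm_smul, Real.norm_of_nonneg (Real.exp_pos _).le]
    have hle1 : Real.exp (-(μ * |ρ|)) ≤ 1 := by
      apply Real.exp_le_one_iff.mpr
      have : 0 ≤ μ * |ρ| := by positivity
      linarith
    have hlog : Real.exp (-(μ * |ρ|)) * |ρ| ≤ 1 / μ := by
      have h1 := Real.add_one_le_exp (μ * |ρ|)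
      have hexp : Real.exp (-(μ * |ρ|)) * Real.exp (μ * |ρ|) = 1 := by
        rw [← Real.exp_add]; simp
      have hpos := Real.exp_pos (-(μ * |ρ|))
      rw [le_div_iff₀ hμ]
      have hρ0 := abs_nonneg ρ
      nlinarith
    have hnorm : ‖v₀ + ∫ τ in (0 : ℝ)..ρ, m2_Gf F H j (m2_vOf μ u) τ‖ ≤ ‖v₀‖ + C * |ρ| :=
      (norm_add_le _ _).trans (by linarith)
    have hpos := Real.exp_pos (-(μ * |ρ|))
    calc Real.exp (-(μ * |ρ|)) * ‖v₀ + ∫ τ in (0 : ℝ)..ρ, m2_Gf F H j (m2_vOf μ u) τ‖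
        ≤ Real.exp (-(μ * |ρ|)) * (‖v₀‖ + C * |ρ|) := mul_le_mul_of_nonneg_left hnorm hpos.le
      _ = Real.exp (-(μ * |ρ|)) * ‖v₀‖ + C * (Real.exp (-(μ * |ρ|)) * |ρ|) := by ring
      _ ≤ 1 * ‖v₀‖ + C * (1 / μ) :=
          add_le_add (mul_le_mul_of_nonneg_right hle1 (norm_nonneg _))
            (mul_le_mul_of_nonneg_left hlog hC)
      _ = ‖v₀‖ + C / μ := by ring
  let T : BoundedContinuousFunction ℝ E → BoundedContinuousFunction ℝ E := fun u =>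
    BoundedContinuousFunction.ofNormedAddCommGroup (raw u) (hrawc u) _ (hrawb u)
  have hTapply : ∀ u ρ, T u ρ = raw u ρ := fun _ _ => rfl
  have hcontr : ContractingWith (1 / 2 : NNReal) T := by
    refine ⟨by norm_num, LipschitzWith.of_dist_le_mul ?_⟩
    intro u₁ u₂
    have hd0 : 0 ≤ dist u₁ u₂ := dist_nonneg
    have hK : (0 : ℝ) ≤ (LF : ℝ) * (1 + LH) * dist u₁ u₂ := by positivity
    have : (((1 / 2 : NNReal) : ℝ)) * dist u₁ u₂ = (1 / 2 : ℝ) * dist u₁ u₂ := by norm_num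
    rw [this]
    refine (BoundedContinuousFunction.dist_le (by positivity)).mpr ?_
    intro ρ
    rw [hTapply, hTapply, dist_eq_norm]
    show ‖Real.exp (-(μ * |ρ|)) • (v₀ + ∫ τ in (0 : ℝ)..ρ, m2_Gf F H j (m2_vOf μ u₁) τ)
        - Real.exp (-(μ * |ρ|)) • (v₀ + ∫ τ in (0 : ℝ)..ρ, m2_Gf F H j (m2_vOf μ u₂) τ)‖ ≤ _
    rw [← smul_sub, norm_smul, Real.norm_of_nonneg (Real.exp_pos _).le, add_sub_add_left_eq_sub,
      ← intervalIntegral.integral_sub ((hGc u₁).intervalIntegrable _ _)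
        ((hGc u₂).intervalIntegrable _ _)]
    have hg : ∀ τ, ‖m2_Gf F H j (m2_vOf μ u₁) τ - m2_Gf F H j (m2_vOf μ u₂) τ‖
        ≤ ((LF : ℝ) * (1 + LH) * dist u₁ u₂) * Real.exp (μ * |τ|) :=
      m2_G_dist μ hμ F H j LF LH hF hH _ _ (m2_vOf_continuous μ u₁) (m2_vOf_continuous μ u₂)
        _ hd0 (m2_vOf_dist μ u₁ u₂)
    have hI := m2_integral_exp _ ((hGc u₁).sub (hGc u₂)) _ μ hμ hK hg ρ
    have hexp : Real.exp (-(μ * |ρ|)) * Real.exp (μ * |ρ|) = 1 := by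
      rw [← Real.exp_add]; simp
    have hpos := Real.exp_pos (-(μ * |ρ|))
    calc Real.exp (-(μ * |ρ|))
          * ‖∫ τ in (0 : ℝ)..ρ, (m2_Gf F H j (m2_vOf μ u₁) τ - m2_Gf F H j (m2_vOf μ u₂) τ)‖
        ≤ Real.exp (-(μ * |ρ|))
          * (((LF : ℝ) * (1 + LH) * dist u₁ u₂) * Real.exp (μ * |ρ|) / μ) :=
          mul_le_mul_of_nonneg_left hI hpos.le
      _ = (Real.exp (-(μ * |ρ|)) * Real.exp (μ * |ρ|)) * (((LF : ℝ) * (1 + LH) * dist u₁ u₂) / μ) := by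
          ring
      _ = ((LF : ℝ) * (1 + LH)) * dist u₁ u₂ / μ := by rw [hexp]; ring
      _ ≤ (1 / 2 : ℝ) * dist u₁ u₂ := by
          rw [div_le_iff₀ hμ]
          have : (LF : ℝ) * (1 + LH) * dist u₁ u₂ * 2 ≤ μ * dist u₁ u₂ := by
            rw [hμdef]; nlinarith
          nlinarith
  have : Nonempty (BoundedContinuousFunction ℝ E) := ⟨0⟩
  set u := ContractingWith.fixedPoint T hcontr with hu
  have hfix : T u = u := hcontr.fixedPoint_isFixedPt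
  set v := m2_vOf μ u with hv
  have hvform : ∀ ρ, v ρ = v₀ + ∫ τ in (0 : ℝ)..ρ, m2_Gf F H j v τ := by
    intro ρ
    have h1 : u ρ = Real.exp (-(μ * |ρ|)) • (v₀ + ∫ τ in (0 : ℝ)..ρ, m2_Gf F H j (m2_vOf μ u) τ) := by
      have h0 := DFunLike.congr_fun hfix ρ
      rw [← h0]
      rfl
    show m2_vOf μ u ρ = _
    unfold m2_vOf
    rw [h1, smul_smul, ← Real.exp_add]
    simp
    rfl
  refine ⟨v, m2_vOf_continuous μ u, ?_, ?_⟩
  · rw [hvform 0]; simp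
  · intro ρ
    have hd := ((hGc u).integral_hasStrictDerivAt 0 ρ).hasDerivAt.const_add v₀
    have heq : (fun ρ => v₀ + ∫ τ in (0 : ℝ)..ρ, m2_Gf F H j v τ) = v := (funext hvform).symm
    have hd' : HasDerivAt (fun ρ => v₀ + ∫ τ in (0 : ℝ)..ρ, m2_Gf F H j v τ)
        (m2_Gf F H j v ρ) ρ := hd
    rw [heq] at hd'
    exact hd'

theorem volterra_smooth {E : Type*} [NormedAddCommGroup E] [NormedSpace ℝ E]
    (F : E × ℝ → E) (H : E → ℝ) (j : ℕ)
    (hFs : ContDiff ℝ ∞ F) (hHs : ContDiff ℝ ∞ H) (v : ℝ → E) (hv : Continuous v)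
    (hder : ∀ ρ, HasDerivAt v (F (v ρ, B j (H ∘ v) ρ)) ρ) : ContDiff ℝ ∞ v := by
  rw [contDiff_infty]
  intro m
  induction m with
  | zero =>
    have h0 : ContDiff ℝ 0 v := contDiff_zero.mpr hv
    simpa using h0
  | succ m ih =>
    have hderiv : deriv v = fun ρ => F (v ρ, B j (H ∘ v) ρ) :=
      funext fun ρ => (hder ρ).deriv
    have hdiff : Differentiable ℝ v := fun ρ => (hder ρ).differentiableAt
    have hHm : ContDiff ℝ m H := contDiff_infty.mp hHs m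
    have hFm : ContDiff ℝ m F := contDiff_infty.mp hFs m
    have hB : ContDiff ℝ m (B j (H ∘ v)) := B_contDiff j m (hHm.comp ih)
    have hG : ContDiff ℝ m (fun ρ => F (v ρ, B j (H ∘ v) ρ)) := hFm.comp (ih.prodMk hB)
    have : ContDiff ℝ ((m : WithTop ℕ∞) + 1) v := by
      rw [contDiff_succ_iff_deriv]
      refine ⟨hdiff, ?_, ?_⟩
      · intro h
        exact absurd h (by simp)
      · rw [hderiv]; exact hG
    exact_mod_cast this

end P252
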