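import Vale.Agent.Lib.P252.M2

/-!
# P252 module M3
the clamped system
-/

open scoped ContDiff Topology
open Matrix

namespace P252

private lemma m3_exists_clamp (c rIn rOut : ℝ) (h0 : 0 < rIn) (h1 : rIn < rOut) :
    ∃ χ cl : ℝ → ℝ, ContDiff ℝ ∞ χ ∧ ContDiff ℝ ∞ cl ∧
      (∀ x, |x - c| ≤ rIn → χ x = 1) ∧ (∀ x, |x - c| ≤ rIn → cl x = x) ∧
      (∀ x, |cl x - c| ≤ rOut) ∧ (∀ x, rOut ≤ |x - c| → χ x = 0) := by
  let f : ContDiffBump c := ⟨rIn, rOut, h0, h1⟩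
  have hf1 : ∀ x, |x - c| ≤ rIn → f x = 1 := by
    intro x hx
    apply f.one_of_mem_closedBall
    simpa [Metric.mem_closedBall, Real.dist_eq] using hx
  have hf0 : ∀ x, rOut ≤ |x - c| → f x = 0 := by
    intro x hx
    apply f.zero_of_le_dist
    simpa [Real.dist_eq] using hx
  refine ⟨f, fun x => c + (x - c) * f x, f.contDiff, ?_, hf1, ?_, ?_, hf0⟩
  · exact contDiff_const.add ((contDiff_id.sub contDiff_const).mul f.contDiff)
  · intro x hx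
    simp [hf1 x hx]
  · intro x
    have e : c + (x - c) * f x - c = (x - c) * f x := by ring
    simp only [e, abs_mul]
    by_cases hx : rOut ≤ |x - c|
    · simp [hf0 x hx]; linarith
    · have h2 : |f x| ≤ 1 := by
        rw [abs_of_nonneg (f.nonneg' x)]; exact f.le_one
      have h3 : |x - c| ≤ rOut := (not_le.mp hx).le
      calc |x - c| * |f x| ≤ rOut * 1 := by
            apply mul_le_mul h3 h2 (abs_nonneg _) (by linarith)
        _ = rOut := by ring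

private lemma m3_abs_of_mem {x lo hi c r : ℝ} (h1 : lo ≤ x) (h2 : x ≤ hi)
    (hc1 : c - r ≤ lo) (hc2 : hi ≤ c + r) : |x - c| ≤ r := by
  rw [abs_le]; constructor <;> linarith

theorem clamped_solution (k : ℕ) (hk : 9 ≤ k) :
    ∃ β b z Y : ℝ → ℝ, ContDiff ℝ ∞ β ∧ ContDiff ℝ ∞ b ∧ ContDiff ℝ ∞ z ∧ ContDiff ℝ ∞ Y ∧
      β 0 = 1 ∧ b 0 = 0 ∧ z 0 = 0 ∧ Y 0 = (2 * (k : ℝ) + 3) / ((k : ℝ) * ((k : ℝ) + 2)) ∧
      ∀ ρ, Box (β ρ) (b ρ) (z ρ) (Y ρ) →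
        HasDerivAt β (β ρ * (Y ρ / (1 - z ρ) - β ρ) / 2) ρ ∧
        HasDerivAt b (β ρ + b ρ / 2 * (Y ρ / (1 - z ρ) - β ρ)) ρ ∧
        HasDerivAt z (hS k (β ρ) (b ρ) (z ρ) - (k : ℝ) / 2 * Y ρ) ρ ∧
        ρ * deriv Y ρ + (((k : ℝ) + 2) / 2) * Y ρ = hS k (β ρ) (b ρ) (z ρ) := by
  obtain ⟨χβ, cβ, hχβ, hcβ, hχβ1, hcβ1, hcβb, hχβ0⟩ :=
    m3_exists_clamp 1 2 3 (by norm_num) (by norm_num)
  obtain ⟨χb, cb, hχb, hcb, hχb1, hcb1, hcbb, hχb0⟩ :=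
    m3_exists_clamp 2 3 4 (by norm_num) (by norm_num)
  obtain ⟨χz, cz, hχz, hcz, hχz1, hcz1, hczb, hχz0⟩ :=
    m3_exists_clamp (-1/8) (7/8) 1 (by norm_num) (by norm_num)
  obtain ⟨χY, cY, hχY, hcY, hχY1, hcY1, hcYb, hχY0⟩ :=
    m3_exists_clamp (1/2) (3/2) (5/2) (by norm_num) (by norm_num)
  have hk' : (9 : ℝ) ≤ (k : ℝ) := by exact_mod_cast hk
  have hzden : ∀ x, (1 : ℝ) / 8 ≤ 1 - cz x := by
    intro x
    have := (abs_le.mp (hczb x)).2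
    linarith
  have hbden : ∀ x, (5 : ℝ) ≤ (k : ℝ) + 2 * cb x := by
    intro x
    have := (abs_le.mp (hcbb x)).1
    linarith
  have hzne : ∀ x, 1 - cz x ≠ 0 := fun x => by
    have := hzden x; intro h; rw [h] at this; norm_num at this
  have hbne : ∀ x, 2 * ((k : ℝ) + 2 * cb x) ≠ 0 := fun x => by
    have := hbden x; intro h; linarith
  -- the smooth right-hand sides (not cut off yet)
  let hC : ℝ × ℝ × ℝ → ℝ := fun v => hS k (cβ v.1) (cb v.2.1) (cz v.2.2)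
  have hhC : ContDiff ℝ ∞ hC := by
    have h1 : ContDiff ℝ ∞ fun v : ℝ × ℝ × ℝ => cβ v.1 := hcβ.comp contDiff_fst
    have h2 : ContDiff ℝ ∞ fun v : ℝ × ℝ × ℝ => cb v.2.1 :=
      hcb.comp (contDiff_fst.comp contDiff_snd)
    have h3 : ContDiff ℝ ∞ fun v : ℝ × ℝ × ℝ => cz v.2.2 :=
      hcz.comp (contDiff_snd.comp contDiff_snd)
    have hnum : ContDiff ℝ ∞ fun v : ℝ × ℝ × ℝ =>
        cβ v.1 * ((2 * (k : ℝ) + 3) + 2 * cb v.2.1 + (3 - 2 * cb v.2.1) * cz v.2.2) :=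
      h1.mul ((contDiff_const.add (contDiff_const.mul h2)).add
        ((contDiff_const.sub (contDiff_const.mul h2)).mul h3))
    have hden : ContDiff ℝ ∞ fun v : ℝ × ℝ × ℝ => 2 * ((k : ℝ) + 2 * cb v.2.1) :=
      contDiff_const.mul (contDiff_const.add (contDiff_const.mul h2))
    exact hnum.div hden (fun v => hbne _)
  let Φ : (ℝ × ℝ × ℝ) × ℝ → ℝ × ℝ × ℝ := fun p =>
    (cβ p.1.1 * (cY p.2 / (1 - cz p.1.2.2) - cβ p.1.1) / 2,
     cβ p.1.1 + cb p.1.2.1 / 2 * (cY p.2 / (1 - cz p.1.2.2) - cβ p.1.1),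
     hC p.1 - (k : ℝ) / 2 * cY p.2)
  have hΦ : ContDiff ℝ ∞ Φ := by
    have h1 : ContDiff ℝ ∞ fun p : (ℝ × ℝ × ℝ) × ℝ => cβ p.1.1 :=
      hcβ.comp (contDiff_fst.comp contDiff_fst)
    have h2 : ContDiff ℝ ∞ fun p : (ℝ × ℝ × ℝ) × ℝ => cb p.1.2.1 :=
      hcb.comp (contDiff_fst.comp (contDiff_snd.comp contDiff_fst))
    have h3 : ContDiff ℝ ∞ fun p : (ℝ × ℝ × ℝ) × ℝ => cz p.1.2.2 :=
      hcz.comp (contDiff_snd.comp (contDiff_snd.comp contDiff_fst))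
    have h4 : ContDiff ℝ ∞ fun p : (ℝ × ℝ × ℝ) × ℝ => cY p.2 :=
      hcY.comp contDiff_snd
    have hq : ContDiff ℝ ∞ fun p : (ℝ × ℝ × ℝ) × ℝ => cY p.2 / (1 - cz p.1.2.2) :=
      h4.div (contDiff_const.sub h3) (fun p => hzne _)
    have hh : ContDiff ℝ ∞ fun p : (ℝ × ℝ × ℝ) × ℝ => hC p.1 := hhC.comp contDiff_fst
    refine ContDiff.prodMk ?_ (ContDiff.prodMk ?_ ?_)
    · exact (h1.mul (hq.sub h1)).div_const 2
    · exact h1.add ((h2.div_const 2).mul (hq.sub h1))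
    · exact hh.sub (contDiff_const.mul h4)
  let X : (ℝ × ℝ × ℝ) × ℝ → ℝ := fun p => χβ p.1.1 * χb p.1.2.1 * χz p.1.2.2 * χY p.2
  have hX : ContDiff ℝ ∞ X :=
    ((((hχβ.comp (contDiff_fst.comp contDiff_fst)).mul
      (hχb.comp (contDiff_fst.comp (contDiff_snd.comp contDiff_fst)))).mul
      (hχz.comp (contDiff_snd.comp (contDiff_snd.comp contDiff_fst)))).mul
      (hχY.comp contDiff_snd))
  let F : (ℝ × ℝ × ℝ) × ℝ → ℝ × ℝ × ℝ := fun p => X p • Φ p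
  have hF : ContDiff ℝ ∞ F := hX.smul hΦ
  let H : ℝ × ℝ × ℝ → ℝ := fun v => 2 * (χβ v.1 * χb v.2.1 * χz v.2.2 * hC v)
  have hH : ContDiff ℝ ∞ H :=
    contDiff_const.mul (((((hχβ.comp contDiff_fst).mul
      (hχb.comp (contDiff_fst.comp contDiff_snd))).mul
      (hχz.comp (contDiff_snd.comp contDiff_snd)))).mul hhC)
  -- compact supports
  have hKv : IsCompact (Set.Icc (1 - 3 : ℝ) (1 + 3) ×ˢ
      (Set.Icc (2 - 4 : ℝ) (2 + 4) ×ˢ Set.Icc (-1 / 8 - 1 : ℝ) (-1 / 8 + 1))) :=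
    isCompact_Icc.prod (isCompact_Icc.prod isCompact_Icc)
  have hχβ0' : ∀ x, x ∉ Set.Icc (1 - 3 : ℝ) (1 + 3) → χβ x = 0 := by
    intro x hx
    apply hχβ0
    rw [Set.mem_Icc, not_and_or, not_le, not_le] at hx
    rcases hx with hx | hx
    · rw [abs_of_neg (by linarith)]; linarith
    · rw [abs_of_pos (by linarith)]; linarith
  have hχb0' : ∀ x, x ∉ Set.Icc (2 - 4 : ℝ) (2 + 4) → χb x = 0 := by
    intro x hx
    apply hχb0
    rw [Set.mem_Icc, not_and_or, not_le, not_le] at hx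
    rcases hx with hx | hx
    · rw [abs_of_neg (by linarith)]; linarith
    · rw [abs_of_pos (by linarith)]; linarith
  have hχz0' : ∀ x, x ∉ Set.Icc (-1 / 8 - 1 : ℝ) (-1 / 8 + 1) → χz x = 0 := by
    intro x hx
    apply hχz0
    rw [Set.mem_Icc, not_and_or, not_le, not_le] at hx
    rcases hx with hx | hx
    · rw [abs_of_neg (by linarith)]; linarith
    · rw [abs_of_pos (by linarith)]; linarith
  have hχY0' : ∀ x, x ∉ Set.Icc (1 / 2 - 5 / 2 : ℝ) (1 / 2 + 5 / 2) → χY x = 0 := by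
    intro x hx
    apply hχY0
    rw [Set.mem_Icc, not_and_or, not_le, not_le] at hx
    rcases hx with hx | hx
    · rw [abs_of_neg (by linarith)]; linarith
    · rw [abs_of_pos (by linarith)]; linarith
  have hHsupp : HasCompactSupport H := by
    refine HasCompactSupport.intro hKv ?_
    intro v hv
    simp only [Set.mem_prod, not_and_or] at hv
    rcases hv with hv | hv | hv
    · simp [H, hχβ0' _ hv]
    · simp [H, hχb0' _ hv]
    · simp [H, hχz0' _ hv]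
  have hFsupp : HasCompactSupport F := by
    refine HasCompactSupport.intro (hKv.prod (isCompact_Icc (a := (1 / 2 - 5 / 2 : ℝ))
      (b := (1 / 2 + 5 / 2 : ℝ)))) ?_
    intro p hp
    have hX0 : X p = 0 := by
      simp only [Set.mem_prod, not_and_or] at hp
      rcases hp with (hp | hp | hp) | hp
      · simp [X, hχβ0' _ hp]
      · simp [X, hχb0' _ hp]
      · simp [X, hχz0' _ hp]
      · simp [X, hχY0' _ hp]
    simp [F, hX0]
  obtain ⟨LF, hLF⟩ := ContDiff.lipschitzWith_of_hasCompactSupport (𝕂 := ℝ) hFsupp hF (by simp)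
  obtain ⟨LH, hLH⟩ := ContDiff.lipschitzWith_of_hasCompactSupport (𝕂 := ℝ) hHsupp hH (by simp)
  obtain ⟨C, hC'⟩ := hF.continuous.bounded_above_of_compact_support hFsupp
  obtain ⟨v, hvc, hv0, hvd⟩ := exists_volterra F H (k + 1) ((1, 0, 0) : ℝ × ℝ × ℝ) LF hLF C hC' LH hLH
  have hvs : ContDiff ℝ ∞ v := volterra_smooth F H (k + 1) hF hH v hvc hvd
  have hφ : ContDiff ℝ ∞ (H ∘ v) := hH.comp hvs
  have hYs : ContDiff ℝ ∞ (B (k + 1) (H ∘ v)) := by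
    rw [contDiff_infty]
    intro m
    exact B_contDiff (k + 1) m (hφ.of_le (by exact_mod_cast le_top))
  refine ⟨fun ρ => (v ρ).1, fun ρ => (v ρ).2.1, fun ρ => (v ρ).2.2, B (k + 1) (H ∘ v),
    contDiff_fst.comp hvs, (contDiff_fst.comp contDiff_snd).comp hvs,
    (contDiff_snd.comp contDiff_snd).comp hvs, hYs, ?_, ?_, ?_, ?_, ?_⟩
  · simp [hv0]
  · simp [hv0]
  · simp [hv0]
  · -- the initial value of `Y`
    have h1 : χβ 1 = 1 := hχβ1 1 (by norm_num)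
    have h2 : χb 0 = 1 := hχb1 0 (by norm_num [abs_le])
    have h3 : χz 0 = 1 := hχz1 0 (by norm_num [abs_le])
    have h4 : cβ 1 = 1 := hcβ1 1 (by norm_num)
    have h5 : cb 0 = 0 := hcb1 0 (by norm_num [abs_le])
    have h6 : cz 0 = 0 := hcz1 0 (by norm_num [abs_le])
    have hkne : (k : ℝ) ≠ 0 := by linarith
    have hk2 : (k : ℝ) + 2 ≠ 0 := by linarith
    rw [B_zero]
    simp only [Function.comp, hv0, H, hC, hS, h1, h2, h3, h4, h5, h6]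
    push_cast
    field_simp
    ring
  · intro ρ hbox
    obtain ⟨b1, b2, b3, b4, b5, b6, b7, b8⟩ := hbox
    have hχ1 : χβ (v ρ).1 = 1 := hχβ1 _ (m3_abs_of_mem b1 b2 (by norm_num) (by norm_num))
    have hχ2 : χb (v ρ).2.1 = 1 := hχb1 _ (m3_abs_of_mem b3 b4 (by norm_num) (by norm_num))
    have hχ3 : χz (v ρ).2.2 = 1 := hχz1 _ (m3_abs_of_mem b5 b6 (by norm_num) (by norm_num))
    have hχ4 : χY (B (k + 1) (H ∘ v) ρ) = 1 :=
      hχY1 _ (m3_abs_of_mem b7 b8 (by norm_num) (by norm_num))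
    have hc1 : cβ (v ρ).1 = (v ρ).1 := hcβ1 _ (m3_abs_of_mem b1 b2 (by norm_num) (by norm_num))
    have hc2 : cb (v ρ).2.1 = (v ρ).2.1 := hcb1 _ (m3_abs_of_mem b3 b4 (by norm_num) (by norm_num))
    have hc3 : cz (v ρ).2.2 = (v ρ).2.2 := hcz1 _ (m3_abs_of_mem b5 b6 (by norm_num) (by norm_num))
    have hc4 : cY (B (k + 1) (H ∘ v) ρ) = B (k + 1) (H ∘ v) ρ :=
      hcY1 _ (m3_abs_of_mem b7 b8 (by norm_num) (by norm_num))
    have hFval : F (v ρ, B (k + 1) (H ∘ v) ρ) =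
        ((v ρ).1 * (B (k + 1) (H ∘ v) ρ / (1 - (v ρ).2.2) - (v ρ).1) / 2,
         (v ρ).1 + (v ρ).2.1 / 2 * (B (k + 1) (H ∘ v) ρ / (1 - (v ρ).2.2) - (v ρ).1),
         hS k (v ρ).1 (v ρ).2.1 (v ρ).2.2 - (k : ℝ) / 2 * B (k + 1) (H ∘ v) ρ) := by
      simp only [F, X, Φ, hC, hχ1, hχ2, hχ3, hχ4, hc1, hc2, hc3, hc4]
      simp
    have hd := hvd ρ
    rw [hFval] at hd
    have hd1 := (ContinuousLinearMap.fst ℝ ℝ (ℝ × ℝ)).hasFDerivAt.comp_hasDerivAt ρ hd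
    have hd2 := (ContinuousLinearMap.fst ℝ ℝ ℝ).hasFDerivAt.comp_hasDerivAt ρ
      ((ContinuousLinearMap.snd ℝ ℝ (ℝ × ℝ)).hasFDerivAt.comp_hasDerivAt ρ hd)
    have hd3 := (ContinuousLinearMap.snd ℝ ℝ ℝ).hasFDerivAt.comp_hasDerivAt ρ
      ((ContinuousLinearMap.snd ℝ ℝ (ℝ × ℝ)).hasFDerivAt.comp_hasDerivAt ρ hd)
    refine ⟨hd1, hd2, hd3, ?_⟩
    -- Euler
    have hφ1 : ContDiff ℝ 1 (H ∘ v) := hφ.of_le (by exact_mod_cast le_top)
    have hE := B_euler (k + 1) hφ1 ρ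
    have hDer := (B_hasDerivAt (k + 1) hφ1 ρ).deriv
    have hHval : (H ∘ v) ρ = 2 * hS k (v ρ).1 (v ρ).2.1 (v ρ).2.2 := by
      simp only [Function.comp, H, hC, hχ1, hχ2, hχ3, hc1, hc2, hc3]
      ring
    rw [hHval] at hE
    rw [hDer]
    push_cast at hE
    linarith [hE]

end P252
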