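import Vale.Agent.Lib.P252.Core

/-!
# P252 module M4: the trapping region
-/

open scoped ContDiff Topology
open Matrix Set

namespace P252

theorem m4_persist (φ φ' : ℝ → ℝ) (M : ℝ) {x₀ x₁ : ℝ} (h : x₀ ≤ x₁)
    (hφ : ∀ τ ∈ Icc x₀ x₁, HasDerivAt φ (φ' τ) τ)
    (hineq : ∀ τ ∈ Icc x₀ x₁, -M * φ τ ≤ φ' τ) (h0 : 0 < φ x₀) : 0 < φ x₁ := by
  set ψ : ℝ → ℝ := fun τ => φ τ * Real.exp (M * τ) with hψ
  have hd : ∀ τ ∈ Icc x₀ x₁,
      HasDerivAt ψ (φ' τ * Real.exp (M * τ) + φ τ * (Real.exp (M * τ) * M)) τ := by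
    intro τ hτ
    have h1 : HasDerivAt (fun τ => Real.exp (M * τ)) (Real.exp (M * τ) * M) τ := by
      have := ((hasDerivAt_id τ).const_mul M).exp
      simpa using this
    exact (hφ τ hτ).mul h1
  have hmono : MonotoneOn ψ (Icc x₀ x₁) := by
    apply monotoneOn_of_deriv_nonneg (convex_Icc _ _)
    · exact fun τ hτ => (hd τ hτ).continuousAt.continuousWithinAt
    · exact fun τ hτ => (hd τ (interior_subset hτ)).differentiableAt.differentiableWithinAt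
    · intro τ hτ
      rw [(hd τ (interior_subset hτ)).deriv]
      have h3 := hineq τ (interior_subset hτ)
      have he := Real.exp_pos (M * τ)
      nlinarith
  have h4 := hmono (left_mem_Icc.2 h) (right_mem_Icc.2 h) h
  simp only [hψ] at h4
  have h2 : 0 < φ x₁ * Real.exp (M * x₁) := lt_of_lt_of_le (mul_pos h0 (Real.exp_pos _)) h4
  exact (mul_pos_iff_of_pos_right (Real.exp_pos _)).1 h2

/-- Linear uniqueness to the right. -/
theorem m4_zero_right (f f' : ℝ → ℝ) (K : ℝ) {a b : ℝ} (hab : a ≤ b) (hK : 0 ≤ K)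
    (hf : ∀ τ ∈ Icc a b, HasDerivAt f (f' τ) τ)
    (hbd : ∀ τ ∈ Icc a b, |f' τ| ≤ K * |f τ|) (h0 : f a = 0) :
    ∀ τ ∈ Icc a b, f τ = 0 := by
  intro τ hτ
  have hcont : ContinuousOn f (Icc a b) := fun t ht => (hf t ht).continuousAt.continuousWithinAt
  have := norm_le_gronwallBound_of_norm_deriv_right_le (f := f) (f' := f') (δ := 0) (K := K) (ε := 0)
    (a := a) (b := b) hcont
    (fun t ht => (hf t (Ico_subset_Icc_self ht)).hasDerivWithinAt)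
    (by simp [h0]) (fun t ht => by simpa using hbd t (Ico_subset_Icc_self ht)) τ hτ
  simpa [gronwallBound_ε0] using this

/-- Linear uniqueness to the left. -/
theorem m4_zero_left (f f' : ℝ → ℝ) (K : ℝ) {a b : ℝ} (hab : a ≤ b) (hK : 0 ≤ K)
    (hf : ∀ τ ∈ Icc a b, HasDerivAt f (f' τ) τ)
    (hbd : ∀ τ ∈ Icc a b, |f' τ| ≤ K * |f τ|) (h0 : f b = 0) :
    ∀ τ ∈ Icc a b, f τ = 0 := by
  intro τ hτ
  have key := m4_zero_right (fun t => f (-t)) (fun t => -f' (-t)) K (a := -b) (b := -a)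
    (by linarith) hK ?_ ?_ (by simpa using h0) (-τ) ⟨by linarith [hτ.2], by linarith [hτ.1]⟩
  · simpa using key
  · intro t ht
    have h1 := hf (-t) ⟨by linarith [ht.2], by linarith [ht.1]⟩
    have h2 : HasDerivAt (fun t : ℝ => -t) (-1) t := (hasDerivAt_id t).neg
    have h3 := HasDerivAt.comp t h1 h2
    exact HasDerivAt.congr_deriv h3 (by ring)
  · intro t ht
    have := hbd (-t) ⟨by linarith [ht.2], by linarith [ht.1]⟩
    simpa using this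

theorem m4_limit (φ : ℝ → ℝ) (hφ : Continuous φ) {x c : ℝ} (hx : 0 < x)
    (h : ∀ ρ ∈ Ico 0 x, c < φ ρ) : c ≤ φ x := by
  have h1 : Filter.Tendsto φ (𝓝[<] x) (𝓝 (φ x)) :=
    (hφ.tendsto x).mono_left nhdsWithin_le_nhds
  refine ge_of_tendsto h1 ?_
  filter_upwards [Ioo_mem_nhdsLT hx] with ρ hρ
  exact (h ρ ⟨hρ.1.le, hρ.2⟩).le

theorem m4_limit' (φ : ℝ → ℝ) (hφ : Continuous φ) {x c : ℝ} (hx : 0 < x)
    (h : ∀ ρ ∈ Ico 0 x, φ ρ < c) : φ x ≤ c := by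
  have := m4_limit (fun ρ => -φ ρ) hφ.neg (c := -c) hx (fun ρ hρ => by simpa using h ρ hρ)
  simpa using this

/-! Algebra on the `(a,b)` plane. -/

theorem m4_a_le (K a b : ℝ) (hK : 9 ≤ K) (hb0 : 0 ≤ b) (hb : b ≤ 9 / 2)
    (hP : 0 ≤ K ^ 2 * (1 - a) + (2 * K - 3) * b + 2 * b ^ 2 + 6 * a * b) : a ≤ 7 / 2 := by
  by_contra hc
  rw [not_le] at hc
  have h1 : (7 / 2 - a) * (K ^ 2 - 6 * b) < 0 := by
    apply mul_neg_of_neg_of_pos (by linarith)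
    nlinarith
  have h2 : (2 * K + 18) * b + 2 * b ^ 2 ≤ 5 / 2 * K ^ 2 := by
    have : (2 * K + 18) * b ≤ (2 * K + 18) * (9 / 2) :=
      mul_le_mul_of_nonneg_left hb (by linarith)
    have h3 : b ^ 2 ≤ (9 / 2) ^ 2 := by nlinarith
    nlinarith
  nlinarith

theorem m4_a_sub_le (K a b : ℝ) (hK : 9 ≤ K) (hb0 : 0 ≤ b) (hb : b ≤ 9 / 2)
    (hP : 0 ≤ K ^ 2 * (1 - a) + (2 * K - 3) * b + 2 * b ^ 2 + 6 * a * b) : a - 1 ≤ b := by
  by_contra hc
  rw [not_le] at hc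
  have hk6 : 0 < K ^ 2 - 6 * b := by nlinarith
  have h1 : b * (K ^ 2 - 6 * b) < (a - 1) * (K ^ 2 - 6 * b) :=
    mul_lt_mul_of_pos_right hc hk6
  have h2 : 8 * b + 2 * K + 3 ≤ K ^ 2 := by nlinarith
  have h3 : b * (8 * b + 2 * K + 3) ≤ b * K ^ 2 := mul_le_mul_of_nonneg_left h2 hb0
  nlinarith

/-- `a' = a P̃ / (2 (k + 2 b))`. -/
theorem m4_a_deriv_alg (K β Y ρ : ℝ) (h1 : 1 - ρ * Y ≠ 0) (h2 : K + 2 * (ρ * β) ≠ 0) :
    (1 / (1 - ρ * Y)) ^ 2 * (β * ((2 * K + 3) + 2 * (ρ * β) + (3 - 2 * (ρ * β)) * (ρ * Y))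
        / (2 * (K + 2 * (ρ * β))) - K / 2 * Y)
      = (1 / (1 - ρ * Y)) * (-K ^ 2 * (1 / (1 - ρ * Y)) * Y + (2 * K - 3 + 2 * (ρ * β)) * β
          + 6 * (1 / (1 - ρ * Y)) * β) / (2 * (K + 2 * (ρ * β))) := by
  have h3 : K + ρ * β * 2 ≠ 0 := by
    intro h
    apply h2
    linarith
  field_simp
  ring

/-- `b' = (β/2) h₁`. -/
theorem m4_b_deriv_alg (β Y ρ : ℝ) (h1 : 1 - ρ * Y ≠ 0) :
    β + ρ * β / 2 * (Y / (1 - ρ * Y) - β) = β / 2 * (1 + 1 / (1 - ρ * Y) - ρ * β) := by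
  field_simp
  ring


theorem m4_pt_eq (K β b z Y a : ℝ) (ha : a * (1 - z) = 1) :
    a * (-K ^ 2 * Y + (2 * K - 3 + 2 * b) * β * (1 - z) + 6 * β)
      = -K ^ 2 * a * Y + (2 * K - 3 + 2 * b) * β + 6 * a * β := by
  linear_combination ((2 * K - 3 + 2 * b) * β) * ha

theorem m4_pf_eq (K β Y ρ a : ℝ) (ha : a * (1 - ρ * Y) = 1) :
    K ^ 2 * (1 - a) + (2 * K - 3) * (ρ * β) + 2 * (ρ * β) ^ 2 + 6 * a * (ρ * β)
      = ρ * (-K ^ 2 * a * Y + (2 * K - 3 + 2 * (ρ * β)) * β + 6 * a * β) := by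
  linear_combination (-K ^ 2) * ha

theorem m4_abs_div_le {Y z : ℝ} (h1 : -1 ≤ Y) (h2 : Y ≤ 2) (h3 : z ≤ 3 / 4) :
    |Y / (1 - z)| ≤ 8 := by
  have h4 : 0 < 1 - z := by linarith
  rw [abs_div, abs_of_pos h4, div_le_iff₀ h4]
  have h5 : |Y| ≤ 2 := abs_le.2 ⟨by linarith, h2⟩
  linarith

/-- The statement that the ODE holds on the box. -/
def m4Ode (k : ℕ) (β b z Y : ℝ → ℝ) : Prop :=
  ∀ ρ, Box (β ρ) (b ρ) (z ρ) (Y ρ) →
        HasDerivAt β (β ρ * (Y ρ / (1 - z ρ) - β ρ) / 2) ρ ∧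
        HasDerivAt b (β ρ + b ρ / 2 * (Y ρ / (1 - z ρ) - β ρ)) ρ ∧
        HasDerivAt z (hS k (β ρ) (b ρ) (z ρ) - (k : ℝ) / 2 * Y ρ) ρ ∧
        ρ * deriv Y ρ + (((k : ℝ) + 2) / 2) * Y ρ = hS k (β ρ) (b ρ) (z ρ)

/-- `b = ρ β` and `z = ρ Y` on an interval around `0` inside the box. -/
theorem m4_identities {k : ℕ} {β b z Y : ℝ → ℝ} (hY : Differentiable ℝ Y)
    (hb0 : b 0 = 0) (hz0 : z 0 = 0) (ode : m4Ode k β b z Y)
    {x₀ x₁ : ℝ} (h0 : x₀ ≤ 0) (h1 : 0 ≤ x₁)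
    (box : ∀ ρ ∈ Icc x₀ x₁, Box (β ρ) (b ρ) (z ρ) (Y ρ)) :
    ∀ ρ ∈ Icc x₀ x₁, b ρ = ρ * β ρ ∧ z ρ = ρ * Y ρ := by
  -- the two derivative identities
  have hdz : ∀ τ ∈ Icc x₀ x₁, HasDerivAt (fun t => z t - t * Y t) 0 τ := by
    intro τ hτ
    obtain ⟨_, _, h3, h4⟩ := ode τ (box τ hτ)
    have h5 : HasDerivAt (fun t => t * Y t) (1 * Y τ + τ * deriv Y τ) τ :=
      (hasDerivAt_id τ).mul (hY τ).hasDerivAt
    refine HasDerivAt.congr_deriv (h3.sub h5) ?_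
    linarith
  have hdb : ∀ τ ∈ Icc x₀ x₁, HasDerivAt (fun t => b t - t * β t)
      ((Y τ / (1 - z τ) - β τ) / 2 * (b τ - τ * β τ)) τ := by
    intro τ hτ
    obtain ⟨h2, h3, _, _⟩ := ode τ (box τ hτ)
    have h5 : HasDerivAt (fun t => t * β t)
        (1 * β τ + τ * (β τ * (Y τ / (1 - z τ) - β τ) / 2)) τ :=
      (hasDerivAt_id τ).mul h2
    refine HasDerivAt.congr_deriv (h3.sub h5) ?_
    ring
  have hbd : ∀ τ ∈ Icc x₀ x₁, |(Y τ / (1 - z τ) - β τ) / 2 * (b τ - τ * β τ)|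
      ≤ 6 * |b τ - τ * β τ| := by
    intro τ hτ
    obtain ⟨h2, h3, _, _, _, h6, h7, h8⟩ := box τ hτ
    rw [abs_mul]
    apply mul_le_mul_of_nonneg_right _ (abs_nonneg _)
    have h9 := m4_abs_div_le h7 h8 h6
    have h10 := abs_le.1 h9
    rw [abs_le]
    constructor <;> linarith [h10.1, h10.2]
  have h00 : (0 : ℝ) ∈ Icc x₀ x₁ := ⟨h0, h1⟩
  intro ρ hρ
  constructor
  · rcases le_total 0 ρ with hr | hr
    · have := m4_zero_right (fun t => b t - t * β t) _ 6 h1 (by norm_num)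
        (fun τ hτ => hdb τ ⟨h0.trans hτ.1, hτ.2⟩)
        (fun τ hτ => hbd τ ⟨h0.trans hτ.1, hτ.2⟩) (by simp [hb0]) ρ ⟨hr, hρ.2⟩
      linarith
    · have := m4_zero_left (fun t => b t - t * β t) _ 6 h0 (by norm_num)
        (fun τ hτ => hdb τ ⟨hτ.1, hτ.2.trans h1⟩)
        (fun τ hτ => hbd τ ⟨hτ.1, hτ.2.trans h1⟩) (by simp [hb0]) ρ ⟨hρ.1, hr⟩
      linarith
  · rcases le_total 0 ρ with hr | hr
    · have := m4_zero_right (fun t => z t - t * Y t) (fun _ => 0) 0 h1 (le_refl _)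
        (fun τ hτ => hdz τ ⟨h0.trans hτ.1, hτ.2⟩)
        (fun τ hτ => by simp) (by simp [hz0]) ρ ⟨hr, hρ.2⟩
      linarith
    · have := m4_zero_left (fun t => z t - t * Y t) (fun _ => 0) 0 h0 (le_refl _)
        (fun τ hτ => hdz τ ⟨hτ.1, hτ.2.trans h1⟩)
        (fun τ hτ => by simp) (by simp [hz0]) ρ ⟨hρ.1, hr⟩
      linarith


/-- The open condition propagated along the solution. -/
def m4Good (K β b z Y : ℝ) : Prop :=
  0 < β ∧ β < 3 ∧ -1 < b ∧ b < 9 / 2 ∧ -1 < z ∧ z < 3 / 4 ∧ -1 < Y ∧ Y < 2 ∧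
    0 < 1 + (1 - b) * (1 - z) ∧
    0 < -K ^ 2 * Y + (2 * K - 3 + 2 * b) * β * (1 - z) + 6 * β

theorem m4_step {k : ℕ} (hk : 9 ≤ k) {β b z Y : ℝ → ℝ} (hβc : Continuous β)
    (hbc : Continuous b) (hzc : Continuous z) (hYd : Differentiable ℝ Y)
    (hβ0 : β 0 = 1) (hb0 : b 0 = 0) (hz0 : z 0 = 0) (ode : m4Ode k β b z Y)
    {x : ℝ} (hx : 0 < x) (hG : ∀ ρ ∈ Ico 0 x, m4Good k (β ρ) (b ρ) (z ρ) (Y ρ)) :
    m4Good k (β x) (b x) (z x) (Y x) ∧ 0 ≤ Y x := by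
  have hK : (9 : ℝ) ≤ k := by exact_mod_cast hk
  have hYc : Continuous Y := hYd.continuous
  -- weak forms
  have W1 : ∀ ρ ∈ Icc 0 x, 0 ≤ β ρ ∧ β ρ ≤ 3 ∧ -1 ≤ b ρ ∧ b ρ ≤ 9 / 2 ∧ -1 ≤ z ρ ∧ z ρ ≤ 3 / 4 ∧
      -1 ≤ Y ρ ∧ Y ρ ≤ 2 ∧ 0 ≤ 1 + (1 - b ρ) * (1 - z ρ) ∧
      0 ≤ -(k : ℝ) ^ 2 * Y ρ + (2 * (k : ℝ) - 3 + 2 * b ρ) * β ρ * (1 - z ρ) + 6 * β ρ := by
    intro ρ hρ
    rcases eq_or_lt_of_le hρ.2 with h | h
    · rw [h]
      refine ⟨m4_limit _ hβc hx (fun t ht => (hG t ht).1),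
        m4_limit' _ hβc hx (fun t ht => (hG t ht).2.1),
        m4_limit _ hbc hx (fun t ht => (hG t ht).2.2.1),
        m4_limit' _ hbc hx (fun t ht => (hG t ht).2.2.2.1),
        m4_limit _ hzc hx (fun t ht => (hG t ht).2.2.2.2.1),
        m4_limit' _ hzc hx (fun t ht => (hG t ht).2.2.2.2.2.1),
        m4_limit _ hYc hx (fun t ht => (hG t ht).2.2.2.2.2.2.1),
        m4_limit' _ hYc hx (fun t ht => (hG t ht).2.2.2.2.2.2.2.1),
        m4_limit (fun t => 1 + (1 - b t) * (1 - z t)) (by fun_prop) hx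
          (fun t ht => (hG t ht).2.2.2.2.2.2.2.2.1),
        m4_limit (fun t => -(k : ℝ) ^ 2 * Y t + (2 * (k : ℝ) - 3 + 2 * b t) * β t * (1 - z t)
          + 6 * β t) (by fun_prop) hx (fun t ht => (hG t ht).2.2.2.2.2.2.2.2.2)⟩
    · obtain ⟨h1, h2, h3, h4, h5, h6, h7, h8, h9, h10⟩ := hG ρ ⟨hρ.1, h⟩
      exact ⟨h1.le, h2.le, h3.le, h4.le, h5.le, h6.le, h7.le, h8.le, h9.le, h10.le⟩
  have box : ∀ ρ ∈ Icc 0 x, Box (β ρ) (b ρ) (z ρ) (Y ρ) := by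
    intro ρ hρ
    obtain ⟨h1, h2, h3, h4, h5, h6, h7, h8, _, _⟩ := W1 ρ hρ
    exact ⟨by linarith, h2, h3, by linarith, h5, h6, h7, h8⟩
  have ids := m4_identities hYd hb0 hz0 ode (le_refl (0 : ℝ)) hx.le box
  -- the functions
  set a : ℝ → ℝ := fun ρ => 1 / (1 - z ρ) with ha_def
  set Pt : ℝ → ℝ := fun ρ => -(k : ℝ) ^ 2 * a ρ * Y ρ + (2 * (k : ℝ) - 3 + 2 * b ρ) * β ρ
    + 6 * a ρ * β ρ with hPt_def
  set Pf : ℝ → ℝ := fun ρ => (k : ℝ) ^ 2 * (1 - a ρ) + (2 * (k : ℝ) - 3) * b ρ + 2 * b ρ ^ 2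
    + 6 * a ρ * b ρ with hPf_def
  set h1 : ℝ → ℝ := fun ρ => 1 + a ρ - b ρ with hh1_def
  have hz1 : ∀ ρ ∈ Icc 0 x, 0 < 1 - z ρ := by
    intro ρ hρ
    have := (W1 ρ hρ).2.2.2.2.2.1
    linarith
  have ha1 : ∀ ρ ∈ Icc 0 x, a ρ * (1 - z ρ) = 1 := by
    intro ρ hρ
    have := hz1 ρ hρ
    simp only [ha_def]
    field_simp
  have ha_pos : ∀ ρ ∈ Icc 0 x, 0 < a ρ := by
    intro ρ hρ
    have := hz1 ρ hρ
    simp only [ha_def]
    positivity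
  have hb_nn : ∀ ρ ∈ Icc 0 x, 0 ≤ b ρ := by
    intro ρ hρ
    rw [(ids ρ hρ).1]
    exact mul_nonneg hρ.1 (W1 ρ hρ).1
  have hPt_eq : ∀ ρ ∈ Icc 0 x, a ρ * (-(k : ℝ) ^ 2 * Y ρ + (2 * (k : ℝ) - 3 + 2 * b ρ) * β ρ
      * (1 - z ρ) + 6 * β ρ) = Pt ρ := by
    intro ρ hρ
    exact m4_pt_eq _ _ _ _ _ _ (ha1 ρ hρ)
  have hPt_nn : ∀ ρ ∈ Icc 0 x, 0 ≤ Pt ρ := by
    intro ρ hρ
    rw [← hPt_eq ρ hρ]
    exact mul_nonneg (ha_pos ρ hρ).le (W1 ρ hρ).2.2.2.2.2.2.2.2.2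
  have hPf_eq : ∀ ρ ∈ Icc 0 x, Pf ρ = ρ * Pt ρ := by
    intro ρ hρ
    have h2 := ha1 ρ hρ
    rw [(ids ρ hρ).2] at h2
    have h3 := m4_pf_eq (k : ℝ) (β ρ) (Y ρ) ρ (a ρ) h2
    simp only [hPf_def, hPt_def]
    rw [(ids ρ hρ).1]
    exact h3
  have hPf_nn : ∀ ρ ∈ Icc 0 x, 0 ≤ Pf ρ := by
    intro ρ hρ
    rw [hPf_eq ρ hρ]
    exact mul_nonneg hρ.1 (hPt_nn ρ hρ)
  have hh1_eq : ∀ ρ ∈ Icc 0 x, a ρ * (1 + (1 - b ρ) * (1 - z ρ)) = h1 ρ := by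
    intro ρ hρ
    simp only [hh1_def]
    linear_combination (1 - b ρ) * ha1 ρ hρ
  have hh1_nn : ∀ ρ ∈ Icc 0 x, 0 ≤ h1 ρ := by
    intro ρ hρ
    rw [← hh1_eq ρ hρ]
    exact mul_nonneg (ha_pos ρ hρ).le (W1 ρ hρ).2.2.2.2.2.2.2.2.1
  have hden : ∀ ρ ∈ Icc 0 x, 0 < (k : ℝ) + 2 * b ρ := by
    intro ρ hρ
    have := hb_nn ρ hρ
    linarith
  have ha_le : ∀ ρ ∈ Icc 0 x, a ρ ≤ 7 / 2 := fun ρ hρ =>
    m4_a_le (k : ℝ) (a ρ) (b ρ) hK (hb_nn ρ hρ) (W1 ρ hρ).2.2.2.1 (hPf_nn ρ hρ)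
  have ha_sub : ∀ ρ ∈ Icc 0 x, a ρ - 1 ≤ b ρ := fun ρ hρ =>
    m4_a_sub_le (k : ℝ) (a ρ) (b ρ) hK (hb_nn ρ hρ) (W1 ρ hρ).2.2.2.1 (hPf_nn ρ hρ)
  -- derivatives
  have der_β : ∀ ρ ∈ Icc 0 x, HasDerivAt β (β ρ * (Y ρ / (1 - z ρ) - β ρ) / 2) ρ :=
    fun ρ hρ => (ode ρ (box ρ hρ)).1
  have der_b : ∀ ρ ∈ Icc 0 x, HasDerivAt b (β ρ / 2 * h1 ρ) ρ := by
    intro ρ hρ
    refine HasDerivAt.congr_deriv (ode ρ (box ρ hρ)).2.1 ?_
    have h2 := hz1 ρ hρ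
    rw [(ids ρ hρ).2] at h2
    simp only [hh1_def, ha_def]
    rw [(ids ρ hρ).1, (ids ρ hρ).2]
    exact m4_b_deriv_alg (β ρ) (Y ρ) ρ h2.ne'
  have der_a : ∀ ρ ∈ Icc 0 x, HasDerivAt a (a ρ * Pt ρ / (2 * ((k : ℝ) + 2 * b ρ))) ρ := by
    intro ρ hρ
    have h2 := (ode ρ (box ρ hρ)).2.2.1
    have h3 : HasDerivAt (fun t => 1 - z t) (-(hS k (β ρ) (b ρ) (z ρ) - (k : ℝ) / 2 * Y ρ)) ρ :=
      (hasDerivAt_const ρ (1 : ℝ)).sub h2 |>.congr_deriv (by ring)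
    have h4 := (hasDerivAt_const ρ (1 : ℝ)).div h3 (hz1 ρ hρ).ne'
    refine HasDerivAt.congr_deriv h4 ?_
    have h5 := hz1 ρ hρ
    have h6 := hden ρ hρ
    rw [(ids ρ hρ).2] at h5
    rw [(ids ρ hρ).1] at h6
    have h7 := m4_a_deriv_alg (k : ℝ) (β ρ) (Y ρ) ρ h5.ne' h6.ne'
    simp only [hPt_def, ha_def, hS]
    rw [(ids ρ hρ).1, (ids ρ hρ).2, ← h7]
    have h8 := h5.ne'
    field_simp
    ring
  have der_h1 : ∀ ρ ∈ Icc 0 x, HasDerivAt h1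
      (a ρ * Pt ρ / (2 * ((k : ℝ) + 2 * b ρ)) - β ρ / 2 * h1 ρ) ρ := by
    intro ρ hρ
    have h2 := ((hasDerivAt_const ρ (1 : ℝ)).add (der_a ρ hρ)).sub (der_b ρ hρ)
    exact HasDerivAt.congr_deriv h2 (by ring)
  have der_Pf : ∀ ρ ∈ Icc 0 x, HasDerivAt Pf
      ((6 * b ρ - (k : ℝ) ^ 2) * (a ρ * Pt ρ / (2 * ((k : ℝ) + 2 * b ρ)))
        + ((2 * (k : ℝ) - 3) + 4 * b ρ + 6 * a ρ) * (β ρ / 2 * h1 ρ)) ρ := by
    intro ρ hρ
    have ha' := der_a ρ hρ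
    have hb' := der_b ρ hρ
    have h2 := (((((hasDerivAt_const ρ (1 : ℝ)).sub ha').const_mul ((k : ℝ) ^ 2)).add
      (hb'.const_mul (2 * (k : ℝ) - 3))).add ((hb'.pow 2).const_mul (2 : ℝ))).add
      ((ha'.const_mul (6 : ℝ)).mul hb')
    refine HasDerivAt.congr_deriv h2 ?_
    simp only [Nat.cast_ofNat, Nat.add_one_sub_one, pow_one]
    ring
  -- persistence
  have hxm : x / 2 ∈ Ico 0 x := ⟨by linarith, by linarith⟩
  have hsub : ∀ ρ ∈ Icc (x / 2) x, ρ ∈ Icc 0 x := fun ρ hρ => ⟨by linarith [hρ.1], hρ.2⟩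
  have hxx : x ∈ Icc 0 x := ⟨hx.le, le_refl _⟩
  have hxm' : x / 2 ∈ Icc 0 x := ⟨hxm.1, hxm.2.le⟩
  have pβ : 0 < β x := by
    refine m4_persist β _ (11 / 2) hx.le der_β ?_ (by rw [hβ0]; norm_num)
    intro τ hτ
    obtain ⟨h2, h3, _, _, _, h6, h7, h8, _, _⟩ := W1 τ hτ
    have h9 := abs_le.1 (m4_abs_div_le h7 h8 h6)
    nlinarith [h9.1]
  have ph1 : 0 < h1 x := by
    refine m4_persist h1 _ (3 / 2) (by linarith) (fun τ hτ => der_h1 τ (hsub τ hτ)) ?_ ?_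
    · intro τ hτ
      have hτ' := hsub τ hτ
      have h2 := hh1_nn τ hτ'
      have h3 := (W1 τ hτ').2.1
      have h4 : 0 ≤ a τ * Pt τ / (2 * ((k : ℝ) + 2 * b τ)) :=
        div_nonneg (mul_nonneg (ha_pos τ hτ').le (hPt_nn τ hτ')) (by linarith [hden τ hτ'])
      nlinarith
    · rw [← hh1_eq _ hxm']
      exact mul_pos (ha_pos _ hxm') (hG _ hxm).2.2.2.2.2.2.2.2.1
  have pψ : b x < 9 / 2 := by
    have key : 0 < (fun t => 9 / 2 - b t) x := by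
      refine m4_persist (fun t => 9 / 2 - b t) (fun τ => -(β τ / 2 * h1 τ)) (3 / 2) (by linarith)
        (fun τ hτ => (hasDerivAt_const τ (9 / 2 : ℝ)).sub (der_b τ (hsub τ hτ))
          |>.congr_deriv (by ring)) ?_ ?_
      · intro τ hτ
        have hτ' := hsub τ hτ
        have h2 := hh1_nn τ hτ'
        obtain ⟨h3, h4, _, h5, _⟩ := W1 τ hτ'
        have h6 : h1 τ ≤ 9 / 2 - b τ := by
          simp only [hh1_def]
          linarith [ha_le τ hτ']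
        have h7 : 0 ≤ 9 / 2 - b τ := by linarith
        have h8 : β τ * h1 τ ≤ 3 * (9 / 2 - b τ) := mul_le_mul h4 h6 h2 (by norm_num)
        nlinarith
      · have := (hG _ hxm).2.2.2.1
        linarith
    simp only at key
    linarith
  have pP : 0 < Pf x := by
    have hMnn : 0 ≤ 7 * (k : ℝ) / (2 * x) := by positivity
    refine m4_persist Pf _ (7 * (k : ℝ) / (2 * x)) (by linarith)
      (fun τ hτ => der_Pf τ (hsub τ hτ)) ?_ ?_
    · intro τ hτ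
      have hτ' := hsub τ hτ
      have hbτ := hb_nn τ hτ'
      have hβτ := (W1 τ hτ').1
      have hbu := (W1 τ hτ').2.2.2.1
      have hh := hh1_nn τ hτ'
      have hat := ha_pos τ hτ'
      have hat2 := ha_le τ hτ'
      have hPtn := hPt_nn τ hτ'
      have hdn := hden τ hτ'
      have hkp : (0 : ℝ) < k := by linarith
      -- the good term is nonnegative
      have t1 : 0 ≤ ((2 * (k : ℝ) - 3) + 4 * b τ + 6 * a τ) * (β τ / 2 * h1 τ) := by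
        apply mul_nonneg
        · linarith
        · positivity
      -- the bad term
      have t2 : ((k : ℝ) ^ 2 - 6 * b τ) * (a τ * Pt τ / (2 * ((k : ℝ) + 2 * b τ)))
          ≤ 7 * (k : ℝ) / 4 * Pt τ := by
        have t3 : ((k : ℝ) ^ 2 - 6 * b τ) * (a τ * Pt τ / (2 * ((k : ℝ) + 2 * b τ)))
            = (((k : ℝ) ^ 2 - 6 * b τ) * a τ / (2 * ((k : ℝ) + 2 * b τ))) * Pt τ := by
          field_simp
        rw [t3]
        apply mul_le_mul_of_nonneg_right _ hPtn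
        rw [div_le_iff₀ (by linarith)]
        have t4 : ((k : ℝ) ^ 2 - 6 * b τ) * a τ ≤ (k : ℝ) ^ 2 * (7 / 2) := by
          apply mul_le_mul _ hat2 hat.le (by positivity)
          linarith
        have t5 : 7 * (k : ℝ) / 4 * (2 * ((k : ℝ) + 2 * b τ)) ≥ (k : ℝ) ^ 2 * (7 / 2) := by
          nlinarith
        linarith
      have t6 : Pt τ ≤ 2 / x * Pf τ := by
        rw [hPf_eq τ hτ']
        have t7 : x / 2 ≤ τ := hτ.1
        have t8 : 2 / x * (τ * Pt τ) = (2 / x * τ) * Pt τ := by ring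
        rw [t8]
        have t9 : 1 ≤ 2 / x * τ := by
          rw [div_mul_eq_mul_div, le_div_iff₀ hx]
          linarith
        nlinarith
      have t10 : 7 * (k : ℝ) / 4 * Pt τ ≤ 7 * (k : ℝ) / (2 * x) * Pf τ := by
        have : 7 * (k : ℝ) / (2 * x) * Pf τ = 7 * (k : ℝ) / 4 * (2 / x * Pf τ) := by
          field_simp
          ring
        rw [this]
        exact mul_le_mul_of_nonneg_left t6 (by positivity)
      nlinarith
    · rw [hPf_eq _ hxm']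
      apply mul_pos (by linarith)
      rw [← hPt_eq _ hxm']
      exact mul_pos (ha_pos _ hxm') (hG _ hxm).2.2.2.2.2.2.2.2.2
  -- monotonicity
  have ham : 1 ≤ a x := by
    have hmono : MonotoneOn a (Icc 0 x) := by
      apply monotoneOn_of_deriv_nonneg (convex_Icc _ _)
      · exact fun τ hτ => (der_a τ hτ).continuousAt.continuousWithinAt
      · exact fun τ hτ => (der_a τ (interior_subset hτ)).differentiableAt.differentiableWithinAt
      · intro τ hτ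
        have hτ' : τ ∈ Icc 0 x := interior_subset hτ
        rw [(der_a τ hτ').deriv]
        exact div_nonneg (mul_nonneg (ha_pos τ hτ').le (hPt_nn τ hτ'))
          (by linarith [hden τ hτ'])
    have h2 := hmono (left_mem_Icc.2 hx.le) (right_mem_Icc.2 hx.le) hx.le
    have h3 : a 0 = 1 := by simp [ha_def, hz0]
    linarith
  have hAle : ∀ ρ ∈ Ioc 0 x, a ρ * Y ρ ≤ β ρ := by
    intro ρ hρ
    have hρ' : ρ ∈ Icc 0 x := ⟨hρ.1.le, hρ.2⟩
    have h2 := ha_sub ρ hρ'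
    have h3 : ρ * (a ρ * Y ρ) = a ρ - 1 := by
      have h4 := ha1 ρ hρ'
      rw [(ids ρ hρ').2] at h4
      linarith
    have h4 : ρ * (a ρ * Y ρ) ≤ ρ * β ρ := by
      rw [h3, ← (ids ρ hρ').1]
      exact h2
    exact le_of_mul_le_mul_left h4 hρ.1
  have hβm : β x ≤ 1 := by
    have hanti : AntitoneOn β (Icc 0 x) := by
      apply antitoneOn_of_deriv_nonpos (convex_Icc _ _)
      · exact fun τ hτ => (der_β τ hτ).continuousAt.continuousWithinAt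
      · exact fun τ hτ => (der_β τ (interior_subset hτ)).differentiableAt.differentiableWithinAt
      · intro τ hτ
        have hτ' : τ ∈ Icc 0 x := interior_subset hτ
        rw [interior_Icc] at hτ
        rw [(der_β τ hτ').deriv]
        have h2 := hAle τ ⟨hτ.1, hτ.2.le⟩
        have h3 : Y τ / (1 - z τ) = a τ * Y τ := by
          simp only [ha_def]
          ring
        rw [h3]
        have h4 := (W1 τ hτ').1
        have h5 : β τ * (a τ * Y τ - β τ) ≤ 0 :=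
          mul_nonpos_of_nonneg_of_nonpos h4 (by linarith)
        linarith
    have h2 := hanti (left_mem_Icc.2 hx.le) (right_mem_Icc.2 hx.le) hx.le
    rw [hβ0] at h2
    exact h2
  -- conclusion
  have hax := ha1 x hxx
  have hapx := ha_pos x hxx
  have hz1x := hz1 x hxx
  have hzn : 0 ≤ z x := by
    have : 1 - z x ≤ 1 := by nlinarith
    linarith
  have hzu : z x ≤ 5 / 7 := by
    have h2 := ha_le x hxx
    have : 2 / 7 ≤ 1 - z x := by nlinarith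
    linarith
  have hYn : 0 ≤ Y x := by
    have h2 := (ids x hxx).2
    rw [h2] at hzn
    exact nonneg_of_mul_nonneg_right hzn hx
  have hYu : Y x ≤ 1 := by
    have h2 := hAle x ⟨hx, le_refl _⟩
    have h3 : Y x = (a x * Y x) * (1 - z x) := by
      linear_combination (-Y x) * hax
    rw [h3]
    have h4 : (a x * Y x) * (1 - z x) ≤ β x * (1 - z x) :=
      mul_le_mul_of_nonneg_right h2 hz1x.le
    nlinarith
  have hbp : 0 < b x := by
    rw [(ids x hxx).1]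
    exact mul_pos hx pβ
  refine ⟨⟨pβ, by linarith, by linarith, pψ, by linarith, by linarith, by linarith, by linarith,
    ?_, ?_⟩, hYn⟩
  · have h2 : 1 + (1 - b x) * (1 - z x) = h1 x * (1 - z x) := by
      simp only [hh1_def]
      linear_combination (-1 : ℝ) * hax
    rw [h2]
    exact mul_pos ph1 hz1x
  · have h2 : -(k : ℝ) ^ 2 * Y x + (2 * (k : ℝ) - 3 + 2 * b x) * β x * (1 - z x) + 6 * β x
        = (1 - z x) * Pt x := by
      rw [← hPt_eq x hxx]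
      linear_combination (-(-(k : ℝ) ^ 2 * Y x + (2 * (k : ℝ) - 3 + 2 * b x) * β x
        * (1 - z x) + 6 * β x)) * hax
    rw [h2]
    apply mul_pos hz1x
    have h3 := hPf_eq x hxx
    rw [h3] at pP
    exact (mul_pos_iff_of_pos_left hx).1 pP


theorem trap (k : ℕ) (hk : 9 ≤ k) (β b z Y : ℝ → ℝ)
    (hβ : ContDiff ℝ ∞ β) (hb : ContDiff ℝ ∞ b) (hz : ContDiff ℝ ∞ z) (hY : ContDiff ℝ ∞ Y)
    (hβ0 : β 0 = 1) (hb0 : b 0 = 0) (hz0 : z 0 = 0)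
    (hY0 : Y 0 = (2 * (k : ℝ) + 3) / ((k : ℝ) * ((k : ℝ) + 2)))
    (ode : ∀ ρ, Box (β ρ) (b ρ) (z ρ) (Y ρ) →
        HasDerivAt β (β ρ * (Y ρ / (1 - z ρ) - β ρ) / 2) ρ ∧
        HasDerivAt b (β ρ + b ρ / 2 * (Y ρ / (1 - z ρ) - β ρ)) ρ ∧
        HasDerivAt z (hS k (β ρ) (b ρ) (z ρ) - (k : ℝ) / 2 * Y ρ) ρ ∧
        ρ * deriv Y ρ + (((k : ℝ) + 2) / 2) * Y ρ = hS k (β ρ) (b ρ) (z ρ)) :
    ∃ δ : ℝ, 0 < δ ∧ ∀ ρ, -δ < ρ →
      0 < β ρ ∧ Box (β ρ) (b ρ) (z ρ) (Y ρ) ∧ b ρ = ρ * β ρ ∧ z ρ = ρ * Y ρ ∧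
        (0 ≤ ρ → 0 ≤ Y ρ) := by
  have hK : (9 : ℝ) ≤ k := by exact_mod_cast hk
  have hβc : Continuous β := hβ.continuous
  have hbc : Continuous b := hb.continuous
  have hzc : Continuous z := hz.continuous
  have hYc : Continuous Y := hY.continuous
  have hYd : Differentiable ℝ Y := hY.differentiable (by simp)
  -- `Good` at `0`
  have hY0p : 0 < Y 0 := by rw [hY0]; positivity
  have hY0u : Y 0 < 2 := by
    rw [hY0, div_lt_iff₀ (by positivity)]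
    nlinarith
  have hG0 : m4Good k (β 0) (b 0) (z 0) (Y 0) := by
    rw [hβ0, hb0, hz0]
    refine ⟨by norm_num, by norm_num, by norm_num, by norm_num, by norm_num, by norm_num,
      by linarith, hY0u, by norm_num, ?_⟩
    rw [hY0]
    have h1 : (k : ℝ) ≠ 0 := by linarith
    have h2 : (k : ℝ) + 2 ≠ 0 := by linarith
    have h3 : -(k : ℝ) ^ 2 * ((2 * (k : ℝ) + 3) / ((k : ℝ) * ((k : ℝ) + 2)))
        + (2 * (k : ℝ) - 3 + 2 * 0) * 1 * (1 - 0) + 6 * 1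
        = 2 * (2 * (k : ℝ) + 3) / ((k : ℝ) + 2) := by
      field_simp
      ring
    rw [h3]
    positivity
  -- openness
  have hopen : IsOpen {ρ | m4Good k (β ρ) (b ρ) (z ρ) (Y ρ)} := by
    simp only [m4Good, Set.ofPred_and]
    refine IsOpen.inter (isOpen_lt continuous_const hβc) ?_
    refine IsOpen.inter (isOpen_lt hβc continuous_const) ?_
    refine IsOpen.inter (isOpen_lt continuous_const hbc) ?_
    refine IsOpen.inter (isOpen_lt hbc continuous_const) ?_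
    refine IsOpen.inter (isOpen_lt continuous_const hzc) ?_
    refine IsOpen.inter (isOpen_lt hzc continuous_const) ?_
    refine IsOpen.inter (isOpen_lt continuous_const hYc) ?_
    refine IsOpen.inter (isOpen_lt hYc continuous_const) ?_
    refine IsOpen.inter (isOpen_lt continuous_const (by fun_prop)) ?_
    exact isOpen_lt continuous_const (by fun_prop)
  -- `Good` on `[0, ∞)`
  have hGall : ∀ x, 0 ≤ x → m4Good k (β x) (b x) (z x) (Y x) := by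
    by_contra hc
    push Not at hc
    obtain ⟨x₀, hx₀, hnot⟩ := hc
    set S : Set ℝ := Ici 0 ∩ {ρ | m4Good k (β ρ) (b ρ) (z ρ) (Y ρ)}ᶜ with hS_def
    have hSc : IsClosed S := isClosed_Ici.inter hopen.isClosed_compl
    have hSne : S.Nonempty := ⟨x₀, hx₀, hnot⟩
    have hSb : BddBelow S := ⟨0, fun t ht => ht.1⟩
    have hmem : sInf S ∈ S := hSc.csInf_mem hSne hSb
    set x := sInf S with hx_def
    have hx0 : 0 ≤ x := hmem.1
    have hxne : x ≠ 0 := by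
      intro h
      apply hmem.2
      rw [h]
      exact hG0
    have hxp : 0 < x := lt_of_le_of_ne hx0 (Ne.symm hxne)
    have hlt : ∀ ρ ∈ Ico 0 x, m4Good k (β ρ) (b ρ) (z ρ) (Y ρ) := by
      intro ρ hρ
      by_contra hcc
      have : ρ ∈ S := ⟨hρ.1, hcc⟩
      have := csInf_le hSb this
      linarith [hρ.2]
    exact hmem.2 (m4_step hk hβc hbc hzc hYd hβ0 hb0 hz0 ode hxp hlt).1
  have hYall : ∀ x, 0 ≤ x → 0 ≤ Y x := by
    intro x hx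
    rcases eq_or_lt_of_le hx with h | h
    · rw [← h]
      exact hY0p.le
    · exact (m4_step hk hβc hbc hzc hYd hβ0 hb0 hz0 ode h
        (fun ρ hρ => hGall ρ hρ.1)).2
  -- small neighbourhood of `0`
  obtain ⟨δ, hδ, hball⟩ := Metric.isOpen_iff.1 hopen 0 hG0
  have hboxG : ∀ ρ, m4Good k (β ρ) (b ρ) (z ρ) (Y ρ) → Box (β ρ) (b ρ) (z ρ) (Y ρ) := by
    intro ρ h
    obtain ⟨h1, h2, h3, h4, h5, h6, h7, h8, _, _⟩ := h
    exact ⟨by linarith, h2.le, h3.le, by linarith, h5.le, h6.le, h7.le, h8.le⟩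
  have hGδ : ∀ ρ, -δ < ρ → m4Good k (β ρ) (b ρ) (z ρ) (Y ρ) := by
    intro ρ hρ
    rcases le_total 0 ρ with h | h
    · exact hGall ρ h
    · apply hball
      rw [Metric.mem_ball, Real.dist_eq, sub_zero, abs_of_nonpos h]
      linarith
  refine ⟨δ, hδ, fun ρ hρ => ?_⟩
  have hG := hGδ ρ hρ
  refine ⟨hG.1, hboxG ρ hG, ?_, ?_, hYall ρ⟩
  · have hbx : ∀ t ∈ Icc (min ρ 0) (max ρ 0), Box (β t) (b t) (z t) (Y t) := by
      intro t ht
      apply hboxG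
      apply hGδ
      have : min ρ 0 ≤ t := ht.1
      rcases le_total ρ 0 with h | h
      · rw [min_eq_left h] at this
        linarith
      · rw [min_eq_right h] at this
        linarith
    exact (m4_identities hYd hb0 hz0 ode (min_le_right _ _) (le_max_right _ _) hbx ρ
      ⟨min_le_left _ _, le_max_left _ _⟩).1
  · have hbx : ∀ t ∈ Icc (min ρ 0) (max ρ 0), Box (β t) (b t) (z t) (Y t) := by
      intro t ht
      apply hboxG
      apply hGδ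
      have : min ρ 0 ≤ t := ht.1
      rcases le_total ρ 0 with h | h
      · rw [min_eq_left h] at this
        linarith
      · rw [min_eq_right h] at this
        linarith
    exact (m4_identities hYd hb0 hz0 ode (min_le_right _ _) (le_max_right _ _) hbx ρ
      ⟨min_le_left _ _, le_max_left _ _⟩).2

end P252
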