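import Vale.Agent.Lib.P252.Core

/-!
# P252 module M4a: persistence lemma and the algebra of the trap
-/

open scoped ContDiff Topology
open Matrix Set

namespace P252

/-- Persistence: `φ' ≥ -q φ` on `[x0, x1]`, `q` continuous, `φ x0 > 0` imply `φ x1 > 0`. -/
theorem m4a_persist {φ φ' q : ℝ → ℝ} {x0 x1 : ℝ} (hx : x0 ≤ x1)
    (hq : ContinuousOn q (Icc x0 x1))
    (hφ : ∀ x ∈ Icc x0 x1, HasDerivAt φ (φ' x) x)
    (hineq : ∀ x ∈ Icc x0 x1, -q x * φ x ≤ φ' x) (h0 : 0 < φ x0) : 0 < φ x1 := by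
  haveI : Fact (x0 ≤ x1) := ⟨hx⟩
  set qt : ℝ → ℝ := Set.IccExtend hx (fun t : Icc x0 x1 => q t) with hqt
  have hqtc : Continuous qt := by
    apply Continuous.Icc_extend'
    exact continuousOn_iff_continuous_restrict.mp hq
  have hqte : ∀ x ∈ Icc x0 x1, qt x = q x := by
    intro x hx'
    simp only [hqt]
    rw [Set.IccExtend_of_mem _ _ hx']
  set P : ℝ → ℝ := fun u => ∫ t in x0..u, qt t with hP
  have hPd : ∀ x, HasDerivAt P (qt x) x := fun x =>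
    (hqtc.integral_hasStrictDerivAt x0 x).hasDerivAt
  set E : ℝ → ℝ := fun x => φ x * Real.exp (P x) with hE
  have hEd : ∀ x ∈ Icc x0 x1,
      HasDerivAt E (φ' x * Real.exp (P x) + φ x * (Real.exp (P x) * qt x)) x := by
    intro x hx'
    exact (hφ x hx').mul ((hPd x).exp)
  have hmono : MonotoneOn E (Icc x0 x1) := by
    apply monotoneOn_of_deriv_nonneg (convex_Icc x0 x1)
    · intro x hx'
      exact (hEd x hx').continuousAt.continuousWithinAt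
    · intro x hx'
      exact (hEd x (interior_subset hx')).differentiableAt.differentiableWithinAt
    · intro x hx'
      have hx'' := interior_subset hx'
      rw [(hEd x hx'').deriv, hqte x hx'']
      have := hineq x hx''
      have hexp := Real.exp_pos (P x)
      have : 0 ≤ (φ' x + q x * φ x) * Real.exp (P x) :=
        mul_nonneg (by linarith) hexp.le
      nlinarith
  have hle := hmono (left_mem_Icc.mpr hx) (right_mem_Icc.mpr hx) hx
  have hE0 : 0 < E x0 := mul_pos h0 (Real.exp_pos _)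
  have hE1 : 0 < E x1 := lt_of_lt_of_le hE0 hle
  have : 0 < φ x1 * Real.exp (P x1) := hE1
  by_contra hneg
  push Not at hneg
  nlinarith [Real.exp_pos (P x1)]

/-- `(k²-6b) a ≤ k²+(2k-3)b+2b²` from `P ≥ 0`. -/
theorem m4a_step (k a b : ℝ)
    (hP : 0 ≤ k ^ 2 * (1 - a) + (2 * k - 3) * b + 2 * b ^ 2 + 6 * a * b) :
    (k ^ 2 - 6 * b) * a ≤ k ^ 2 + (2 * k - 3) * b + 2 * b ^ 2 := by
  nlinarith

/-- `a ≤ 7/2`. -/
theorem m4a_a_le (k a b : ℝ) (hk : 9 ≤ k) (hb0 : 0 ≤ b) (hb : b ≤ 9 / 2)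
    (hP : 0 ≤ k ^ 2 * (1 - a) + (2 * k - 3) * b + 2 * b ^ 2 + 6 * a * b) : a ≤ 7 / 2 := by
  have h1 := m4a_step k a b hP
  have hpos : 0 < k ^ 2 - 6 * b := by nlinarith
  have h2 : k ^ 2 + (2 * k - 3) * b + 2 * b ^ 2 ≤ (k ^ 2 - 6 * b) * (7 / 2) := by
    have h3 : (2 * k + 18) * b + 2 * b ^ 2 ≤ 5 / 2 * k ^ 2 := by
      have h4 : (2 * k + 18) * b ≤ (2 * k + 18) * (9 / 2) :=
        mul_le_mul_of_nonneg_left hb (by linarith)
      have h5 : b ^ 2 ≤ (9 / 2) ^ 2 := by nlinarith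
      nlinarith
    nlinarith
  have h6 : (k ^ 2 - 6 * b) * a ≤ (k ^ 2 - 6 * b) * (7 / 2) := le_trans h1 h2
  exact le_of_mul_le_mul_left h6 hpos

/-- `a - 1 ≤ b`. -/
theorem m4a_a_sub_one_le (k a b : ℝ) (hk : 9 ≤ k) (hb0 : 0 ≤ b) (hb : b ≤ 9 / 2)
    (hP : 0 ≤ k ^ 2 * (1 - a) + (2 * k - 3) * b + 2 * b ^ 2 + 6 * a * b) : a - 1 ≤ b := by
  have h1 := m4a_step k a b hP
  have hpos : 0 < k ^ 2 - 6 * b := by nlinarith
  have h2 : 0 ≤ b * (k ^ 2 - 2 * k - 3 - 8 * b) := by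
    apply mul_nonneg hb0
    nlinarith
  have h3 : (k ^ 2 - 6 * b) * (a - 1) ≤ (k ^ 2 - 6 * b) * b := by nlinarith
  exact le_of_mul_le_mul_left h3 hpos

/-- The quadratic bound for `h₁ = 1 + a - b`. -/
theorem m4a_h1_le (k a b : ℝ) (hk : 9 ≤ k) (hb : b ≤ 9 / 2)
    (hP : 0 ≤ k ^ 2 * (1 - a) + (2 * k - 3) * b + 2 * b ^ 2 + 6 * a * b) :
    (k ^ 2 - 6 * b) * (1 + a - b) ≤ (9 / 2 - b) * (k ^ 2 - 2 * k - 27 - 8 * b) := by
  have h1 := m4a_step k a b hP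
  have hQ : -((k - 9) * (5 * k + 27) / 2) ≤ 0 := by
    have : 0 ≤ (k - 9) * (5 * k + 27) := mul_nonneg (by linarith) (by linarith)
    linarith
  have hid : (9 / 2 - b) * (k ^ 2 - 2 * k - 27 - 8 * b)
      = 8 * b ^ 2 - (k ^ 2 - 2 * k + 9) * b + 2 * k ^ 2 + (k - 9) * (5 * k + 27) / 2 := by ring
  rw [hid]
  nlinarith

/-- Auxiliary positivity used with the quadratic bound. -/
theorem m4a_pos_aux (k b : ℝ) (hk : 9 ≤ k) (hb0 : 0 ≤ b) (hb : b ≤ 9 / 2) :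
    0 < k ^ 2 - 6 * b ∧ 0 ≤ k ^ 2 - 2 * k - 27 - 8 * b := by
  constructor <;> nlinarith

end P252
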