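import Vale.Agent.Lib.P252.M3
import Vale.Agent.Lib.P252.M4

/-!
# P252 module M5
from the ODE solution to the profile
-/

open scoped ContDiff Topology
open Matrix

namespace P252

namespace M5

/-- The primitive of `β / 2`. -/
noncomputable def prim (β : ℝ → ℝ) (ρ : ℝ) : ℝ := ∫ t in (0 : ℝ)..ρ, β t / 2

lemma prim_hasDeriv {β : ℝ → ℝ} (hβ : Continuous β) (ρ : ℝ) :
    HasDerivAt (prim β) (β ρ / 2) ρ := by
  have hc : Continuous fun t => β t / 2 := hβ.div_const 2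
  exact intervalIntegral.integral_hasDerivAt_right (hc.intervalIntegrable _ _)
    (hc.stronglyMeasurableAtFilter _ _) hc.continuousAt

lemma prim_smooth {β : ℝ → ℝ} (hβ : ContDiff ℝ ∞ β) : ContDiff ℝ ∞ (prim β) := by
  rw [contDiff_infty_iff_deriv]
  refine ⟨fun ρ => (prim_hasDeriv hβ.continuous ρ).differentiableAt, ?_⟩
  have : deriv (prim β) = fun ρ => β ρ / 2 :=
    funext fun ρ => (prim_hasDeriv hβ.continuous ρ).deriv
  rw [this]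
  exact hβ.div_const 2

/-- `f = exp(∫₀^ρ β/2)`. -/
noncomputable def fF (β : ℝ → ℝ) (ρ : ℝ) : ℝ := Real.exp (prim β ρ)

/-- `g = f β`. -/
noncomputable def gF (β : ℝ → ℝ) (ρ : ℝ) : ℝ := fF β ρ * β ρ

/-- `G = f β Y / (1 - ρ Y)`. -/
noncomputable def GF (β Y : ℝ → ℝ) (ρ : ℝ) : ℝ := fF β ρ * β ρ * (Y ρ / (1 - ρ * Y ρ))

/-- `a = 1 / (1 - ρ Y)`. -/
noncomputable def aF (Y : ℝ → ℝ) (ρ : ℝ) : ℝ := 1 / (1 - ρ * Y ρ)

/-- `Ĉ = (k+2)(2a-1)β/(2(k+2b))`. -/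
noncomputable def chat (k : ℕ) (β Y : ℝ → ℝ) (ρ : ℝ) : ℝ :=
  ((k : ℝ) + 2) * (2 * aF Y ρ - 1) * β ρ / (2 * ((k : ℝ) + 2 * (ρ * β ρ)))

/-- `z' = h - (k/2) Y`. -/
noncomputable def zp (k : ℕ) (β Y : ℝ → ℝ) (ρ : ℝ) : ℝ :=
  hS k (β ρ) (ρ * β ρ) (ρ * Y ρ) - (k : ℝ) / 2 * Y ρ

/-- `β' = β (A - β) / 2`. -/
noncomputable def βp (β Y : ℝ → ℝ) (ρ : ℝ) : ℝ := β ρ * (Y ρ / (1 - ρ * Y ρ) - β ρ) / 2

/-- The derivative of `Ĉ`. -/
noncomputable def C1 (k : ℕ) (β Y : ℝ → ℝ) (ρ : ℝ) : ℝ :=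
  ((k : ℝ) + 2) / 2 *
    ((2 * (aF Y ρ ^ 2 * zp k β Y ρ) * β ρ + (2 * aF Y ρ - 1) * βp β Y ρ) / ((k : ℝ) + 2 * (ρ * β ρ))
      - (2 * aF Y ρ - 1) * β ρ * (2 * (β ρ + ρ * βp β Y ρ)) / ((k : ℝ) + 2 * (ρ * β ρ)) ^ 2)

/-- The logarithm of `f (1 - z) / g^k`. -/
noncomputable def LF (k : ℕ) (β Y : ℝ → ℝ) (ρ : ℝ) : ℝ :=
  prim β ρ + Real.log (1 - ρ * Y ρ) - (k : ℝ) * (prim β ρ + Real.log (β ρ))

/-- `W = (f (1 - z) / g^k)^γ`. -/
noncomputable def WF (k : ℕ) (β Y : ℝ → ℝ) (ρ : ℝ) : ℝ :=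
  Real.exp (((k : ℝ) + 2) / ((k : ℝ) + 3) * LF k β Y ρ)

section algebra

lemma idlog (K r B y : ℝ) (h1 : 1 - r * y ≠ 0) (h2 : K + 2 * (r * B) ≠ 0) (h3 : K + 3 ≠ 0)
    (h4 : B ≠ 0) :
    (K + 2) / (K + 3) * (B / 2 + (-(B * ((2 * K + 3) + 2 * (r * B) + (3 - 2 * (r * B)) * (r * y))
        / (2 * (K + 2 * (r * B))) - K / 2 * y)) / (1 - r * y)
      - K * (B / 2 + (B * (y / (1 - r * y) - B) / 2) / B))
    = -((K + 2) * (2 * (1 / (1 - r * y)) - 1) * B / (2 * (K + 2 * (r * B)))) := by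
  have h2' : K + 2 * B * r ≠ 0 := by intro h; apply h2; linarith
  field_simp
  ring

lemma idmain (K r B y D U : ℝ) (hD : D = K + 2 * (r * B)) (hU : U = 1 - r * y) (h1 : U ≠ 0)
    (h2 : D ≠ 0) :
    4 * r * ((K + 2) / 2 *
      ((2 * ((1 / U) ^ 2 * (B * ((2 * K + 3) + 2 * (r * B) + (3 - 2 * (r * B)) * (r * y)) / (2 * D)
          - K / 2 * y)) * B + (2 * (1 / U) - 1) * (B * (y / U - B) / 2)) / D
        - (2 * (1 / U) - 1) * B * (2 * (B + r * (B * (y / U - B) / 2))) / D ^ 2))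
    = 4 * r * ((K + 2) * (2 * (1 / U) - 1) * B / (2 * D)) ^ 2
        - 2 * ((K + 2) * (2 * (1 / U) - 1) * B / (2 * D))
        - 2 * (K - 1) * (1 / U) * ((K + 2) * (2 * (1 / U) - 1) * B / (2 * D))
        + (K + 2) * (1 / U) * B := by
  field_simp
  subst hD hU
  ring

end algebra

section pointwise

variable {k : ℕ} {β Y : ℝ → ℝ} {ρ : ℝ}

lemma identity_log (hk : 9 ≤ k) (hβ : 0 < β ρ) (hb : -1 ≤ ρ * β ρ) (hz : ρ * Y ρ ≤ 3 / 4) :
    ((k : ℝ) + 2) / ((k : ℝ) + 3) *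
        (β ρ / 2 + (-zp k β Y ρ) / (1 - ρ * Y ρ)
          - (k : ℝ) * (β ρ / 2 + βp β Y ρ / β ρ)) = - chat k β Y ρ := by
  have hK : (9 : ℝ) ≤ k := by exact_mod_cast hk
  have h1 : (1 - ρ * Y ρ) ≠ 0 := by
    have : 0 < 1 - ρ * Y ρ := by linarith
    exact this.ne'
  have h2 : ((k : ℝ) + 2 * (ρ * β ρ)) ≠ 0 := by
    have : 0 < (k : ℝ) + 2 * (ρ * β ρ) := by linarith
    exact this.ne'
  have h3 : ((k : ℝ) + 3) ≠ 0 := by positivity
  have h4 : β ρ ≠ 0 := hβ.ne'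
  unfold zp βp chat aF hS
  exact idlog _ _ _ _ h1 h2 h3 h4

lemma identity_main (hk : 9 ≤ k) (hβ : 0 < β ρ) (hb : -1 ≤ ρ * β ρ) (hz : ρ * Y ρ ≤ 3 / 4) :
    4 * ρ * C1 k β Y ρ =
      4 * ρ * chat k β Y ρ ^ 2 - 2 * chat k β Y ρ - 2 * ((k : ℝ) - 1) * aF Y ρ * chat k β Y ρ
        + ((k : ℝ) + 2) * aF Y ρ * β ρ := by
  have hK : (9 : ℝ) ≤ k := by exact_mod_cast hk
  have h1 : (1 - ρ * Y ρ) ≠ 0 := by
    have : 0 < 1 - ρ * Y ρ := by linarith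
    exact this.ne'
  have h2 : ((k : ℝ) + 2 * (ρ * β ρ)) ≠ 0 := by
    have : 0 < (k : ℝ) + 2 * (ρ * β ρ) := by linarith
    exact this.ne'
  unfold C1 zp βp chat aF hS
  exact idmain _ _ _ _ _ _ rfl rfl h1 h2

lemma hasDeriv_LF (hβc : Continuous β) (hk : 9 ≤ k) (hβ : 0 < β ρ) (hz : ρ * Y ρ ≤ 3 / 4)
    (hβd : HasDerivAt β (βp β Y ρ) ρ)
    (hzd : HasDerivAt (fun x => x * Y x) (zp k β Y ρ) ρ) :
    HasDerivAt (LF k β Y)
      (β ρ / 2 + (-zp k β Y ρ) / (1 - ρ * Y ρ) - (k : ℝ) * (β ρ / 2 + βp β Y ρ / β ρ)) ρ := by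
  have hp := prim_hasDeriv hβc ρ
  have h1 : (1 - ρ * Y ρ) ≠ 0 := by
    have : 0 < 1 - ρ * Y ρ := by linarith
    exact this.ne'
  have hlog1 : HasDerivAt (fun x => Real.log (1 - x * Y x)) ((-zp k β Y ρ) / (1 - ρ * Y ρ)) ρ := by
    exact (hzd.const_sub (1 : ℝ)).log h1
  have hlog2 : HasDerivAt (fun x => Real.log (β x)) (βp β Y ρ / β ρ) ρ := hβd.log hβ.ne'
  exact (hp.add hlog1).sub ((hp.add hlog2).const_mul (k : ℝ))

lemma hasDeriv_WF (hβc : Continuous β) (hk : 9 ≤ k) (hβ : 0 < β ρ) (hb : -1 ≤ ρ * β ρ)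
    (hz : ρ * Y ρ ≤ 3 / 4)
    (hβd : HasDerivAt β (βp β Y ρ) ρ)
    (hzd : HasDerivAt (fun x => x * Y x) (zp k β Y ρ) ρ) :
    HasDerivAt (WF k β Y) (- chat k β Y ρ * WF k β Y ρ) ρ := by
  have hL := hasDeriv_LF hβc hk hβ hz hβd hzd
  have := (hL.const_mul (((k : ℝ) + 2) / ((k : ℝ) + 3))).exp
  rw [identity_log hk hβ hb hz] at this
  refine HasDerivAt.congr_deriv (f := WF k β Y) this ?_
  unfold WF
  ring

lemma hasDeriv_chat (hk : 9 ≤ k) (hb : -1 ≤ ρ * β ρ)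
    (hz : ρ * Y ρ ≤ 3 / 4)
    (hβd : HasDerivAt β (βp β Y ρ) ρ)
    (hzd : HasDerivAt (fun x => x * Y x) (zp k β Y ρ) ρ) :
    HasDerivAt (chat k β Y) (C1 k β Y ρ) ρ := by
  have hK : (9 : ℝ) ≤ k := by exact_mod_cast hk
  have h1 : (1 - ρ * Y ρ) ≠ 0 := by
    have : 0 < 1 - ρ * Y ρ := by linarith
    exact this.ne'
  have h2 : ((k : ℝ) + 2 * (ρ * β ρ)) ≠ 0 := by
    have : 0 < (k : ℝ) + 2 * (ρ * β ρ) := by linarith
    exact this.ne'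
  have ha : HasDerivAt (aF Y) (aF Y ρ ^ 2 * zp k β Y ρ) ρ := by
    have := (hasDerivAt_const ρ (1 : ℝ)).div (hzd.const_sub (1 : ℝ)) h1
    refine HasDerivAt.congr_deriv (f := aF Y) this ?_
    unfold aF
    field_simp
    ring
  have hbp : HasDerivAt (fun x => x * β x) (β ρ + ρ * βp β Y ρ) ρ := by
    have := (hasDerivAt_id' ρ).mul hβd
    exact this.congr_deriv (by ring)
  have hnum : HasDerivAt (fun x => ((k : ℝ) + 2) * (2 * aF Y x - 1) * β x)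
      (((k : ℝ) + 2) * (2 * (aF Y ρ ^ 2 * zp k β Y ρ)) * β ρ
        + ((k : ℝ) + 2) * (2 * aF Y ρ - 1) * βp β Y ρ) ρ := by
    have := (((ha.const_mul (2 : ℝ)).sub_const 1).const_mul ((k : ℝ) + 2)).mul hβd
    exact this.congr_deriv (by ring)
  have hden : HasDerivAt (fun x => 2 * ((k : ℝ) + 2 * (x * β x)))
      (2 * (2 * (β ρ + ρ * βp β Y ρ))) ρ :=
    ((hbp.const_mul (2 : ℝ)).const_add (k : ℝ)).const_mul (2 : ℝ)
  have hden0 : 2 * ((k : ℝ) + 2 * (ρ * β ρ)) ≠ 0 := mul_ne_zero two_ne_zero h2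
  have := hnum.div hden hden0
  refine HasDerivAt.congr_deriv (f := chat k β Y) this ?_
  unfold C1
  generalize aF Y ρ ^ 2 * zp k β Y ρ = ap at *
  generalize aF Y ρ = a at *
  generalize βp β Y ρ = bp at *
  generalize β ρ = bb at *
  have h2' : (k : ℝ) + 2 * (ρ * bb) ≠ 0 := h2
  generalize hD : (k : ℝ) + 2 * (ρ * bb) = D at *
  field_simp

end pointwise

end M5

open M5 in
/-- The output of M3 + M4, in terms of `β` and `Y` only. -/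
theorem prof_of_solution (k : ℕ) (hk : 9 ≤ k) (δ : ℝ) (hδ : 0 < δ) (β Y : ℝ → ℝ)
    (hβ : ContDiff ℝ ∞ β) (hY : ContDiff ℝ ∞ Y)
    (hpos : ∀ ρ, -δ < ρ → 0 < β ρ)
    (hb : ∀ ρ, -δ < ρ → -1 ≤ ρ * β ρ)
    (hz : ∀ ρ, -δ < ρ → ρ * Y ρ ≤ 3 / 4)
    (hYn : ∀ ρ, 0 ≤ ρ → 0 ≤ Y ρ)
    (hβd : ∀ ρ, -δ < ρ → HasDerivAt β (β ρ * (Y ρ / (1 - ρ * Y ρ) - β ρ) / 2) ρ)
    (hYd : ∀ ρ, -δ < ρ → ρ * deriv Y ρ + (((k : ℝ) + 2) / 2) * Y ρ
        = hS k (β ρ) (ρ * β ρ) (ρ * Y ρ)) :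
    Nonempty (Prof k) := by
  have hK : (9 : ℝ) ≤ k := by exact_mod_cast hk
  have hβc : Continuous β := hβ.continuous
  have hβd' : ∀ ρ, -δ < ρ → HasDerivAt β (βp β Y ρ) ρ := hβd
  have hzd : ∀ ρ, -δ < ρ → HasDerivAt (fun x => x * Y x) (zp k β Y ρ) ρ := by
    intro ρ hρ
    have hYda : HasDerivAt Y (deriv Y ρ) ρ :=
      (hY.differentiable (by simp) ρ).hasDerivAt
    have := (hasDerivAt_id' ρ).mul hYda
    refine this.congr_deriv ?_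
    have h := hYd ρ hρ
    unfold zp
    linarith
  have h1pos : ∀ ρ, -δ < ρ → 0 < 1 - ρ * Y ρ := fun ρ h => by linarith [hz ρ h]
  have hfpos : ∀ ρ, 0 < fF β ρ := fun ρ => Real.exp_pos _
  have hfd : ∀ ρ, HasDerivAt (fF β) (gF β ρ / 2) ρ := by
    intro ρ
    have := (prim_hasDeriv hβc ρ).exp
    refine HasDerivAt.congr_deriv (f := fF β) this ?_
    unfold gF fF
    ring
  refine ⟨{
    δ := δ
    hδ := hδ
    f := fF β
    g := gF β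
    G := GF β Y
    W := WF k β Y
    W₁ := fun ρ => - chat k β Y ρ * WF k β Y ρ
    W₂ := fun ρ => (chat k β Y ρ ^ 2 - C1 k β Y ρ) * WF k β Y ρ
    f_smooth := (prim_smooth hβ).exp
    f_pos := hfpos
    f_deriv := hfd
    g_deriv := ?_
    g_pos := ?_
    a_pos := ?_
    G_nonneg := ?_
    W_eq := ?_
    W_deriv := ?_
    W₁_deriv := ?_
    pde := ?_ }⟩
  · -- g_deriv
    intro ρ hρ
    have := (hfd ρ).mul (hβd' ρ hρ)
    refine HasDerivAt.congr_deriv (f := gF β) this ?_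
    unfold GF gF βp
    ring
  · -- g_pos
    intro ρ hρ
    exact mul_pos (hfpos ρ) (hpos ρ hρ)
  · -- a_pos
    intro ρ hρ
    have hg := mul_pos (hfpos ρ) (hpos ρ hρ)
    have h1 := h1pos ρ hρ
    have : gF β ρ + ρ * GF β Y ρ = fF β ρ * β ρ / (1 - ρ * Y ρ) := by
      unfold gF GF
      field_simp
      ring
    rw [this]
    positivity
  · -- G_nonneg
    intro ρ hρ
    have hρ' : -δ < ρ := by linarith
    have hg := mul_pos (hfpos ρ) (hpos ρ hρ')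
    have h1 := h1pos ρ hρ'
    unfold GF
    exact mul_nonneg hg.le (div_nonneg (hYn ρ hρ) h1.le)
  · -- W_eq
    intro ρ hρ
    have hβp := hpos ρ hρ
    have hf := hfpos ρ
    have h1 := h1pos ρ hρ
    have hg : 0 < gF β ρ := mul_pos hf hβp
    obtain ⟨m, rfl⟩ : ∃ m, k = m + 1 := ⟨k - 1, by omega⟩
    have hsum : gF β ρ + ρ * GF β Y ρ = gF β ρ / (1 - ρ * Y ρ) := by
      unfold gF GF
      field_simp
      ring
    have hX : fF β ρ / (gF β ρ ^ (m + 1 - 1) * (gF β ρ + ρ * GF β Y ρ))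
        = fF β ρ * (1 - ρ * Y ρ) / gF β ρ ^ (m + 1) := by
      rw [hsum]
      simp only [Nat.add_sub_cancel]
      field_simp
      ring
    have hlog : Real.log (fF β ρ * (1 - ρ * Y ρ) / gF β ρ ^ (m + 1)) = LF (m + 1) β Y ρ := by
      rw [Real.log_div (by positivity) (by positivity), Real.log_mul hf.ne' h1.ne', Real.log_pow]
      unfold gF LF
      rw [Real.log_mul hf.ne' hβp.ne']
      unfold fF
      rw [Real.log_exp]
    rw [hX, Real.rpow_def_of_pos (by positivity), hlog]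
    unfold WF
    congr 1
    ring
  · -- W_deriv
    intro ρ hρ
    exact hasDeriv_WF hβc hk (hpos ρ hρ) (hb ρ hρ) (hz ρ hρ) (hβd' ρ hρ) (hzd ρ hρ)
  · -- W₁_deriv
    intro ρ hρ
    have hW := hasDeriv_WF hβc hk (hpos ρ hρ) (hb ρ hρ) (hz ρ hρ) (hβd' ρ hρ) (hzd ρ hρ)
    have hC := hasDeriv_chat hk (hb ρ hρ) (hz ρ hρ) (hβd' ρ hρ) (hzd ρ hρ)
    have := hC.neg.mul hW
    refine HasDerivAt.congr_deriv (f := fun ρ => - chat k β Y ρ * WF k β Y ρ) this ?_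
    simp only [Pi.neg_apply]
    ring
  · -- pde
    intro ρ hρ
    have hρ' : -δ < ρ := by linarith
    have hβp := hpos ρ hρ'
    have hf := hfpos ρ
    have h1 := h1pos ρ hρ'
    have key := identity_main hk hβp (hb ρ hρ') (hz ρ hρ')
    have hga : gF β ρ + ρ * GF β Y ρ = fF β ρ * β ρ * aF Y ρ := by
      unfold gF GF aF
      field_simp
      ring
    have ha : 0 < aF Y ρ := by
      unfold aF
      positivity
    rw [hga]
    unfold gF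
    generalize chat k β Y ρ = c at *
    generalize C1 k β Y ρ = c1 at *
    generalize WF k β Y ρ = W at *
    generalize aF Y ρ = a at *
    generalize fF β ρ = f at *
    generalize β ρ = b at *
    have hzero : -2 * c + 4 * ρ * (c ^ 2 - c1) - 2 * ((k : ℝ) - 1) * a * c + ((k : ℝ) + 2) * b * a = 0 := by
      linarith
    have : (2 * (-c * W) + 4 * ρ * ((c ^ 2 - c1) * W)) / (f * b * a)
        + 2 * ((k : ℝ) - 1) * (-c * W) / (f * b) + ((k : ℝ) + 2) * W / f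
        = W / (f * b * a) * (-2 * c + 4 * ρ * (c ^ 2 - c1) - 2 * ((k : ℝ) - 1) * a * c
            + ((k : ℝ) + 2) * b * a) := by
      field_simp
      ring
    rw [this, hzero, mul_zero]

/-- M3 + M4 + M5. -/
theorem exists_prof (k : ℕ) (hk : 9 ≤ k) : Nonempty (Prof k) := by
  obtain ⟨β, b, z, Y, hβ, hb, hz, hY, hβ0, hb0, hz0, hY0, ode⟩ := clamped_solution k hk
  obtain ⟨δ, hδ, H⟩ := trap k hk β b z Y hβ hb hz hY hβ0 hb0 hz0 hY0 ode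
  refine prof_of_solution k hk δ hδ β Y hβ hY (fun ρ h => (H ρ h).1) ?_ ?_ ?_ ?_ ?_
  · intro ρ h
    obtain ⟨_, hB, hbe, _, _⟩ := H ρ h
    rw [← hbe]; exact hB.2.2.1
  · intro ρ h
    obtain ⟨_, hB, _, hze, _⟩ := H ρ h
    rw [← hze]; exact hB.2.2.2.2.2.1
  · intro ρ h
    exact (H ρ (by linarith)).2.2.2.2 h
  · intro ρ h
    obtain ⟨_, hB, _, hze, _⟩ := H ρ h
    have := (ode ρ hB).1
    rwa [hze] at this
  · intro ρ h
    obtain ⟨_, hB, hbe, hze, _⟩ := H ρ h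
    have := (ode ρ hB).2.2.2
    rwa [hbe, hze] at this

end P252
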