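import Vale.Agent.Lib.P252.Core

/-!
# P252 module M6
matrix algebra of the radial family
-/

open scoped ContDiff Topology
open Matrix

namespace P252

set_option linter.unusedSectionVars false

section
variable {ι : Type*} [Fintype ι] [DecidableEq ι] (xt e : ι → ℝ)

/-- The decomposition of `Mm` in the span of `1`, `eeᵀ`, `x̃x̃ᵀ`, `x̃eᵀ`, `ex̃ᵀ`. -/
theorem Mm_eq (p q r t : ℝ) :
    Mm xt e p q r t = p • (1 : Matrix ι ι ℝ) + (t - p) • vecMulVec e e + q • vecMulVec xt xt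
      + r • vecMulVec xt e + r • vecMulVec e xt := by
  ext i j
  simp only [Mm, Matrix.of_apply, Matrix.add_apply, Matrix.smul_apply, Matrix.one_apply,
    vecMulVec_apply, smul_eq_mul]
  ring

theorem Mm_transpose (p q r t : ℝ) : (Mm xt e p q r t)ᵀ = Mm xt e p q r t := by
  ext i j
  simp only [Mm, Matrix.of_apply, Matrix.transpose_apply]
  by_cases h : i = j
  · subst h; ring
  · have h' : ¬ j = i := fun h'' => h h''.symm
    simp only [h, h', if_false]; ring

/-- The multiplication table of the span of `1`, `eeᵀ`, `x̃x̃ᵀ`, `x̃eᵀ`, `ex̃ᵀ`. -/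
theorem Mm_mul (he : e ⬝ᵥ e = 1) (hx : xt ⬝ᵥ e = 0) (p q r t p' q' r' t' : ℝ) :
    Mm xt e p q r t * Mm xt e p' q' r' t'
      = (p * p') • (1 : Matrix ι ι ℝ)
        + (p * (t' - p') + p' * (t - p) + (t - p) * (t' - p') + r * r' * (xt ⬝ᵥ xt))
            • vecMulVec e e
        + (p * q' + p' * q + q * q' * (xt ⬝ᵥ xt) + r * r') • vecMulVec xt xt
        + (p * r' + p' * r + q * r' * (xt ⬝ᵥ xt) + r * (t' - p')) • vecMulVec xt e
        + (p * r' + p' * r + (t - p) * r' + r * q' * (xt ⬝ᵥ xt)) • vecMulVec e xt := by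
  have hx' : e ⬝ᵥ xt = 0 := by rw [dotProduct_comm]; exact hx
  have h1 : vecMulVec e e * vecMulVec e e = vecMulVec e e := by
    rw [vecMulVec_mul_vecMulVec, he, one_smul]
  have h2 : vecMulVec e e * vecMulVec xt xt = 0 := by
    rw [vecMulVec_mul_vecMulVec, hx', zero_smul, vecMulVec_zero]
  have h3 : vecMulVec e e * vecMulVec xt e = 0 := by
    rw [vecMulVec_mul_vecMulVec, hx', zero_smul, vecMulVec_zero]
  have h4 : vecMulVec e e * vecMulVec e xt = vecMulVec e xt := by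
    rw [vecMulVec_mul_vecMulVec, he, one_smul]
  have h5 : vecMulVec xt xt * vecMulVec e e = 0 := by
    rw [vecMulVec_mul_vecMulVec, hx, zero_smul, vecMulVec_zero]
  have h6 : vecMulVec xt xt * vecMulVec xt xt = (xt ⬝ᵥ xt) • vecMulVec xt xt := by
    rw [vecMulVec_mul_vecMulVec, vecMulVec_smul]
  have h7 : vecMulVec xt xt * vecMulVec xt e = (xt ⬝ᵥ xt) • vecMulVec xt e := by
    rw [vecMulVec_mul_vecMulVec, vecMulVec_smul]
  have h8 : vecMulVec xt xt * vecMulVec e xt = 0 := by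
    rw [vecMulVec_mul_vecMulVec, hx, zero_smul, vecMulVec_zero]
  have h9 : vecMulVec xt e * vecMulVec e e = vecMulVec xt e := by
    rw [vecMulVec_mul_vecMulVec, he, one_smul]
  have h10 : vecMulVec xt e * vecMulVec xt xt = 0 := by
    rw [vecMulVec_mul_vecMulVec, hx', zero_smul, vecMulVec_zero]
  have h11 : vecMulVec xt e * vecMulVec xt e = 0 := by
    rw [vecMulVec_mul_vecMulVec, hx', zero_smul, vecMulVec_zero]
  have h12 : vecMulVec xt e * vecMulVec e xt = vecMulVec xt xt := by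
    rw [vecMulVec_mul_vecMulVec, he, one_smul]
  have h13 : vecMulVec e xt * vecMulVec e e = 0 := by
    rw [vecMulVec_mul_vecMulVec, hx, zero_smul, vecMulVec_zero]
  have h14 : vecMulVec e xt * vecMulVec xt xt = (xt ⬝ᵥ xt) • vecMulVec e xt := by
    rw [vecMulVec_mul_vecMulVec, vecMulVec_smul]
  have h15 : vecMulVec e xt * vecMulVec xt e = (xt ⬝ᵥ xt) • vecMulVec e e := by
    rw [vecMulVec_mul_vecMulVec, vecMulVec_smul]
  have h16 : vecMulVec e xt * vecMulVec e xt = 0 := by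
    rw [vecMulVec_mul_vecMulVec, hx, zero_smul, vecMulVec_zero]
  rw [Mm_eq, Mm_eq]
  simp only [add_mul, mul_add, smul_mul_assoc, mul_smul_comm, one_mul, mul_one,
    h1, h2, h3, h4, h5, h6, h7, h8, h9, h10, h11, h12, h13, h14, h15, h16, smul_zero, smul_smul]
  ext i j
  simp only [Matrix.add_apply, Matrix.smul_apply, smul_eq_mul, Matrix.zero_apply]
  ring

theorem Mm_inv (he : e ⬝ᵥ e = 1) (hx : xt ⬝ᵥ e = 0) (p q r t : ℝ) (hp : p ≠ 0)
    (hΔ : (p + q * (xt ⬝ᵥ xt)) * t - r ^ 2 * (xt ⬝ᵥ xt) ≠ 0) :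
    (Mm xt e p q r t)⁻¹ = Mm xt e (1 / p)
      ((r ^ 2 - q * t) / (p * ((p + q * (xt ⬝ᵥ xt)) * t - r ^ 2 * (xt ⬝ᵥ xt))))
      (-r / ((p + q * (xt ⬝ᵥ xt)) * t - r ^ 2 * (xt ⬝ᵥ xt)))
      ((p + q * (xt ⬝ᵥ xt)) / ((p + q * (xt ⬝ᵥ xt)) * t - r ^ 2 * (xt ⬝ᵥ xt))) := by
  apply Matrix.inv_eq_right_inv
  rw [Mm_mul xt e he hx]
  set ρ := xt ⬝ᵥ xt with hρ
  set Δ := (p + q * ρ) * t - r ^ 2 * ρ with hΔdef
  have c0 : p * (1 / p) = 1 := by field_simp
  have c1 : p * ((p + q * ρ) / Δ - 1 / p) + 1 / p * (t - p)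
      + (t - p) * ((p + q * ρ) / Δ - 1 / p) + r * (-r / Δ) * ρ = 0 := by
    field_simp
    rw [hΔdef]; ring
  have c2 : p * ((r ^ 2 - q * t) / (p * Δ)) + 1 / p * q
      + q * ((r ^ 2 - q * t) / (p * Δ)) * ρ + r * (-r / Δ) = 0 := by
    field_simp
    rw [hΔdef]; ring
  have c3 : p * (-r / Δ) + 1 / p * r + q * (-r / Δ) * ρ
      + r * ((p + q * ρ) / Δ - 1 / p) = 0 := by
    field_simp
    ring
  have c4 : p * (-r / Δ) + 1 / p * r + (t - p) * (-r / Δ)
      + r * ((r ^ 2 - q * t) / (p * Δ)) * ρ = 0 := by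
    field_simp
    rw [hΔdef]; ring
  rw [c0, c1, c2, c3, c4]
  simp

theorem Mm_frob (k : ℕ) (hcard : Fintype.card ι = k + 1)
    (he : e ⬝ᵥ e = 1) (hx : xt ⬝ᵥ e = 0) (p q r t p' q' r' t' : ℝ) :
    ∑ i, ∑ j, Mm xt e p q r t i j * Mm xt e p' q' r' t' i j
      = p * p' * k + (p * q' + q * p') * (xt ⬝ᵥ xt) + q * q' * (xt ⬝ᵥ xt) ^ 2
        + 2 * r * r' * (xt ⬝ᵥ xt) + t * t' := by
  have hx' : e ⬝ᵥ xt = 0 := by rw [dotProduct_comm]; exact hx
  have key : ∑ i, ∑ j, Mm xt e p q r t i j * Mm xt e p' q' r' t' i j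
      = Matrix.trace (Mm xt e p q r t * Mm xt e p' q' r' t') := by
    simp only [Matrix.trace, Matrix.diag_apply, Matrix.mul_apply]
    refine Finset.sum_congr rfl fun i _ => Finset.sum_congr rfl fun j _ => ?_
    have hs := congrFun (congrFun (Mm_transpose xt e p' q' r' t') j) i
    simp only [Matrix.transpose_apply] at hs
    rw [hs]
  rw [key, Mm_mul xt e he hx]
  simp only [Matrix.trace_add, Matrix.trace_smul, Matrix.trace_one, trace_vecMulVec, he, hx, hx',
    hcard, smul_eq_mul]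
  push_cast
  ring

theorem Mm_det (k : ℕ) (hk : 1 ≤ k) (hcard : Fintype.card ι = k + 1)
    (he : e ⬝ᵥ e = 1) (hx : xt ⬝ᵥ e = 0) (p q r t : ℝ) (hp : p ≠ 0) :
    (Mm xt e p q r t).det
      = p ^ (k - 1) * ((p + q * (xt ⬝ᵥ xt)) * t - r ^ 2 * (xt ⬝ᵥ xt)) := by
  have hx' : e ⬝ᵥ xt = 0 := by rw [dotProduct_comm]; exact hx
  set ρ := xt ⬝ᵥ xt with hρ
  -- `U : ι × Fin 2` and `V : Fin 2 × ι`
  let U : Matrix ι (Fin 2) ℝ := Matrix.of fun i a => ![xt i, e i] a
  let V : Matrix (Fin 2) ι ℝ :=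
    Matrix.of fun a j => ![(q * xt j + r * e j) / p, (r * xt j + (t - p) * e j) / p] a
  have hM : Mm xt e p q r t = p • (1 + U * V) := by
    ext i j
    simp only [Mm, U, V, Matrix.of_apply, Matrix.smul_apply, Matrix.add_apply, Matrix.mul_apply,
      Fin.sum_univ_two, Matrix.one_apply, smul_eq_mul, Matrix.cons_val_zero, Matrix.cons_val_one]
    field_simp
    ring
  have hVU : V * U = !![q * ρ / p, r / p; r * ρ / p, (t - p) / p] := by
    have sum1 : ∀ (a b c d : ℝ),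
        ∑ l, ((a * xt l + b * e l) / p) * (c * xt l + d * e l)
          = (a * c * ρ + b * d) / p := by
      intro a b c d
      have : ∀ l, ((a * xt l + b * e l) / p) * (c * xt l + d * e l)
          = (a * c / p) * (xt l * xt l) + ((a * d + b * c) / p) * (xt l * e l)
            + (b * d / p) * (e l * e l) := by
        intro l; field_simp; ring
      simp only [this, Finset.sum_add_distrib, ← Finset.mul_sum]
      have h1 : ∑ l, xt l * xt l = ρ := rfl
      have h2 : ∑ l, xt l * e l = 0 := hx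
      have h3 : ∑ l, e l * e l = 1 := he
      rw [h1, h2, h3]; field_simp; ring
    ext a b
    fin_cases a <;> fin_cases b
    · simp only [V, U, Matrix.mul_apply, Matrix.of_apply]
      have := sum1 q r 1 0
      simpa using this
    · simp only [V, U, Matrix.mul_apply, Matrix.of_apply]
      have := sum1 q r 0 1
      simpa using this
    · simp only [V, U, Matrix.mul_apply, Matrix.of_apply]
      have := sum1 r (t - p) 1 0
      simpa using this
    · simp only [V, U, Matrix.mul_apply, Matrix.of_apply]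
      have := sum1 r (t - p) 0 1
      simpa using this
  rw [hM, Matrix.det_smul, Matrix.det_one_add_mul_comm, hVU, hcard]
  have h2 : (1 + !![q * ρ / p, r / p; r * ρ / p, (t - p) / p] : Matrix (Fin 2) (Fin 2) ℝ)
      = !![1 + q * ρ / p, r / p; r * ρ / p, 1 + (t - p) / p] := by
    ext a b
    fin_cases a <;> fin_cases b <;> simp
  rw [h2, Matrix.det_fin_two_of]
  obtain ⟨m, rfl⟩ : ∃ m, k = m + 1 := ⟨k - 1, by omega⟩
  have : m + 1 + 1 = m + 2 := rfl
  simp only [Nat.add_sub_cancel, this]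
  rw [pow_add]
  field_simp
  ring

theorem Mm_posDef (he : e ⬝ᵥ e = 1) (hx : xt ⬝ᵥ e = 0) (p A κ α β' : ℝ) (hp : 0 < p)
    (hA : 0 ≤ A) (hκ : 0 < κ) (hβ' : β' ≠ 0) :
    (Mm xt e p (A + κ * α ^ 2) (κ * α * β') (κ * β' ^ 2)).PosDef := by
  have hx' : e ⬝ᵥ xt = 0 := by rw [dotProduct_comm]; exact hx
  refine Matrix.PosDef.of_dotProduct_mulVec_pos ?_ ?_
  · exact Mm_transpose xt e _ _ _ _
  · intro ξ hξ
    simp only [star_trivial]
    set c := xt ⬝ᵥ ξ with hc
    set η := e ⬝ᵥ ξ with hη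
    have hform : ξ ⬝ᵥ (Mm xt e p (A + κ * α ^ 2) (κ * α * β') (κ * β' ^ 2) *ᵥ ξ)
        = p * (ξ - η • e) ⬝ᵥ (ξ - η • e) + A * c ^ 2 + κ * (α * c + β' * η) ^ 2 := by
      have h1 : (ξ - η • e) ⬝ᵥ (ξ - η • e) = ξ ⬝ᵥ ξ - η ^ 2 := by
        simp only [sub_dotProduct, dotProduct_sub, smul_dotProduct, dotProduct_smul, he, smul_eq_mul]
        rw [dotProduct_comm ξ e, ← hη]
        ring
      have h2 : (Mm xt e p (A + κ * α ^ 2) (κ * α * β') (κ * β' ^ 2) *ᵥ ξ)
          = p • ξ + ((κ * β' ^ 2 - p) * η) • e + ((A + κ * α ^ 2) * c) • xt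
            + ((κ * α * β') * η) • xt + ((κ * α * β') * c) • e := by
        rw [Mm_eq]
        ext i
        simp only [Matrix.add_mulVec, Matrix.smul_mulVec, Matrix.one_mulVec, Matrix.vecMulVec_mulVec,
          Pi.add_apply, Pi.smul_apply, smul_eq_mul, MulOpposite.smul_eq_mul_unop,
          MulOpposite.unop_op, ← hη, ← hc]
        ring
      rw [h1, h2]
      simp only [dotProduct_add, dotProduct_smul, smul_eq_mul]
      rw [dotProduct_comm ξ e, dotProduct_comm ξ xt, ← hη, ← hc]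
      ring
    rw [hform]
    have h0 : 0 ≤ (ξ - η • e) ⬝ᵥ (ξ - η • e) := by
      simpa [dotProduct] using Finset.sum_nonneg fun i _ => mul_self_nonneg ((ξ - η • e) i)
    by_contra hle
    have hle' : p * ((ξ - η • e) ⬝ᵥ (ξ - η • e)) + A * c ^ 2 + κ * (α * c + β' * η) ^ 2 ≤ 0 :=
      not_lt.mp hle
    have t1 : 0 ≤ p * ((ξ - η • e) ⬝ᵥ (ξ - η • e)) := mul_nonneg hp.le h0
    have t2 : 0 ≤ A * c ^ 2 := mul_nonneg hA (sq_nonneg c)
    have t3 : 0 ≤ κ * (α * c + β' * η) ^ 2 := mul_nonneg hκ.le (sq_nonneg _)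
    have z1 : (ξ - η • e) ⬝ᵥ (ξ - η • e) = 0 := by
      have : p * ((ξ - η • e) ⬝ᵥ (ξ - η • e)) = 0 := by linarith
      exact (mul_eq_zero.mp this).resolve_left hp.ne'
    have z2 : ξ - η • e = 0 := dotProduct_self_eq_zero.mp z1
    have z3 : ξ = η • e := sub_eq_zero.mp z2
    have z4 : c = 0 := by
      rw [hc, z3, dotProduct_smul, hx, smul_zero]
    have z5 : (β' * η) ^ 2 = 0 := by
      have : κ * (α * c + β' * η) ^ 2 = 0 := by linarith
      have := (mul_eq_zero.mp this).resolve_left hκ.ne'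
      rwa [z4, mul_zero, zero_add] at this
    have z6 : η = 0 := by
      have : β' * η = 0 := by simpa using z5
      exact (mul_eq_zero.mp this).resolve_left hβ'
    apply hξ
    rw [z3, z6, zero_smul]

end

end P252
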