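import Vale.Agent.Lib.P252.Core

/-!
# P252 module M7
the Hessian of a function of `(ρ, s)`
-/

open scoped ContDiff Topology
open Matrix

namespace P252

/-- Coordinate linear maps of `xtF`. -/
noncomputable def m7Coord (k : ℕ) (j : Fin (k + 1)) : (Fin (k + 1) → ℝ) →L[ℝ] ℝ :=
  if j = Fin.last k then 0 else ContinuousLinearMap.proj j

private theorem m7_xtF_apply (k : ℕ) (x : Fin (k + 1) → ℝ) (j : Fin (k + 1)) :
    xtF k x j = m7Coord k j x := by
  unfold xtF m7Coord
  split_ifs <;> simp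

private theorem m7_coord_single (k : ℕ) (i j : Fin (k + 1)) :
    m7Coord k j (Pi.single i 1) = (if i = j then 1 else 0) - eL k i * eL k j := by
  unfold m7Coord eL
  by_cases hj : j = Fin.last k
  · subst hj
    by_cases hi : i = Fin.last k
    · subst hi; simp
    · simp [hi, Pi.single_apply]
  · by_cases hij : i = j
    · subst hij; simp [hj, Pi.single_apply]
    · have hji : j ≠ i := fun h => hij h.symm
      simp [hj, hij, hji, Pi.single_apply]

private theorem m7_rho_eq (k : ℕ) (x : Fin (k + 1) → ℝ) :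
    rhoF k x = ∑ j, m7Coord k j x * m7Coord k j x := by
  unfold rhoF dotProduct
  exact Finset.sum_congr rfl fun j _ => by rw [m7_xtF_apply]

/-- The derivative of `rhoF`. -/
noncomputable def m7DRho (k : ℕ) (x : Fin (k + 1) → ℝ) : (Fin (k + 1) → ℝ) →L[ℝ] ℝ :=
  ∑ j, (2 * xtF k x j) • m7Coord k j

private theorem m7_hasFDerivAt_rho (k : ℕ) (x : Fin (k + 1) → ℝ) :
    HasFDerivAt (rhoF k) (m7DRho k x) x := by
  have h : rhoF k = fun y => ∑ j, m7Coord k j y * m7Coord k j y := funext (m7_rho_eq k)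
  rw [h]
  have key : ∀ j, HasFDerivAt (fun y => m7Coord k j y * m7Coord k j y)
      ((2 * xtF k x j) • m7Coord k j) x := by
    intro j
    have h1 : HasFDerivAt (fun y => m7Coord k j y) (m7Coord k j) x := (m7Coord k j).hasFDerivAt
    have h3 : HasFDerivAt (fun y => m7Coord k j y * m7Coord k j y)
        (m7Coord k j x • m7Coord k j + m7Coord k j x • m7Coord k j) x := h1.mul h1
    have e : (2 * xtF k x j) • m7Coord k j
        = m7Coord k j x • m7Coord k j + m7Coord k j x • m7Coord k j := by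
      rw [m7_xtF_apply, two_mul, add_smul]
    rw [e]
    exact h3
  have := HasFDerivAt.fun_sum (u := Finset.univ) (fun j _ => key j)
  exact this

private theorem m7_DRho_single (k : ℕ) (x : Fin (k + 1) → ℝ) (i : Fin (k + 1)) :
    m7DRho k x (Pi.single i 1) = 2 * xtF k x i := by
  unfold m7DRho
  rw [_root_.sum_apply]
  have : ∀ j, ((2 * xtF k x j) • m7Coord k j) (Pi.single i 1)
      = if j = i then 2 * xtF k x i else 0 := by
    intro j
    rw [_root_.smul_apply, smul_eq_mul, m7_coord_single]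
    by_cases hj : j = Fin.last k
    · subst hj
      have : xtF k x (Fin.last k) = 0 := by simp [xtF]
      by_cases hi : Fin.last k = i
      · subst hi; simp [this]
      · simp [this, hi]
    · have hej : eL k j = 0 := by
        unfold eL; simp [Pi.single_apply, hj]
      by_cases hji : j = i
      · subst hji; simp [hej]
      · have hij : i ≠ j := fun h => hji h.symm
        simp [hej, hji, hij]
  simp [this]

theorem eL_dot (k : ℕ) : eL k ⬝ᵥ eL k = 1 := by
  unfold eL dotProduct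
  simp [Pi.single_apply]

theorem xtF_dot_eL (k : ℕ) (x : Fin (k + 1) → ℝ) : xtF k x ⬝ᵥ eL k = 0 := by
  unfold xtF eL dotProduct
  apply Finset.sum_eq_zero
  intro i _
  by_cases hi : i = Fin.last k
  · simp [hi]
  · simp [hi, Pi.single_apply]

theorem rhoF_nonneg (k : ℕ) (x : Fin (k + 1) → ℝ) : 0 ≤ rhoF k x := by
  rw [m7_rho_eq]
  exact Finset.sum_nonneg fun j _ => mul_self_nonneg _

theorem rhoF_contDiff (k : ℕ) : ContDiff ℝ ∞ (rhoF k) := by
  have h : rhoF k = fun y => ∑ j, m7Coord k j y * m7Coord k j y := funext (m7_rho_eq k)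
  rw [h]
  apply ContDiff.sum
  intro j _
  exact (m7Coord k j).contDiff.mul (m7Coord k j).contDiff

theorem sF_contDiff (k : ℕ) : ContDiff ℝ ∞ (sF k) := by
  have : sF k = (ContinuousLinearMap.proj (Fin.last k) : (Fin (k + 1) → ℝ) →L[ℝ] ℝ) := by
    ext x; rfl
  rw [this]
  exact ContinuousLinearMap.contDiff _

private theorem m7_hasFDerivAt_s (k : ℕ) (x : Fin (k + 1) → ℝ) :
    HasFDerivAt (sF k) (ContinuousLinearMap.proj (Fin.last k) : (Fin (k + 1) → ℝ) →L[ℝ] ℝ) x :=
  (ContinuousLinearMap.proj (Fin.last k) : (Fin (k + 1) → ℝ) →L[ℝ] ℝ).hasFDerivAt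

private theorem m7_s_single (k : ℕ) (i : Fin (k + 1)) :
    (ContinuousLinearMap.proj (Fin.last k) : (Fin (k + 1) → ℝ) →L[ℝ] ℝ) (Pi.single i 1)
      = eL k i := by
  unfold eL
  simp only [ContinuousLinearMap.proj_apply, Pi.single_apply]
  by_cases h : i = Fin.last k
  · subst h; simp
  · have h' : Fin.last k ≠ i := fun e => h e.symm
    simp [h, h']

/-- the derivative of `y ↦ (ρ y, s y)` -/
noncomputable def m7Dφ (k : ℕ) (x : Fin (k + 1) → ℝ) : (Fin (k + 1) → ℝ) →L[ℝ] ℝ × ℝ :=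
  (m7DRho k x).prod (ContinuousLinearMap.proj (Fin.last k))

private theorem m7_hasFDerivAt_φ (k : ℕ) (x : Fin (k + 1) → ℝ) :
    HasFDerivAt (fun y => (rhoF k y, sF k y)) (m7Dφ k x) x :=
  (m7_hasFDerivAt_rho k x).prodMk (m7_hasFDerivAt_s k x)

theorem hess_comp (k : ℕ) (Ψ P S : ℝ × ℝ → ℝ) (P₁ P₂ S₂ : ℝ) (x : Fin (k + 1) → ℝ)
    (hΨ : ∀ᶠ z in 𝓝 (rhoF k x, sF k x),
      HasFDerivAt Ψ (P z • ContinuousLinearMap.fst ℝ ℝ ℝ + S z • ContinuousLinearMap.snd ℝ ℝ ℝ) z)
    (hP : HasFDerivAt P (P₁ • ContinuousLinearMap.fst ℝ ℝ ℝ + P₂ • ContinuousLinearMap.snd ℝ ℝ ℝ)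
      (rhoF k x, sF k x))
    (hS : HasFDerivAt S (P₂ • ContinuousLinearMap.fst ℝ ℝ ℝ + S₂ • ContinuousLinearMap.snd ℝ ℝ ℝ)
      (rhoF k x, sF k x)) :
    hessMat (fun y => Ψ (rhoF k y, sF k y)) x
      = Mm (xtF k x) (eL k) (2 * P (rhoF k x, sF k x)) (4 * P₁) (2 * P₂) S₂ := by
  set φ : (Fin (k + 1) → ℝ) → ℝ × ℝ := fun y => (rhoF k y, sF k y) with hφ
  have hφx : ∀ y, HasFDerivAt φ (m7Dφ k y) y := m7_hasFDerivAt_φ k
  have hev : ∀ᶠ y in 𝓝 x,
      HasFDerivAt Ψ (P (φ y) • ContinuousLinearMap.fst ℝ ℝ ℝ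
        + S (φ y) • ContinuousLinearMap.snd ℝ ℝ ℝ) (φ y) :=
    (hφx x).continuousAt.eventually hΨ
  ext i j
  simp only [hessMat, Matrix.of_apply, Mm]
  -- first derivative near `x`
  have hfirst : (fun y => fderiv ℝ (fun y => Ψ (rhoF k y, sF k y)) y (Pi.single j 1))
      =ᶠ[𝓝 x] fun y => P (φ y) * (2 * xtF k y j) + S (φ y) * eL k j := by
    filter_upwards [hev] with y hy
    have hcomp := hy.comp y (hφx y)
    have hfd : fderiv ℝ (fun y => Ψ (rhoF k y, sF k y)) y = _ := hcomp.fderiv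
    rw [hfd]
    simp only [ContinuousLinearMap.comp_apply, _root_.add_apply,
      _root_.smul_apply, ContinuousLinearMap.coe_fst', ContinuousLinearMap.coe_snd',
      smul_eq_mul, m7Dφ, ContinuousLinearMap.prod_apply, m7_DRho_single, m7_s_single]
  rw [hfirst.fderiv_eq]
  -- second derivative at `x`
  have hPφ : HasFDerivAt (fun y => P (φ y))
      ((P₁ • ContinuousLinearMap.fst ℝ ℝ ℝ + P₂ • ContinuousLinearMap.snd ℝ ℝ ℝ).comp (m7Dφ k x)) x :=
    hP.comp x (hφx x)
  have hSφ : HasFDerivAt (fun y => S (φ y))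
      ((P₂ • ContinuousLinearMap.fst ℝ ℝ ℝ + S₂ • ContinuousLinearMap.snd ℝ ℝ ℝ).comp (m7Dφ k x)) x :=
    hS.comp x (hφx x)
  have hxt : HasFDerivAt (fun y => 2 * xtF k y j) ((2 : ℝ) • m7Coord k j) x := by
    have : (fun y => 2 * xtF k y j) = fun y => (2 : ℝ) * m7Coord k j y :=
      funext fun y => by rw [m7_xtF_apply]
    rw [this]
    exact ((m7Coord k j).hasFDerivAt).const_mul 2
  have htot := (hPφ.mul hxt).add (hSφ.mul_const (eL k j))
  have hfd2 := htot.fderiv
  have heq : (fun y => P (φ y) * (2 * xtF k y j) + S (φ y) * eL k j)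
      = fun y => P (φ y) * (2 * xtF k y j) + S (φ y) * eL k j := rfl
  rw [show fderiv ℝ (fun y => P (φ y) * (2 * xtF k y j) + S (φ y) * eL k j) x = _ from hfd2]
  simp only [_root_.add_apply, _root_.smul_apply,
    ContinuousLinearMap.comp_apply, ContinuousLinearMap.coe_fst', ContinuousLinearMap.coe_snd',
    smul_eq_mul, m7Dφ, ContinuousLinearMap.prod_apply, m7_DRho_single, m7_s_single,
    m7_coord_single]
  ring

end P252
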