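import Vale.Agent.Lib.P252.M6
import Vale.Agent.Lib.P252.M7

/-!
# P252 module M8
the function u: Hessian, smoothness, positivity, determinant, non-quadratic
-/

open scoped ContDiff Topology
open Matrix

namespace P252

/-- `u(x) = √(f(ρ)² + s²)` as a function of `(ρ, s)`. -/
noncomputable def uΨ {k : ℕ} (P : Prof k) (z : ℝ × ℝ) : ℝ := Real.sqrt (P.f z.1 ^ 2 + z.2 ^ 2)

/-- `w = W(ρ) (u/f)^(k+2)` as a function of `(ρ, s)`. -/
noncomputable def wΨ {k : ℕ} (P : Prof k) (z : ℝ × ℝ) : ℝ :=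
  P.W z.1 * (uΨ P z / P.f z.1) ^ (k + 2)

/-- The counterexample. -/
noncomputable def uFun {k : ℕ} (P : Prof k) (x : Fin (k + 1) → ℝ) : ℝ := uΨ P (rhoF k x, sF k x)

private lemma m8_rad_pos {k : ℕ} (P : Prof k) (z : ℝ × ℝ) : 0 < P.f z.1 ^ 2 + z.2 ^ 2 := by
  have := P.f_pos z.1
  positivity

private lemma m8_u_pos {k : ℕ} (P : Prof k) (z : ℝ × ℝ) : 0 < uΨ P z :=
  Real.sqrt_pos.mpr (m8_rad_pos P z)

private lemma m8_u_sq {k : ℕ} (P : Prof k) (z : ℝ × ℝ) : uΨ P z ^ 2 = P.f z.1 ^ 2 + z.2 ^ 2 :=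
  Real.sq_sqrt (m8_rad_pos P z).le

private lemma m8_uΨ_contDiff {k : ℕ} (P : Prof k) : ContDiff ℝ ∞ (uΨ P) := by
  have h1 : ContDiff ℝ ∞ (fun z : ℝ × ℝ => P.f z.1 ^ 2 + z.2 ^ 2) :=
    ((P.f_smooth.comp contDiff_fst).pow 2).add (contDiff_snd.pow 2)
  exact h1.sqrt (fun z => (m8_rad_pos P z).ne')

theorem uFun_contDiff {k : ℕ} (P : Prof k) : ContDiff ℝ ∞ (uFun P) :=
  (m8_uΨ_contDiff P).comp ((rhoF_contDiff k).prodMk (sF_contDiff k))

/-- the first derivatives of `u`, as functions -/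
private noncomputable def m8P {k : ℕ} (P : Prof k) (z : ℝ × ℝ) : ℝ :=
  P.f z.1 * P.g z.1 * (uΨ P z)⁻¹ / 2

private noncomputable def m8S {k : ℕ} (P : Prof k) (z : ℝ × ℝ) : ℝ :=
  z.2 * (uΨ P z)⁻¹

private lemma m8_hf {k : ℕ} (P : Prof k) (z : ℝ × ℝ) :
    HasFDerivAt (fun z : ℝ × ℝ => P.f z.1) ((P.g z.1 / 2) • ContinuousLinearMap.fst ℝ ℝ ℝ) z :=
  (P.f_deriv z.1).comp_hasFDerivAt z hasFDerivAt_fst

private lemma m8_hu {k : ℕ} (P : Prof k) (z : ℝ × ℝ) :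
    HasFDerivAt (uΨ P) (m8P P z • ContinuousLinearMap.fst ℝ ℝ ℝ + m8S P z • ContinuousLinearMap.snd ℝ ℝ ℝ) z := by
  have h1 : HasFDerivAt (fun z : ℝ × ℝ => P.f z.1 ^ 2 + z.2 ^ 2)
      ((2 * P.f z.1 ^ 1) • ((P.g z.1 / 2) • ContinuousLinearMap.fst ℝ ℝ ℝ) + (2 * z.2 ^ 1) • ContinuousLinearMap.snd ℝ ℝ ℝ) z := by
    have a := (m8_hf P z).pow 2
    have b := (hasFDerivAt_snd (𝕜 := ℝ) (E := ℝ) (F := ℝ) (p := z)).pow 2
    refine (a.fun_add b).congr_fderiv ?_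
    ext v <;> simp
  have h2 := h1.sqrt (m8_rad_pos P z).ne'
  refine h2.congr_fderiv ?_
  have hu : √(P.f z.1 ^ 2 + z.2 ^ 2) = uΨ P z := rfl
  have hne := (m8_u_pos P z).ne'
  ext v <;> simp [m8P, m8S, hu] <;> field_simp <;> ring


private lemma m8_hinv {k : ℕ} (P : Prof k) (z : ℝ × ℝ) :
    HasFDerivAt (fun z => (uΨ P z)⁻¹)
      ((-(uΨ P z ^ 2)⁻¹) • (m8P P z • ContinuousLinearMap.fst ℝ ℝ ℝ
        + m8S P z • ContinuousLinearMap.snd ℝ ℝ ℝ)) z :=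
  (hasDerivAt_inv (m8_u_pos P z).ne').comp_hasFDerivAt z (m8_hu P z)

private lemma m8_hP {k : ℕ} (P : Prof k) (z : ℝ × ℝ) (hz : -P.δ < z.1) :
    HasFDerivAt (m8P P)
      (((P.f z.1 * P.G z.1 / uΨ P z + 1 / uΨ P z ^ 3 * (z.2 * P.g z.1) ^ 2) / 4) •
          ContinuousLinearMap.fst ℝ ℝ ℝ
        + ((1 / uΨ P z ^ 3 * (z.2 * P.g z.1) * (-P.f z.1)) / 2) •
          ContinuousLinearMap.snd ℝ ℝ ℝ) z := by
  have hf := m8_hf P z
  have hg : HasFDerivAt (fun z : ℝ × ℝ => P.g z.1)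
      ((P.G z.1 / 2) • ContinuousLinearMap.fst ℝ ℝ ℝ) z :=
    (P.g_deriv z.1 hz).comp_hasFDerivAt z hasFDerivAt_fst
  have hi := m8_hinv P z
  have h := (((hf.fun_mul hg).fun_mul hi).mul_const (1 / 2 : ℝ))
  have e : m8P P = fun y => P.f y.1 * P.g y.1 * (uΨ P y)⁻¹ * (1 / 2 : ℝ) := by
    funext y; simp [m8P]; ring
  rw [e]
  refine h.congr_fderiv ?_
  have hne := (m8_u_pos P z).ne'
  have hu2 := m8_u_sq P z
  simp only [m8P, m8S]
  generalize uΨ P z = u at *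
  generalize P.f z.1 = f at *
  generalize P.g z.1 = g at *
  generalize P.G z.1 = G at *
  generalize z.2 = s at *
  ext v
  · simp
    field_simp
    linear_combination (4 * g ^ 2) * hu2
  · simp
    field_simp


private lemma m8_hS {k : ℕ} (P : Prof k) (z : ℝ × ℝ) :
    HasFDerivAt (m8S P)
      (((1 / uΨ P z ^ 3 * (z.2 * P.g z.1) * (-P.f z.1)) / 2) • ContinuousLinearMap.fst ℝ ℝ ℝ
        + (1 / uΨ P z ^ 3 * (-P.f z.1) ^ 2) • ContinuousLinearMap.snd ℝ ℝ ℝ) z := by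
  have hs := hasFDerivAt_snd (𝕜 := ℝ) (E := ℝ) (F := ℝ) (p := z)
  have hi := m8_hinv P z
  have h := hs.fun_mul hi
  have e : m8S P = fun y => y.2 * (uΨ P y)⁻¹ := rfl
  rw [e]
  refine h.congr_fderiv ?_
  have hne := (m8_u_pos P z).ne'
  have hu2 := m8_u_sq P z
  simp only [m8P, m8S]
  generalize uΨ P z = u at *
  generalize P.f z.1 = f at *
  generalize P.g z.1 = g at *
  generalize z.2 = s at *
  ext v
  · simp
    field_simp
  · simp
    field_simp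
    linear_combination hu2

/-- The Hessian of `u`, with `ρ = rhoF k x`, `s = sF k x`, `U = uΨ`. -/
theorem uFun_hess {k : ℕ} (P : Prof k) (x : Fin (k + 1) → ℝ) :
    hessMat (uFun P) x = Mm (xtF k x) (eL k)
      (P.f (rhoF k x) * P.g (rhoF k x) / uΨ P (rhoF k x, sF k x))
      (P.f (rhoF k x) * P.G (rhoF k x) / uΨ P (rhoF k x, sF k x)
        + 1 / uΨ P (rhoF k x, sF k x) ^ 3 * (sF k x * P.g (rhoF k x)) ^ 2)
      (1 / uΨ P (rhoF k x, sF k x) ^ 3 * (sF k x * P.g (rhoF k x)) * (-P.f (rhoF k x)))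
      (1 / uΨ P (rhoF k x, sF k x) ^ 3 * (-P.f (rhoF k x)) ^ 2) := by
  have hρ : -P.δ < (rhoF k x, sF k x).1 := by
    have h1 := rhoF_nonneg k x
    have h2 := P.hδ
    simp only
    linarith
  have h := hess_comp k (uΨ P) (m8P P) (m8S P) _ _ _ x
    (Filter.Eventually.of_forall (m8_hu P)) (m8_hP P (rhoF k x, sF k x) hρ)
    (m8_hS P (rhoF k x, sF k x))
  have e : uFun P = fun y => uΨ P (rhoF k y, sF k y) := rfl
  rw [e, h]
  have hne := (m8_u_pos P (rhoF k x, sF k x)).ne'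
  have e1 : 2 * m8P P (rhoF k x, sF k x)
      = P.f (rhoF k x) * P.g (rhoF k x) / uΨ P (rhoF k x, sF k x) := by
    simp only [m8P]
    field_simp
  rw [e1]
  congr 1
  · ring
  · ring

theorem uFun_posDef {k : ℕ} (P : Prof k) (x : Fin (k + 1) → ℝ) :
    (hessMat (uFun P) x).PosDef := by
  rw [uFun_hess]
  have hu := m8_u_pos P (rhoF k x, sF k x)
  have hρ := rhoF_nonneg k x
  have hδ := P.hδ
  have hf := P.f_pos (rhoF k x)
  have hg := P.g_pos (rhoF k x) (by linarith)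
  have hG := P.G_nonneg (rhoF k x) hρ
  refine Mm_posDef (xtF k x) (eL k) (eL_dot k) (xtF_dot_eL k x) _ _ _ _ _
    (by positivity) (by positivity) (by positivity) ?_
  exact neg_ne_zero.mpr hf.ne'

/-- `det D²u = f^(k+2) g^(k-1) (g + ρ G) / u^(k+3)`. -/
theorem uFun_det {k : ℕ} (hk : 1 ≤ k) (P : Prof k) (x : Fin (k + 1) → ℝ) :
    (hessMat (uFun P) x).det =
      P.f (rhoF k x) ^ (k + 2) * P.g (rhoF k x) ^ (k - 1)
        * (P.g (rhoF k x) + rhoF k x * P.G (rhoF k x)) / uΨ P (rhoF k x, sF k x) ^ (k + 3) := by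
  rw [uFun_hess]
  have hu := m8_u_pos P (rhoF k x, sF k x)
  have hρ := rhoF_nonneg k x
  have hδ := P.hδ
  have hf := P.f_pos (rhoF k x)
  have hg := P.g_pos (rhoF k x) (by linarith)
  rw [Mm_det (xtF k x) (eL k) k hk (Fintype.card_fin _) (eL_dot k) (xtF_dot_eL k x) _ _ _ _
    (by positivity)]
  have hr : xtF k x ⬝ᵥ xtF k x = rhoF k x := rfl
  rw [hr]
  obtain ⟨m, rfl⟩ : ∃ m, k = m + 1 := ⟨k - 1, by omega⟩
  simp only [Nat.add_sub_cancel]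
  generalize uΨ P (rhoF (m + 1) x, sF (m + 1) x) = u at *
  generalize P.f (rhoF (m + 1) x) = f at *
  generalize P.g (rhoF (m + 1) x) = g at *
  generalize P.G (rhoF (m + 1) x) = G at *
  generalize rhoF (m + 1) x = ρ at *
  generalize sF (m + 1) x = s at *
  have hne := hu.ne'
  rw [div_pow, mul_pow]
  field_simp
  ring

theorem uFun_not_quadratic {k : ℕ} (P : Prof k) : ¬ IsQuadratic (uFun P) := by
  rintro ⟨A, b, c, h⟩
  have hx : ∀ s : ℝ, xtF k (s • eL k) = 0 := by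
    intro s
    funext i
    by_cases hi : i = Fin.last k
    · simp [xtF, hi]
    · simp [xtF, hi, eL, Pi.single_apply]
  have hρ : ∀ s : ℝ, rhoF k (s • eL k) = 0 := by
    intro s
    simp [rhoF, hx]
  have hs : ∀ s : ℝ, sF k (s • eL k) = s := by
    intro s
    simp [sF, eL]
  set f0 := P.f 0 with hf0
  have hf0pos : 0 < f0 := P.f_pos 0
  set α : ℝ := (1 / 2) * (eL k ⬝ᵥ A *ᵥ eL k) with hα
  set β : ℝ := b ⬝ᵥ eL k with hβ
  have key : ∀ s : ℝ, Real.sqrt (f0 ^ 2 + s ^ 2) = α * s ^ 2 + β * s + c := by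
    intro s
    have h1 := h (s • eL k)
    simp only [uFun, uΨ, hρ, hs] at h1
    rw [h1]
    simp only [smul_dotProduct, dotProduct_smul, mulVec_smul, hα, hβ, smul_eq_mul]
    ring
  have k0 := key 0
  have k1 := key 1
  have km := key (-1)
  have k2 := key 2
  have e0 : Real.sqrt (f0 ^ 2 + 0 ^ 2) = f0 := by
    rw [show f0 ^ 2 + 0 ^ 2 = f0 ^ 2 by ring]
    exact Real.sqrt_sq hf0pos.le
  have hm1 : Real.sqrt (f0 ^ 2 + (-1 : ℝ) ^ 2) = Real.sqrt (f0 ^ 2 + 1 ^ 2) := by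
    rw [show (-1 : ℝ) ^ 2 = 1 ^ 2 by norm_num]
  have sq1 : Real.sqrt (f0 ^ 2 + 1 ^ 2) ^ 2 = f0 ^ 2 + 1 ^ 2 := Real.sq_sqrt (by positivity)
  have sq2 : Real.sqrt (f0 ^ 2 + 2 ^ 2) ^ 2 = f0 ^ 2 + 2 ^ 2 := Real.sq_sqrt (by positivity)
  rw [e0] at k0
  rw [hm1] at km
  have hβ0 : β = 0 := by linarith
  have hc : c = f0 := by
    rw [hβ0] at k0
    linarith
  rw [k1] at sq1
  rw [k2] at sq2
  rw [hβ0, hc] at sq1 sq2
  have a2 : α ^ 2 = 0 := by nlinarith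
  have a0 : α = 0 := by simpa using a2
  rw [a0] at sq1
  nlinarith

end P252
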